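import Vale.Agent.P245.Defs

open MeasureTheory Real
open scoped InnerProductSpace ENNReal

namespace Vale.Agent.P245

variable {n : ℕ}
/-- Pure real arithmetic. Here `s = lam / 8`, `lam' = lam / 16`, `t = lam ^ 2 / (8192 * A)`.
Steps: `Ih ≤ I`; `I - If ≤ I / 4 + 2 * ε / lam`; `Em ≤ (2 * D + lam * I + t * I) / 16`;
`t * I / 4 ≤ 9 / 8 * D' + ε * (1 + 3 / 2 * t / lam)`. -/
theorem arA {A lam s t K I Kh Ih Kf If Em D D' ε : ℝ} (hA : 0 < A) (hl : 0 < lam)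
    (hs : s = lam / 8) (ht : t = lam ^ 2 / (8192 * A)) (hI : 0 ≤ I) (hIh : 0 ≤ Ih)
    (hD : 0 ≤ D) (hD' : D ≤ D') (hε : 0 ≤ ε)
    (h1 : K ≤ lam / 2 * I + D) (h2 : D - ε ≤ K - lam / 2 * I)
    (h3 : K - Kh ≤ s / 2 * I) (h4 : s / 2 * Ih ≤ K - Kh) (h5 : Kh - Kf ≤ s / 2 * Ih)
    (h6 : Kf ≤ lam / 2 * If + D)
    (h7 : Kf + t / 2 * If - Em ≤ lam / 16 / s * (Kh - Kf) + lam / 16 * t / (2 * s) * (Ih - If) + D')
    (h8 : Em ≤ t / 2 * (16 * A * (K + Kh + t * Ih) / s ^ 2)) :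
    lam / 2 * I ≤ 18432 * A / lam * D' + (16384 * A / lam + 3) * ε := by
  have ht0 : 0 < t := by rw [ht]; positivity
  have hs0 : 0 < s := by rw [hs]; positivity
  have a1 : Ih ≤ I := by nlinarith
  set e := ε / lam with he
  have he0 : 0 ≤ e := by positivity
  have hε' : ε = e * lam := by rw [he]; field_simp
  have a2 : I - If ≤ I / 4 + 2 * e := by
    have : lam / 2 * (I - If) ≤ lam / 2 * (I / 4 + 2 * e) := by
      rw [hs] at h3 h5; nlinarith
    exact le_of_mul_le_mul_left this (by positivity)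
  have c1 : lam / 16 / s = 1 / 2 := by rw [hs]; field_simp; norm_num
  have c2 : lam / 16 * t / (2 * s) = t / 4 := by rw [hs]; field_simp; norm_num
  have c3 : t / 2 * (16 * A * (K + Kh + t * Ih) / s ^ 2) = (K + Kh + t * Ih) / 16 := by
    rw [hs]; nth_rewrite 1 [ht]; field_simp; ring
  rw [c1, c2] at h7
  rw [c3] at h8
  have b1 := mul_le_mul_of_nonneg_left a1 ht0.le
  have b2 := mul_le_mul_of_nonneg_left a2 ht0.le
  have b3 := mul_le_mul_of_nonneg_left a1 hl.le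
  have b4 := mul_nonneg hl.le hI
  have b5 := mul_nonneg hl.le hIh
  have key : t * I ≤ 9 / 2 * D' + 4 * ε + 6 * (t * e) := by
    rw [hs] at h3 h4 h5
    nlinarith
  have c4 : lam / t = 8192 * A / lam := by rw [ht]; field_simp
  have b6 := mul_le_mul_of_nonneg_left key (by positivity : 0 ≤ lam / t / 2)
  have c5 : lam / t / 2 * (t * I) = lam / 2 * I := by field_simp
  have c6 : lam / t / 2 * (9 / 2 * D' + 4 * ε + 6 * (t * e)) =
      lam / t * (9 / 4 * D' + 2 * ε) + 3 * ε := by rw [hε']; field_simp; ring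
  rw [c5, c6, c4] at b6
  calc lam / 2 * I ≤ _ := b6
    _ = _ := by ring

lemma arB0 {A l0 η lam u h : ℝ} (hA : 0 < A) (hη : 0 < η)
    (hη' : η ≤ 1 / 20) (hl0 : 10 ^ 11 * A ≤ η ^ 7 * l0) (hl : l0 ≤ lam) (hl' : lam ≤ 150 * l0)
    (hu : u = η ^ 2 * l0 / 100) (hh : h = η * u / 2) :
    0 < lam ∧ 0 < u ∧ 0 < h ∧ 64 * A * lam / h ^ 2 ≤ η / 40 ∧ h / u = η / 2 ∧
      (u / h) ^ 2 = 4 * (1 / η ^ 2) ∧ 400 ≤ 1 / η ^ 2 ∧ 1 / η ^ 2 * h ≤ η * lam / 200 := by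
  have hl0p : 0 < l0 := by
    by_contra hn
    have : η ^ 7 * l0 ≤ 0 := mul_nonpos_of_nonneg_of_nonpos (by positivity) (not_lt.1 hn)
    linarith
  have hlp : 0 < lam := hl0p.trans_le hl
  have hup : 0 < u := by rw [hu]; positivity
  have hhp : 0 < h := by rw [hh]; positivity
  refine ⟨hlp, hup, hhp, ?_, by rw [hh]; field_simp, by rw [hh]; field_simp; norm_num, ?_, ?_⟩
  · rw [div_le_iff₀ (by positivity), hh, hu]
    have k1 : 64 * A * lam ≤ 64 * A * (150 * l0) := by gcongr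
    have k2 := mul_le_mul_of_nonneg_right hl0 hl0p.le
    have k3 := mul_pos hA hl0p
    linarith
  · rw [le_div_iff₀ (by positivity)]; nlinarith
  · have e : 1 / η ^ 2 * h = η * l0 / 200 := by rw [hh, hu]; field_simp; norm_num
    have := mul_le_mul_of_nonneg_left hl hη.le
    linarith

lemma arB1 {η w : ℝ} (hη : 0 < η) (hη' : η ≤ 1 / 20) (hw : w = 1 / (1 + η)) :
    w * (1 + η / 4) ≤ 1 ∧ 16 / 5 * η ≤ 5 - w - w * (1 + η / 4) * 4 := by
  have hw0 : 0 < w := by rw [hw]; positivity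
  have hw1 : w * (1 + η) = 1 := by rw [hw]; field_simp
  have k2 : 4 / 5 ≤ w := by nlinarith
  constructor <;> nlinarith

/-- Pure real arithmetic. `u = η ^ 2 * l0 / 100`, `h = η * u / 2`, `t = 4 * lam`,
`lam' = lam / (1 + η)`. With `Θ = (h * I + ε) / lam`: `Ih ≤ I`, `I - If ≤ 2 * Θ`,
`V ≤ (1 + η / 4) * (I - Ih)`, `Ih - If + V ≤ (1 + η / 4) * (2 * Θ)`, `64 * A * lam / h ^ 2 ≤ η / 40`,
`(u / h) ^ 2 = 4 / η ^ 2`. Add `h7` and `h8`. See notes/P245.md. -/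
theorem arB {A l0 η lam u h t K I Kh Ih Kf If V M Em D D' ε : ℝ} (hA : 0 < A) (hη : 0 < η)
    (hη' : η ≤ 1 / 20) (hl0 : 10 ^ 11 * A ≤ η ^ 7 * l0) (hl : l0 ≤ lam) (hl' : lam ≤ 150 * l0)
    (hu : u = η ^ 2 * l0 / 100) (hh : h = η * u / 2) (ht : t = 4 * lam)
    (hI : 0 ≤ I) (hIh : 0 ≤ Ih) (hD : 0 ≤ D) (hε : 0 ≤ ε)
    (h1 : K ≤ lam / 2 * I + D) (h2 : D - ε ≤ K - lam / 2 * I)
    (h3 : K - Kh ≤ h / 2 * I) (h4 : h / 2 * Ih ≤ K - Kh) (h5 : Kh - Kf ≤ h / 2 * Ih)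
    (h5' : If ≤ Ih) (h6 : Kf ≤ lam / 2 * If + D)
    (h7 : Kf + t / 2 * If - Em ≤
      lam / (1 + η) / h * (Kh - Kf) + lam / (1 + η) * t / (2 * h) * (Ih - If) + D')
    (h8 : K + t / 2 * (Ih - V) - Em ≤
      lam / (1 + η) / 2 * I + lam / (1 + η) * t / (2 * h) * V + D')
    (h9 : Em ≤ t / 2 * M) (h10 : M ≤ 16 * A * (K + Kh + t * Ih) / h ^ 2 + 2 * (u / h) ^ 2 * V)
    (h11 : V ≤ I - Ih + 1 / u * (K - Kh - h / 2 * Ih)) :
    η * lam * I - η / 40 * D - (100 / η ^ 2 + 4 * lam / h) * ε ≤ D' - D := by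
  obtain ⟨hlp, hup, hhp, a7, c1, c2, hr0, a9⟩ := arB0 hA hη hη' hl0 hl hl' hu hh
  have a1 : Ih ≤ I := le_of_mul_le_mul_left (h4.trans h3) (by positivity)
  have htp : 0 < t := by rw [ht]; positivity
  obtain ⟨Θ, hΘ⟩ : ∃ Θ, Θ = (h * I + ε) / lam := ⟨_, rfl⟩
  have hΘ0 : 0 ≤ Θ := by rw [hΘ]; positivity
  have hΘ' : lam * Θ = h * I + ε := by rw [hΘ]; field_simp
  have hIh' := mul_le_mul_of_nonneg_left a1 hhp.le
  have a2 : I - If ≤ 2 * Θ := by
    have : lam / 2 * (I - If) ≤ lam / 2 * (2 * Θ) := by linarith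
    exact le_of_mul_le_mul_left this (by positivity)
  have a3 : V ≤ (1 + η / 4) * (I - Ih) := by
    have k1 : K - Kh - h / 2 * Ih ≤ h / 2 * (I - Ih) := by linarith
    have k2 := mul_le_mul_of_nonneg_left k1 (by positivity : 0 ≤ 1 / u)
    have k3 : 1 / u * (h / 2 * (I - Ih)) = η / 4 * (I - Ih) := by
      rw [show η / 4 = h / u / 2 by rw [c1]; ring]; ring
    linarith
  have d1 : η * (I - Ih) ≤ 1 / 20 * (I - Ih) := mul_le_mul_of_nonneg_right hη' (by linarith)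
  have a4 : V ≤ 11 / 5 * Θ := by linarith
  have a5 : Ih - If + V ≤ (1 + η / 4) * (2 * Θ) := by
    have k1 := mul_le_mul_of_nonneg_left a2 (by positivity : 0 ≤ 1 + η / 4)
    have k2 := mul_nonneg hη.le (by linarith : 0 ≤ Ih - If)
    linarith
  have a6 : I - 21 / 5 * Θ ≤ Ih - V := by linarith
  obtain ⟨b, hb⟩ : ∃ b, b = 64 * A * lam / h ^ 2 := ⟨_, rfl⟩
  have hb0 : 0 ≤ b := by rw [hb]; positivity
  obtain ⟨r, hr⟩ : ∃ r, r = 1 / η ^ 2 := ⟨_, rfl⟩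
  rw [← hb] at a7
  rw [← hr] at c2 hr0 a9
  have hX0 : 0 ≤ η * lam * I := by positivity
  have b1 : r * (h * I) ≤ η * lam * I / 200 := by
    have := mul_le_mul_of_nonneg_right a9 hI
    linarith
  have b2 : h * I ≤ η * lam * I / 80000 := by
    have := mul_le_mul_of_nonneg_right hr0 (mul_nonneg hhp.le hI)
    linarith
  have b3 : 2 * Em ≤ η / 40 * (2 * D) + η * lam * I / 8 + 88 / 5 * 4 * (r * (h * I + ε)) := by
    have k1 : K + Kh + t * Ih ≤ 2 * D + 5 * (lam * I) := by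
      have := mul_le_mul_of_nonneg_left a1 hlp.le
      have := mul_nonneg hhp.le hIh
      rw [ht]; linarith
    have k2 := mul_le_mul_of_nonneg_left h10 htp.le
    have k3 : t * (16 * A * (K + Kh + t * Ih) / h ^ 2 + 2 * (u / h) ^ 2 * V) =
        b * (K + Kh + t * Ih) + 32 * (r * (lam * V)) := by
      rw [c2, hb, ht]; ring
    have k4 := mul_le_mul_of_nonneg_left k1 hb0
    have k5 := mul_le_mul_of_nonneg_right a7
      (by positivity : 0 ≤ 2 * D + 5 * (lam * I))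
    have k6 : lam * V ≤ 11 / 5 * (h * I + ε) := by
      have := mul_le_mul_of_nonneg_left a4 hlp.le
      linarith
    have k7 := mul_le_mul_of_nonneg_left k6 (by linarith : 0 ≤ r)
    linarith
  obtain ⟨w, hw⟩ : ∃ w, w = 1 / (1 + η) := ⟨_, rfl⟩
  have hw0 : 0 < w := by rw [hw]; positivity
  obtain ⟨w1, w2⟩ := arB1 hη hη' hw
  have c3 : lam / (1 + η) = w * lam := by rw [hw]; ring
  rw [c3] at h7 h8
  have b4 : w * lam / h * (Kh - Kf) ≤ w * (lam * I) / 2 := by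
    have k1 : Kh - Kf ≤ h / 2 * I := by linarith
    have := mul_le_mul_of_nonneg_left k1 (by positivity : 0 ≤ w * lam / h)
    have e : w * lam / h * (h / 2 * I) = w * (lam * I) / 2 := by field_simp
    linarith
  have b5 : w * lam * t / (2 * h) * (Ih - If) + w * lam * t / (2 * h) * V ≤
      w * (1 + η / 4) * (4 * (lam * I)) + 4 * lam / h * ε := by
    have k1 := mul_le_mul_of_nonneg_left a5 (by positivity : 0 ≤ w * lam * t / (2 * h))
    have e : w * lam * t / (2 * h) * ((1 + η / 4) * (2 * Θ)) =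
        w * (1 + η / 4) * (4 * (lam * I)) + w * (1 + η / 4) * (4 * lam / h * ε) := by
      rw [ht, hΘ]; field_simp
    have k3 := mul_le_mul_of_nonneg_right w1 (by positivity : 0 ≤ 4 * lam / h * ε)
    rw [e, mul_add] at k1
    rw [one_mul] at k3
    linarith
  have b6 : 4 * (lam * I) - 62 / 5 * (h * I + ε) ≤ t / 2 * If + t / 2 * (Ih - V) := by
    have k1 : 2 * I - 31 / 5 * Θ ≤ If + (Ih - V) := by linarith
    have k2 := mul_le_mul_of_nonneg_left k1 (by positivity : 0 ≤ t / 2)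
    have b7 : t / 2 * (2 * I - 31 / 5 * Θ) = 4 * (lam * I) - 62 / 5 * (h * I + ε) := by
      rw [← hΘ', ht]; ring
    rw [b7, mul_add (t / 2)] at k2
    exact k2
  have b8 := mul_le_mul_of_nonneg_right w2 (mul_nonneg hlp.le hI)
  have b9 : 400 * ε ≤ r * ε := mul_le_mul_of_nonneg_right hr0 hε
  have c4 : 100 / η ^ 2 = 100 * r := by rw [hr]; ring
  have b10 : 0 ≤ 4 * lam / h * ε := by positivity
  have b11 : K - h * I ≤ Kf := by linarith
  rw [c4]
  clear h9 h10 h11 hΘ hb hr hw c1 c2 c3 c4 a2 a3 a4 a5 a6 a7 a9 d1 hu hh ht hl0 hl hl' w1 w2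
  linarith

end Vale.Agent.P245
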