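import Vale.Agent.P245.Jt

open MeasureTheory Real
open scoped InnerProductSpace ENNReal

namespace Vale.Agent.P245

variable {n : ℕ}
variable {p : Measure (Eu n)} [IsProbabilityMeasure p] {h : ℝ}
variable {G : Type} [NormedAddCommGroup G] [NormedSpace ℝ G] [CompleteSpace G]

omit [CompleteSpace G] in
lemma integral_jt (hh : 0 < h) (F : Eu n × Eu n → G) :
    ∫ q, F q ∂jt p h = ∫ q, gk h (q.2 - q.1) • F q ∂(p.prod volume) :=
  integral_wd (measurable_gk2 h) (fun _ => (gk_pos hh _).le) F

omit [CompleteSpace G] in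
lemma integrable_jt_iff (hh : 0 < h) (F : Eu n × Eu n → G) :
    Integrable F (jt p h) ↔ Integrable (fun q => gk h (q.2 - q.1) • F q) (p.prod volume) :=
  integrable_wd (measurable_gk2 h) (fun _ => (gk_pos hh _).le) F

lemma jt_fst (hh : 0 < h) : MeasurePreserving Prod.fst (jt p h) p := by
  refine ⟨measurable_fst, Measure.ext fun S hS => ?_⟩
  rw [Measure.map_apply measurable_fst hS, jt, withDensity_apply _ (measurable_fst hS),
    ← Set.prod_univ, ← Measure.prod_restrict, Measure.restrict_univ,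
    lintegral_prod _ (measurable_gk2 h).ennreal_ofReal.aemeasurable]
  have e : ∀ x : Eu n, ∫⁻ y, ENNReal.ofReal (gk h (y - x)) = 1 := fun x => by
    have := (ker_prob hh x).measure_univ
    rwa [ker, withDensity_apply _ MeasurableSet.univ, Measure.restrict_univ] at this
  simp [e]

lemma jt_snd (hh : 0 < h) : MeasurePreserving Prod.snd (jt p h) (smo p h) := by
  refine ⟨measurable_snd, Measure.ext fun S hS => ?_⟩
  rw [Measure.map_apply measurable_snd hS, jt, withDensity_apply _ (measurable_snd hS),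
    ← Set.univ_prod, ← Measure.prod_restrict, Measure.restrict_univ,
    lintegral_prod_symm _ (measurable_gk2 h).ennreal_ofReal.aemeasurable, smo,
    withDensity_apply _ hS]
  refine lintegral_congr fun y => ?_
  exact (ofReal_integral_eq_lintegral_ofReal (integrable_gk_sub hh y)
    (ae_of_all _ fun x => (gk_pos hh _).le)).symm

lemma jt_prob (hh : 0 < h) : IsProbabilityMeasure (jt p h) := by
  constructor
  have := (jt_fst (p := p) hh).measure_preimage MeasurableSet.univ.nullMeasurableSet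
  simpa using this

/-- Unfold `withDensity`, Fubini (`integral_prod`, `Integrable.integral_prod_left`), `integral_ker`. -/
lemma jt_ker (hh : 0 < h) {F : Eu n × Eu n → G} (hF : Integrable F (jt p h)) :
    Integrable (fun x => ∫ y, F (x, y) ∂ker h x) p ∧
      ∫ q, F q ∂jt p h = ∫ x, ∫ y, F (x, y) ∂ker h x ∂p := by
  rw [integrable_jt_iff hh] at hF
  simp only [integral_ker hh]
  exact ⟨hF.integral_prod_left, by rw [integral_jt hh, integral_prod _ hF]⟩

/-- Same with `integral_prod_symm`, `integral_post`, `integral_smo`. -/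
lemma jt_post (hh : 0 < h) {F : Eu n × Eu n → G} (hF : Integrable F (jt p h)) :
    Integrable (fun y => ∫ x, F (x, y) ∂post p h y) (smo p h) ∧
      ∫ q, F q ∂jt p h = ∫ y, ∫ x, F (x, y) ∂post p h y ∂smo p h := by
  rw [integrable_jt_iff hh] at hF
  have e : ∀ y, Nk p h y • ∫ x, F (x, y) ∂post p h y = ∫ x, gk h (y - x) • F (x, y) ∂p :=
    fun y => by rw [integral_post hh, smul_inv_smul₀ (Nk_pos hh y).ne']
  rw [integrable_smo_iff hh, integral_smo hh]
  simp only [e]
  exact ⟨hF.integral_prod_right, by rw [integral_jt hh, integral_prod_symm _ hF]⟩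

omit [CompleteSpace G] in
lemma jt_int_fst (hh : 0 < h) {F : Eu n → G} (hF : Integrable F p) :
    Integrable (fun q : Eu n × Eu n => F q.1) (jt p h) ∧
      ∫ q, F q.1 ∂jt p h = ∫ x, F x ∂p := by
  have h1 := jt_fst (p := p) hh
  refine ⟨(h1.integrable_comp hF.1).2 hF, ?_⟩
  have := integral_map (μ := jt p h) h1.measurable.aemeasurable (f := F)
    (by rw [h1.map_eq]; exact hF.1)
  rw [h1.map_eq] at this
  exact this.symm

omit [CompleteSpace G] in
lemma jt_int_snd (hh : 0 < h) {F : Eu n → G} (hF : Integrable F (smo p h)) :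
    Integrable (fun q : Eu n × Eu n => F q.2) (jt p h) ∧
      ∫ q, F q.2 ∂jt p h = ∫ y, F y ∂smo p h := by
  have h1 := jt_snd (p := p) hh
  refine ⟨(h1.integrable_comp hF.1).2 hF, ?_⟩
  have := integral_map (μ := jt p h) h1.measurable.aemeasurable (f := F)
    (by rw [h1.map_eq]; exact hF.1)
  rw [h1.map_eq] at this
  exact this.symm

lemma ker_smo (hh : 0 < h) {F : Eu n → G} (hF : Integrable F (smo p h)) :
    Integrable (fun x => ∫ y, F y ∂ker h x) p ∧
      ∫ x, ∫ y, F y ∂ker h x ∂p = ∫ y, F y ∂smo p h := by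
  obtain ⟨h1, h2⟩ := jt_int_snd hh hF
  obtain ⟨h3, h4⟩ := jt_ker hh h1
  exact ⟨h3, h4.symm.trans h2⟩

lemma post_smo (hh : 0 < h) {F : Eu n → G} (hF : Integrable F p) :
    Integrable (fun y => ∫ x, F x ∂post p h y) (smo p h) ∧
      ∫ y, ∫ x, F x ∂post p h y ∂smo p h = ∫ x, F x ∂p := by
  obtain ⟨h1, h2⟩ := jt_int_fst hh hF
  obtain ⟨h3, h4⟩ := jt_post hh h1
  exact ⟨h3, h4.symm.trans h2⟩

lemma jt_mul (hh : 0 < h) {g : Eu n → ℝ} (hg : Wt g) {F : Eu n → G}
    (hF : Integrable F (smo p h)) :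
    Integrable (fun q : Eu n × Eu n => g q.1 • F q.2) (jt p h) ∧
      ∫ q, g q.1 • F q.2 ∂jt p h = ∫ y, gF p h g y • F y ∂smo p h := by
  have := post_prob (p := p) hh
  have h1 := (hg.comp measurable_fst).integrable_smul (jt_int_snd hh hF).1
  refine ⟨h1, ?_⟩
  rw [(jt_post hh h1).2]
  simp only [integral_smul_const, gF]

lemma ker_mul (hh : 0 < h) {g : Eu n → ℝ} (hg : Wt g) {F : Eu n → G}
    (hF : Integrable F (smo p h)) :
    Integrable (fun x => g x • ∫ y, F y ∂ker h x) p ∧
      ∫ x, g x • ∫ y, F y ∂ker h x ∂p = ∫ y, gF p h g y • F y ∂smo p h := by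
  obtain ⟨h1, h2⟩ := jt_mul hh hg hF
  obtain ⟨h3, h4⟩ := jt_ker hh h1
  simp only [integral_smul] at h3 h4
  exact ⟨h3, h4.symm.trans h2⟩

end Vale.Agent.P245
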