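import Vale.Agent.P245.Pl

open MeasureTheory Real Filter Topology
open scoped InnerProductSpace ENNReal

namespace Vale.Agent.P245

variable {n : ℕ}
variable {q : Measure (Eu n)} {s : ℝ}

namespace Lsix

/-- sup-convolution -/
noncomputable def sc (h : Eu n → ℝ) (c : ℝ) (z : Eu n) : ℝ := ⨆ v : Eu n, (h (z + v) - c * ‖v‖ ^ 2)

variable {h : Eu n → ℝ} {L c : ℝ}

lemma le_bd (hL : ∀ x y, |h x - h y| ≤ L * ‖x - y‖) (hc : 0 < c) (z v : Eu n) :
    h (z + v) - c * ‖v‖ ^ 2 ≤ h z + L ^ 2 / (4 * c) := by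
  have h1 := hL (z + v) z
  rw [add_sub_cancel_left] at h1
  have h2 := le_abs_self (h (z + v) - h z)
  have h3 : L ^ 2 / (4 * c) + c * ‖v‖ ^ 2 - L * ‖v‖ = (L - 2 * c * ‖v‖) ^ 2 / (4 * c) := by
    field_simp; ring
  have h4 : 0 ≤ (L - 2 * c * ‖v‖) ^ 2 / (4 * c) := by positivity
  linarith

lemma bdd (hL : ∀ x y, |h x - h y| ≤ L * ‖x - y‖) (hc : 0 < c) (z : Eu n) :
    BddAbove (Set.range fun v : Eu n => h (z + v) - c * ‖v‖ ^ 2) :=
  ⟨_, by rintro _ ⟨v, rfl⟩; exact le_bd hL hc z v⟩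

lemma sc_le (hL : ∀ x y, |h x - h y| ≤ L * ‖x - y‖) (hc : 0 < c) (z : Eu n) :
    sc h c z ≤ h z + L ^ 2 / (4 * c) := ciSup_le fun v => le_bd hL hc z v

lemma le_sc (hL : ∀ x y, |h x - h y| ≤ L * ‖x - y‖) (hc : 0 < c) (z v : Eu n) :
    h (z + v) - c * ‖v‖ ^ 2 ≤ sc h c z := le_ciSup (bdd hL hc z) v

lemma sc_meas (hL : ∀ x y, |h x - h y| ≤ L * ‖x - y‖) (hc : 0 < c) : Measurable (sc h c) := by
  have key : ∀ x y, sc h c x ≤ sc h c y + L * ‖x - y‖ := fun x y => ciSup_le fun v => by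
    have h1 := hL (x + v) (y + v)
    rw [add_sub_add_right_eq_sub] at h1
    linarith [le_sc hL hc y v, le_abs_self (h (x + v) - h (y + v))]
  refine (lip_cont (L := L) fun x y => ?_).measurable
  have h1 := key x y
  have h2 := key y x
  rw [norm_sub_rev] at h2
  rw [abs_le]
  constructor <;> linarith

lemma sc_loc (hL : ∀ x y, |h x - h y| ≤ L * ‖x - y‖) {x : Eu n} {f' : Eu n →L[ℝ] ℝ}
    (hd : HasFDerivAt h f' x) {ε : ℝ} (hε : 0 < ε) :
    ∃ c0 : ℝ, ∀ c, 0 < c → c0 ≤ c → sc h c x ≤ h x + (‖f'‖ + ε) ^ 2 / (4 * c) := by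
  have h1 := (hasFDerivAt_iff_isLittleO_nhds_zero.1 hd).def hε
  obtain ⟨ρ, hρ, h2⟩ := Metric.eventually_nhds_iff.1 h1
  refine ⟨|L| / ρ, fun c hc hc0 => ciSup_le fun v => ?_⟩
  have h5 : 0 ≤ (‖f'‖ + ε) ^ 2 / (4 * c) := by positivity
  by_cases hv : ‖v‖ < ρ
  · have h3 := h2 (y := v) (by simpa using hv)
    rw [Real.norm_eq_abs] at h3
    have h4 := le_abs_self (h (x + v) - h x - f' v)
    have h6 := f'.le_opNorm v
    have h7 := le_abs_self (f' v)
    rw [Real.norm_eq_abs] at h6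
    have h8 : (‖f'‖ + ε) ^ 2 / (4 * c) + c * ‖v‖ ^ 2 - (‖f'‖ + ε) * ‖v‖ =
        (‖f'‖ + ε - 2 * c * ‖v‖) ^ 2 / (4 * c) := by field_simp; ring
    have h9 : 0 ≤ (‖f'‖ + ε - 2 * c * ‖v‖) ^ 2 / (4 * c) := by positivity
    nlinarith
  · push Not at hv
    have h3 := hL (x + v) x
    rw [add_sub_cancel_left] at h3
    have h4 := le_abs_self (h (x + v) - h x)
    rw [div_le_iff₀ hρ] at hc0
    have h6 : |L| ≤ c * ‖v‖ := hc0.trans (mul_le_mul_of_nonneg_left hv hc.le)
    have h7 : L * ‖v‖ ≤ c * ‖v‖ * ‖v‖ :=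
      mul_le_mul_of_nonneg_right ((le_abs_self L).trans h6) (norm_nonneg _)
    nlinarith

lemma exp_sub_one_le {y M : ℝ} (hy : 0 ≤ y) (hM : y ≤ M) : exp y - 1 ≤ y * exp M := by
  have h1 := add_one_le_exp (-y)
  have h2 : exp (-y) * exp y = 1 := by rw [← exp_add]; simp
  have h3 := exp_pos y
  have h4 := exp_le_exp.2 hM
  nlinarith

/-- one step inequality -/
lemma step (hq : SLC q s) (hs : 0 < s) (hL : ∀ x y, |h x - h y| ≤ L * ‖x - y‖) {τ : ℝ}
    (h0 : 0 < τ) (h1 : τ < 1) :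
    τ * Ent q (fun x => exp (h x)) ≤
      ∫ x, exp (sc h ((1 - τ) / (2 * s * τ)) x) ∂q - ∫ x, exp (h x) ∂q := by
  have := hq.prob
  have hm := (lip_cont hL).measurable
  have ha : 0 < 1 - τ := by linarith
  set a := 1 - τ with had
  have hc : 0 < a / (2 * s * τ) := by positivity
  have hb := lip_abs_le hL
  have iw : Integrable (fun x => exp (h x)) q :=
    hq.int_exp hm (C := |h 0|) (L := L) fun x => (le_abs_self _).trans (hb x)
  have i1 : Integrable (fun x => exp (a⁻¹ * h x)) q := by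
    refine hq.int_exp (hm.const_mul _) (C := a⁻¹ * |h 0|) (L := a⁻¹ * L) fun x => ?_
    have := mul_le_mul_of_nonneg_left ((le_abs_self _).trans (hb x)) (inv_pos.2 ha).le
    linarith
  have i2 : Integrable (fun x => exp (sc h (a / (2 * s * τ)) x)) q :=
    hq.int_exp (sc_meas hL hc) (C := |h 0| + L ^ 2 / (4 * (a / (2 * s * τ)))) (L := L) fun x => by
      linarith [sc_le hL hc x, le_abs_self (h x), hb x]
  have iwl : Integrable (fun x => exp (h x) * h x) q := by
    refine hq.int_of_le (hm.exp.mul hm) (C := exp (2 * |h 0|)) (c := 2 * L) fun x => ?_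
    rw [abs_mul, abs_of_pos (exp_pos _), ← exp_add]
    have h2 := add_one_le_exp |h x|
    have h3 := exp_le_exp.2 (le_abs_self (h x))
    calc exp (h x) * |h x| ≤ exp |h x| * exp |h x| :=
          mul_le_mul h3 (by linarith) (abs_nonneg _) (exp_pos _).le
      _ = exp (|h x| + |h x|) := by rw [exp_add]
      _ ≤ _ := exp_le_exp.2 (by linarith [hb x])
  have key := hq.pl ha h0 (by ring) (φ := fun x => a⁻¹ * h x) (ψ := fun _ => 0)
    (χ := sc h (a / (2 * s * τ))) (hm.const_mul _) measurable_const (sc_meas hL hc) i1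
    (integrable_const _) i2 fun x y => by
      have h2 := le_sc hL hc (a • x + τ • y) (τ • (x - y))
      have e1 : a • x + τ • y + τ • (x - y) = x := by
        rw [had]; module
      have e2 : a / (2 * s * τ) * ‖τ • (x - y)‖ ^ 2 = a * τ * ‖x - y‖ ^ 2 / (2 * s) := by
        rw [norm_smul, mul_pow, Real.norm_eq_abs, sq_abs]; field_simp
      have e3 : a * (a⁻¹ * h x) = h x := by field_simp
      rw [e1, e2] at h2
      rw [e3]; linarith
  have g := gibbs (q := q) (w := fun x => exp (h x)) (φ := fun x => a⁻¹ * h x)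
    (fun x => (exp_pos _).le) iw (by simpa using iwl)
    (by simpa [mul_left_comm] using iwl.const_mul a⁻¹) i1
  have pW : 0 < ∫ x, exp (h x) ∂q := integral_exp_pos iw
  have pZ : 0 < ∫ x, exp (sc h (a / (2 * s * τ)) x) ∂q := integral_exp_pos i2
  have e4 : ∫ x, exp (h x) * (a⁻¹ * h x) ∂q = a⁻¹ * KK q fun x => exp (h x) := by
    unfold KK
    rw [← integral_const_mul]
    simp [mul_left_comm]
  rw [e4] at g
  simp only [exp_zero, integral_const, probReal_univ, smul_eq_mul, mul_one, log_one, mul_zero,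
    add_zero] at key
  set W := ∫ x, exp (h x) ∂q
  set Z := ∫ x, exp (sc h (a / (2 * s * τ)) x) ∂q
  set E := Ent q fun x => exp (h x) with hE
  have e5 : KK q (fun x => exp (h x)) = E + W * log W := by rw [hE]; unfold Ent; ring
  rw [e5] at g
  have g2 := mul_le_mul_of_nonneg_left g ha.le
  have e6 : a * (a⁻¹ * (E + W * log W)) = E + W * log W := by field_simp
  rw [e6] at g2
  have g3 := mul_le_mul_of_nonneg_left key pW.le
  have g4 : log Z - log W ≤ Z / W - 1 := by
    rw [← log_div pZ.ne' pW.ne']; exact log_le_sub_one_of_pos (div_pos pZ pW)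
  have g5 := mul_le_mul_of_nonneg_left g4 pW.le
  have e7 : W * (Z / W - 1) = Z - W := by field_simp
  have e8 : τ = 1 - a := by rw [had]; ring
  rw [e8]
  nlinarith

lemma lsi_log (hq : SLC q s) (hs : 0 < s) (hL : ∀ x y, |h x - h y| ≤ L * ‖x - y‖)
    (hd : Differentiable ℝ h) :
    Ent q (fun x => exp (h x)) ≤ ∫ x, exp (h x) * (s / 2 * ‖fderiv ℝ h x‖ ^ 2) ∂q := by
  have := hq.prob
  have hm := (lip_cont hL).measurable
  have hb := lip_abs_le hL
  have iw : Integrable (fun x => exp (h x)) q :=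
    hq.int_exp hm (C := |h 0|) (L := L) fun x => (le_abs_self _).trans (hb x)
  set τ : ℕ → ℝ := fun k => 1 / ((k : ℝ) + 1) / 2 with hτ
  have t0 : ∀ k, 0 < τ k := fun k => by simp only [hτ]; positivity
  have t1 : ∀ k, τ k ≤ 1 / 2 := fun k => by
    simp only [hτ]
    have : 1 / ((k : ℝ) + 1) ≤ 1 := by
      rw [div_le_one (by positivity)]; linarith [Nat.cast_nonneg (α := ℝ) k]
    linarith
  have tt : Tendsto τ atTop (𝓝 0) := by
    have := (tendsto_one_div_add_atTop_nhds_zero_nat (𝕜 := ℝ)).div_const 2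
    rw [zero_div] at this
    exact this
  set c : ℕ → ℝ := fun k => (1 - τ k) / (2 * s * τ k) with hcd
  have c0 : ∀ k, 0 < c k := fun k => div_pos (by linarith [t1 k]) (by have := t0 k; positivity)
  have c1 : ∀ k (M : ℝ), M ^ 2 / (4 * c k) = τ k * (M ^ 2 * s / (2 * (1 - τ k))) := fun k M => by
    have := t0 k
    have : 0 < 1 - τ k := by linarith [t1 k]
    simp only [hcd]; field_simp; ring
  have c2 : ∀ k, L ^ 2 * s / (2 * (1 - τ k)) ≤ L ^ 2 * s := fun k =>
    div_le_self (by positivity) (by linarith [t1 k])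
  set δ : ℕ → Eu n → ℝ := fun k x => sc h (c k) x - h x with hδ
  have d0 : ∀ k x, 0 ≤ δ k x := fun k x => by
    have := le_sc hL (c0 k) x 0
    simp only [add_zero, norm_zero] at this
    simp only [hδ]; nlinarith
  have d1 : ∀ k x, δ k x ≤ τ k * (L ^ 2 * s) := fun k x => by
    have h1 := sc_le hL (c0 k) x
    rw [c1] at h1
    have := mul_le_mul_of_nonneg_left (c2 k) (t0 k).le
    simp only [hδ]; linarith
  have hLs : 0 ≤ L ^ 2 * s := by positivity
  set T : Eu n → ℝ := fun x => s / 2 * ‖fderiv ℝ h x‖ ^ 2 with hT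
  have hTm : Measurable T := ((measurable_fderiv ℝ h).norm.pow_const 2).const_mul _
  have hTb : ∀ x, T x ≤ s / 2 * L ^ 2 := fun x => by
    have h1 : ‖fderiv ℝ h x‖ ≤ |L| := norm_fderiv_le_of_lipschitz ℝ
      (LipschitzWith.of_dist_le_mul (K := ⟨|L|, abs_nonneg _⟩) fun x y => by
        rw [dist_eq_norm, dist_eq_norm]
        exact (hL x y).trans (mul_le_mul_of_nonneg_right (le_abs_self _) (norm_nonneg _)))
    have h2 := pow_le_pow_left₀ (norm_nonneg _) h1 2
    rw [sq_abs] at h2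
    exact mul_le_mul_of_nonneg_left h2 (by positivity)
  have hT0 : ∀ x, 0 ≤ T x := fun x => by simp only [hT]; positivity
  set G : ℕ → Eu n → ℝ := fun k x => exp (h x) * max ((exp (δ k x) - 1) / τ k) (T x) with hG
  have q1 : ∀ k x, (exp (δ k x) - 1) / τ k ≤ L ^ 2 * s * exp (L ^ 2 * s) := fun k x => by
    rw [div_le_iff₀ (t0 k)]
    have h1 := exp_sub_one_le (d0 k x) (M := L ^ 2 * s)
      ((d1 k x).trans (by nlinarith [t1 k]))
    have h2 := mul_le_mul_of_nonneg_right (d1 k x) (exp_pos (L ^ 2 * s)).le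
    linarith
  have Gm : ∀ k, Measurable (G k) := fun k =>
    hm.exp.mul (((((sc_meas hL (c0 k)).sub hm).exp.sub_const 1).div_const _).max hTm)
  set B := max (L ^ 2 * s * exp (L ^ 2 * s)) (s / 2 * L ^ 2)
  have Gb : ∀ k x, ‖G k x‖ ≤ exp (h x) * B := fun k x => by
    have h1 : 0 ≤ max ((exp (δ k x) - 1) / τ k) (T x) := le_max_of_le_right (hT0 x)
    rw [Real.norm_eq_abs, abs_of_nonneg (mul_nonneg (exp_pos _).le h1)]
    exact mul_le_mul_of_nonneg_left (max_le_max (q1 k x) (hTb x)) (exp_pos _).le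
  have lim : Tendsto (fun k => ∫ x, G k x ∂q) atTop (𝓝 (∫ x, exp (h x) * T x ∂q)) := by
    refine tendsto_integral_of_dominated_convergence (fun x => exp (h x) * B)
      (fun k => (Gm k).aestronglyMeasurable) (iw.mul_const _) (fun k => ae_of_all _ (Gb k))
      (ae_of_all _ fun x => Tendsto.const_mul _ (tendsto_order.2 ⟨fun a ha => ?_, fun b hb' => ?_⟩))
    · exact Eventually.of_forall fun k => ha.trans_le (le_max_right _ _)
    · have hc : ContinuousAt (fun ε : ℝ => (‖fderiv ℝ h x‖ + ε) ^ 2 * s / 2) 0 := by fun_prop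
      have h1 : ∀ᶠ ε in 𝓝[>] (0 : ℝ), (‖fderiv ℝ h x‖ + ε) ^ 2 * s / 2 < b := by
        refine (hc.tendsto.mono_left nhdsWithin_le_nhds).eventually (gt_mem_nhds ?_)
        simp only [hT] at hb'
        simp only [add_zero]; linarith
      obtain ⟨ε, hε1, hε⟩ := (h1.and self_mem_nhdsWithin).exists
      obtain ⟨k0, hk0⟩ := sc_loc hL (hd x).hasFDerivAt hε
      set M := ‖fderiv ℝ h x‖ + ε
      have hc2 : ContinuousAt (fun t : ℝ => M ^ 2 * s / (2 * (1 - t)) * exp (t * (L ^ 2 * s))) 0 :=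
        (continuousAt_const.div (by fun_prop) (by norm_num)).mul (by fun_prop)
      have h2 := (hc2.tendsto.comp tt).eventually (gt_mem_nhds (a := b) (by simpa using hε1))
      have h3 : ∀ᶠ k in atTop, τ k * (4 * s * |k0| + 1) < 1 := by
        have := (tt.mul_const (4 * s * |k0| + 1)).eventually (gt_mem_nhds (a := 1) (by simp))
        exact this
      filter_upwards [h2, h3] with k hk hk'
      refine max_lt ?_ hb'
      have h4 : k0 ≤ c k := by
        simp only [hcd]
        rw [le_div_iff₀ (by have := t0 k; positivity)]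
        have h5 := le_abs_self k0
        have h6 : 0 ≤ s * τ k := by have := t0 k; positivity
        nlinarith [t1 k, t0 k]
      have h5 := hk0 _ (c0 k) h4
      rw [c1] at h5
      have h6 : δ k x ≤ τ k * (M ^ 2 * s / (2 * (1 - τ k))) := by simp only [hδ]; linarith
      have h7 := exp_sub_one_le (d0 k x) (d1 k x)
      have h8 := mul_le_mul_of_nonneg_right h6 (exp_pos (τ k * (L ^ 2 * s))).le
      refine lt_of_le_of_lt ?_ hk
      rw [div_le_iff₀ (t0 k)]
      simp only [Function.comp]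
      linarith
  refine ge_of_tendsto' lim fun k => ?_
  have h1 := step hq hs hL (t0 k) (by linarith [t1 k])
  have i2 : Integrable (fun x => exp (sc h (c k) x)) q :=
    hq.int_exp (sc_meas hL (c0 k)) (C := |h 0| + L ^ 2 / (4 * c k)) (L := L) fun x => by
      linarith [sc_le hL (c0 k) x, le_abs_self (h x), hb x]
  rw [← integral_sub i2 iw] at h1
  have iG : Integrable (G k) q :=
    (iw.mul_const B).mono' (Gm k).aestronglyMeasurable (ae_of_all _ (Gb k))
  have h2 := integral_mono (i2.sub iw) (iG.const_mul (τ k)) fun x => by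
    have h3 : (exp (δ k x) - 1) / τ k ≤ max ((exp (δ k x) - 1) / τ k) (T x) := le_max_left _ _
    rw [div_le_iff₀ (t0 k)] at h3
    have h4 := mul_le_mul_of_nonneg_left h3 (exp_pos (h x)).le
    have e : exp (h x) * exp (δ k x) = exp (sc h (c k) x) := by
      rw [← exp_add]; simp [hδ]
    simp only [Pi.sub_apply, hG]
    nlinarith
  rw [integral_const_mul] at h2
  exact le_of_mul_le_mul_left (h1.trans h2) (t0 k)

end Lsix

lemma norm_gradient (w : Eu n → ℝ) (x : Eu n) : ‖gradient w x‖ = ‖fderiv ℝ w x‖ := by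
  unfold gradient
  exact LinearIsometryEquiv.norm_map _ _

/-- Bobkov-Ledoux. -/
theorem SLC.lsi (hq : SLC q s) (hs : 0 < s) {w : Eu n → ℝ} (hpos : ∀ x, 0 < w x)
    (hd : Differentiable ℝ w) {L : ℝ} (hL : ∀ x, ‖gradient w x‖ ≤ L * w x) :
    Ent q w ≤ s / 2 * Fish q w := by
  have hd' : ∀ x, HasFDerivAt (fun x => log (w x)) ((w x)⁻¹ • fderiv ℝ w x) x := fun x =>
    (hd x).hasFDerivAt.log (hpos x).ne'
  have hn : ∀ x, ‖fderiv ℝ (fun x => log (w x)) x‖ = ‖gradient w x‖ / w x := fun x => by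
    rw [(hd' x).fderiv, norm_smul, norm_gradient, Real.norm_eq_abs,
      abs_of_pos (inv_pos.2 (hpos x)), div_eq_inv_mul]
  have hL' : ∀ x y, |log (w x) - log (w y)| ≤ L * ‖x - y‖ := fun x y =>
    Convex.norm_image_sub_le_of_norm_fderiv_le (𝕜 := ℝ) (f := fun x => log (w x)) (s := Set.univ)
      (fun x _ => (hd' x).differentiableAt)
      (fun x _ => by rw [hn, div_le_iff₀ (hpos x)]; exact hL x) convex_univ trivial trivial
  have h1 := Lsix.lsi_log hq hs hL' fun x => (hd' x).differentiableAt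
  simp only [exp_log (hpos _), hn] at h1
  refine h1.trans (le_of_eq ?_)
  unfold Fish
  rw [← integral_const_mul]
  refine integral_congr_ae (ae_of_all _ fun x => ?_)
  have := (hpos x).ne'
  field_simp

theorem SLC.lsi_good (hq : SLC q s) (hs : 0 < s) {g : Eu n → ℝ} (hg : Good g) :
    Ent q g ≤ s / 2 * Fish q g := by
  obtain ⟨B, hB⟩ := hg.bv_log.bd
  refine hq.lsi hs hg.wt.pos hg.diff (L := B) fun x => ?_
  have h1 := hB x
  rw [norm_smul, Real.norm_eq_abs, abs_of_pos (inv_pos.2 (hg.wt.pos x)),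
    inv_mul_le_iff₀ (hg.wt.pos x)] at h1
  linarith

end Vale.Agent.P245
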