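import Vale.Agent.P245.Sm
import Vale.Agent.P245.Jt2
import Vale.Agent.P245.Lsi

open MeasureTheory Real
open scoped InnerProductSpace ENNReal

namespace Vale.Agent.P245

variable {n : ℕ}
variable {p : Measure (Eu n)} [IsProbabilityMeasure p] {h : ℝ} {G : Eu n → ℝ}

/-- `ker_shift`, differentiate `x ↦ ∫ w, G (x + w) ∂ker h 0` under the integral (constant bound). -/
theorem gB_grad' (hh : 0 < h) (hG : Good G) (x : Eu n) :
    gradient (gB h G) x = ∫ y, gradient G y ∂ker h x := by
  have := ker_prob (n := n) hh 0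
  obtain ⟨L, hL⟩ := hG.lip
  have e : gB h G = fun x => ∫ w, G (x + w) ∂ker h 0 := by
    ext x; exact ker_shift hh x G
  rw [ker_shift hh x (gradient G), e]
  refine (hasGradientAt_integral (F := fun x w => G (x + w)) (F' := fun x w => gradient G (x + w))
    (bound := fun _ => L) (fun x => (hG.wt.meas.comp (measurable_const_add x)).aestronglyMeasurable)
    (hG.wt.comp (measurable_const_add x)).integrable
    ((measurable_gradient G).comp (measurable_const_add x)).aestronglyMeasurable
    (fun w x' _ => hL _) (integrable_const _) fun w x' _ => ?_).gradient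
  rw [hasGradientAt_iff_hasFDerivAt]
  exact (hasFDerivAt_comp_add_right w).2 (hG.diff (x' + w)).hasGradientAt.hasFDerivAt

theorem gB_int (hh : 0 < h) (hG : Wt G) : ∫ x, gB h G x ∂p = ∫ y, G y ∂smo p h := by
  have := smo_prob (p := p) hh
  exact (ker_smo hh hG.integrable).2

/-- `SLC.lsi_good` for `slc_ker`, `ker_smo`. -/
theorem bw_up (hh : 0 < h) (hG : Good G) :
    KK (smo p h) G - KK p (gB h G) ≤ h / 2 * Fish (smo p h) G := by
  have := smo_prob (p := p) hh
  obtain ⟨h1, h2⟩ := ker_smo (p := p) hh hG.wt.integrable_log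
  obtain ⟨h3, h4⟩ := ker_smo (p := p) hh hG.integrable_fish
  have h5 := (gB_wt hh hG.wt).integrable_log (q := p)
  unfold KK Fish
  rw [← h2, ← h4, ← integral_sub h1 h5, ← integral_const_mul]
  exact integral_mono (h1.sub h5) (h3.const_mul _) fun x => (slc_ker hh x).lsi_good hh hG

/-- `cs_vec` pointwise with `X = G⁻¹ • gradient G`, `ker_smo`. -/
theorem bw_fish (hh : 0 < h) (hG : Good G) : Fish p (gB h G) ≤ Fish (smo p h) G := by
  have := smo_prob (p := p) hh
  obtain ⟨h3, h4⟩ := ker_smo (p := p) hh hG.integrable_fish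
  unfold Fish
  rw [← h4]
  refine integral_mono (gB_good hh hG.wt).integrable_fish h3 fun x => ?_
  have := ker_prob hh x
  have h1 := cs_vec (q := ker h x) (fun y => (hG.wt.pos y).le) hG.wt.integrable
    (hG.wt.integrable_smul hG.bv_log.integrable) (hG.wt.integrable_mul hG.bv_log.integrable_sq)
  rw [← hG.fish_eq] at h1
  simp only [smul_inv_smul₀ (hG.wt.pos _).ne'] at h1
  simp only [gB_grad' hh hG x]
  rw [div_le_iff₀ ((gB_wt hh hG.wt).pos x), mul_comm]
  exact h1

end Vale.Agent.P245
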