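import Vale.Agent.P245.Gk2

open MeasureTheory Real
open scoped InnerProductSpace ENNReal

namespace Vale.Agent.P245

variable {n : ℕ}
variable {Ω : Type} [MeasurableSpace Ω] {κ : Measure Ω} [IsProbabilityMeasure κ]
variable {w : Ω → ℝ} {v X : Ω → Eu n}

lemma meas_lik {α : Type} [MeasurableSpace α] {a b : α → Eu n} (ha : Measurable a)
    (hb : Measurable b) : Measurable fun x => lik (a x) (b x) := by
  unfold lik
  exact ((ha.inner hb).sub ((ha.norm.pow_const 2).div_const 2)).exp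

lemma meas_wl (hw : Measurable w) (hv : Measurable v) :
    Measurable fun q : Ω × Eu n => w q.1 * lik (v q.1) q.2 :=
  (hw.comp measurable_fst).mul (meas_lik (hv.comp measurable_fst) measurable_snd)

lemma wl_le (hw : Wt w) (hv : Bv v) :
    ∃ C B : ℝ, 0 < C ∧ 0 ≤ B ∧ (∀ ω, ‖v ω‖ ≤ B) ∧ ∀ ω z, |w ω * lik (v ω) z| ≤ C * exp (B * ‖z‖) := by
  obtain ⟨C, hC, h1⟩ := hw.abs_le
  obtain ⟨B, hB, h2⟩ := hv.bd'
  refine ⟨C, B, hC, hB, h2, fun ω z => ?_⟩
  rw [abs_mul, abs_of_pos (lik_pos _ _)]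
  exact mul_le_mul (h1 ω) (lik_le (h2 ω) z).2 (lik_pos _ _).le hC.le

lemma wl_smul_int {G : Type} [NormedAddCommGroup G] [NormedSpace ℝ G] (hw : Wt w) (hv : Bv v)
    {F : Ω × Eu n → G} (hF : StronglyMeasurable F) {a : Ω → ℝ} (ha : Integrable a κ) {c : ℝ}
    (h : ∀ q, ‖F q‖ ≤ a q.1 * exp (c * ‖q.2‖)) :
    Integrable (fun q : Ω × Eu n => (w q.1 * lik (v q.1) q.2) • F q) (κ.prod (gam n)) := by
  obtain ⟨C, B, hC, hB, h1, h2⟩ := wl_le hw hv
  refine integrable_prod_gam ((meas_wl hw.meas hv.meas).stronglyMeasurable.smul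
    hF).aestronglyMeasurable (ha.const_mul C) (c := B + c) fun q => ?_
  rw [norm_smul, Real.norm_eq_abs, add_mul, exp_add, mul_mul_mul_comm]
  exact mul_le_mul (h2 _ _) (h q) (norm_nonneg _) (by positivity)

lemma mz_meas (hw : Wt w) (hv : Bv v) : Measurable (mz κ w v) := by
  exact (meas_wl hw.meas hv.meas).stronglyMeasurable.integral_prod_left'.measurable

lemma Nz_meas (hw : Wt w) (hv : Bv v) (hX : Measurable X) : Measurable (Nz κ w v X) := by
  exact ((meas_wl hw.meas hv.meas).smul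
    (hX.comp measurable_fst)).stronglyMeasurable.integral_prod_left'.measurable

/-- Explicit bounds (uniform in `κ`). -/
lemma mz_bd (hw : Measurable w) (hv : Measurable v) {c C B : ℝ} (hc : 0 < c)
    (h1 : ∀ x, c ≤ w x ∧ w x ≤ C) (h2 : ∀ x, ‖v x‖ ≤ B) (z : Eu n) :
    c * exp (-(B * ‖z‖) - B ^ 2 / 2) ≤ mz κ w v z ∧ mz κ w v z ≤ C * exp (B * ‖z‖) := by
  refine integral_mem (hw.mul (meas_lik hv measurable_const))
    fun x => ⟨?_, ?_⟩
  · exact mul_le_mul (h1 x).1 (lik_le (h2 x) z).1 (exp_pos _).le (hc.le.trans (h1 x).1)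
  · exact mul_le_mul (h1 x).2 (lik_le (h2 x) z).2 (lik_pos _ _).le
      (hc.le.trans ((h1 x).1.trans (h1 x).2))

lemma mz_pos (hw : Wt w) (hv : Bv v) (z : Eu n) : 0 < mz κ w v z := by
  exact (hw.mul (hv.wt_lik z)).integral_pos

lemma Nz_le (hw : Wt w) (hv : Bv v) {B : ℝ} (hX : ∀ ω, ‖X ω‖ ≤ B) (z : Eu n) :
    ‖Nz κ w v X z‖ ≤ B * mz κ w v z := by
  unfold Nz mz
  rw [← integral_const_mul]
  refine norm_integral_le_of_norm_le ((hw.mul (hv.wt_lik z)).integrable.const_mul B)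
    (ae_of_all _ fun ω => ?_)
  rw [norm_smul, Real.norm_eq_abs, abs_of_pos ((hw.mul (hv.wt_lik z)).pos ω), mul_comm]
  exact mul_le_mul_of_nonneg_right (hX ω) ((hw.mul (hv.wt_lik z)).pos ω).le

lemma wl_int {G : Type} [NormedAddCommGroup G] [NormedSpace ℝ G] [CompleteSpace G] (hw : Wt w)
    (hv : Bv v) {F : Ω → G} (hF : StronglyMeasurable F) (hF' : Integrable F κ) :
    Integrable (fun z => ∫ ω, (w ω * lik (v ω) z) • F ω ∂κ) (gam n) ∧
      ∫ z, ∫ ω, (w ω * lik (v ω) z) • F ω ∂κ ∂gam n = ∫ ω, w ω • F ω ∂κ := by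
  have := gam_prob (n := n)
  have h1 := wl_smul_int (κ := κ) hw hv (F := fun q => F q.1) (hF.comp_measurable measurable_fst)
    hF'.norm (c := 0) fun q => by simp
  refine ⟨h1.integral_prod_right, ?_⟩
  rw [← integral_integral_swap (f := fun ω z => (w ω * lik (v ω) z) • F ω) h1]
  simp only [integral_smul_const, integral_const_mul, integral_lik, mul_one]

/-- Fubini with `integrable_prod_gam`, `integral_lik`. -/
lemma mz_int (hw : Wt w) (hv : Bv v) :
    Integrable (mz κ w v) (gam n) ∧ ∫ z, mz κ w v z ∂gam n = ∫ ω, w ω ∂κ := by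
  have := wl_int (κ := κ) hw hv (F := fun _ => (1 : ℝ)) stronglyMeasurable_const
    (integrable_const _)
  simp only [smul_eq_mul, mul_one] at this
  exact this

lemma abs_log_le_of {r c C B t : ℝ} (hc : 0 < c) (hB : 0 ≤ B) (ht : 0 ≤ t)
    (h1 : c * exp (-(B * t) - B ^ 2 / 2) ≤ r) (h2 : r ≤ C * exp (B * t)) :
    |log r| ≤ (|log c| + |log C| + B ^ 2 / 2 + B) * exp t := by
  have hr : 0 < r := lt_of_lt_of_le (by positivity) h1
  have hC : 0 < C := by
    by_contra hn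
    nlinarith [exp_pos (B * t), not_lt.1 hn]
  have h3 := log_le_log (by positivity) h1
  have h4 := log_le_log hr h2
  rw [log_mul hc.ne' (exp_pos _).ne', log_exp] at h3
  rw [log_mul hC.ne' (exp_pos _).ne', log_exp] at h4
  have h5 := add_one_le_exp t
  have h6 : B * t ≤ B * exp t := mul_le_mul_of_nonneg_left (by linarith) hB
  have h7 : |log c| + |log C| + B ^ 2 / 2 ≤ (|log c| + |log C| + B ^ 2 / 2) * exp t :=
    le_mul_of_one_le_right (by positivity) (by linarith)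
  rw [abs_le]
  constructor <;> nlinarith [le_abs_self (log C), neg_abs_le (log c), abs_nonneg (log c),
    abs_nonneg (log C), sq_nonneg B]

lemma mz_log_int (hw : Wt w) (hv : Bv v) :
    Integrable (fun z => mz κ w v z * log (mz κ w v z)) (gam n) := by
  obtain ⟨c, C, hc, h1⟩ := hw.bd
  obtain ⟨B, hB, h2⟩ := hv.bd'
  refine integrable_gam_of_le ((mz_meas hw hv).mul (mz_meas hw hv).log).aestronglyMeasurable
    (C := C * (|log c| + |log C| + B ^ 2 / 2 + B)) (c := B + 1) fun z => ?_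
  obtain ⟨h3, h4⟩ := mz_bd (κ := κ) hw.meas hv.meas hc h1 h2 z
  rw [Real.norm_eq_abs, abs_mul, abs_of_pos (mz_pos hw hv z), add_mul B, one_mul, exp_add,
    mul_mul_mul_comm]
  exact mul_le_mul h4 (abs_log_le_of hc hB (norm_nonneg _) h3 h4) (abs_nonneg _)
    ((mz_pos hw hv z).le.trans h4)

lemma Nz_int (hw : Wt w) (hv : Bv v) (hX : Measurable X) (hX' : Integrable X κ) :
    Integrable (Nz κ w v X) (gam n) ∧ ∫ z, Nz κ w v X z ∂gam n = ∫ ω, w ω • X ω ∂κ := by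
  exact wl_int hw hv hX.stronglyMeasurable hX'

lemma wl_inner (hw : Wt w) (hv : Bv v) (hX : Bv X) :
    Integrable (fun z => ∫ ω, w ω * lik (v ω) z * ⟪X ω, z⟫_ℝ ∂κ) (gam n) ∧
      ∫ z, ∫ ω, w ω * lik (v ω) z * ⟪X ω, z⟫_ℝ ∂κ ∂gam n = ∫ ω, w ω * ⟪X ω, v ω⟫_ℝ ∂κ := by
  have := gam_prob (n := n)
  obtain ⟨B, hB, h2⟩ := hX.bd'
  have h1 := wl_smul_int (κ := κ) hw hv (F := fun q => ⟪X q.1, q.2⟫_ℝ)
    ((hX.meas.comp measurable_fst).inner measurable_snd).stronglyMeasurable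
    (integrable_const B) (c := 1) fun q => by
      have h3 := add_one_le_exp ‖q.2‖
      rw [one_mul]
      exact (norm_inner_le_norm _ _).trans (mul_le_mul (h2 _) (by linarith) (norm_nonneg _) hB)
  refine ⟨h1.integral_prod_right, ?_⟩
  rw [← integral_integral_swap (f := fun ω z => w ω * lik (v ω) z * ⟪X ω, z⟫_ℝ) h1]
  simp only [mul_assoc, integral_const_mul, integral_lik_inner]

lemma mz_inner (hw : Wt w) (hv : Bv v) (η : Eu n) :
    Integrable (fun z => mz κ w v z * ⟪η, z⟫_ℝ) (gam n) ∧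
      ∫ z, mz κ w v z * ⟪η, z⟫_ℝ ∂gam n = ⟪∫ ω, w ω • v ω ∂κ, η⟫_ℝ := by
  have h1 := wl_inner (κ := κ) hw hv (X := fun _ => η) ⟨measurable_const, ‖η‖, fun _ => le_rfl⟩
  simp only [integral_mul_const] at h1
  refine ⟨h1.1, h1.2.trans ?_⟩
  rw [real_inner_comm, ← integral_inner (hv.wsmul hw).integrable]
  simp only [real_inner_smul_right]

/-- `log (w * lik v z) = log w + ⟪v, z⟫ - ‖v‖ ^ 2 / 2`, `integral_lik_inner`. -/
lemma kk_lik (hw : Wt w) (hv : Bv v) :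
    Integrable (fun z => KK κ fun ω => w ω * lik (v ω) z) (gam n) ∧
      ∫ z, KK κ (fun ω => w ω * lik (v ω) z) ∂gam n =
        KK κ w + ∫ ω, w ω * ‖v ω‖ ^ 2 / 2 ∂κ := by
  obtain ⟨M, _, hM⟩ := hw.abs_log_le
  have i0 : Integrable (fun ω => log (w ω)) κ :=
    Integrable.of_bound hw.meas.log.aestronglyMeasurable M (ae_of_all _ hM)
  have i1 : Integrable (fun ω => log (w ω) - ‖v ω‖ ^ 2 / 2) κ :=
    i0.sub (hv.integrable_sq.div_const 2)
  obtain ⟨h1, h2⟩ := wl_int (κ := κ) hw hv (F := fun ω => log (w ω) - ‖v ω‖ ^ 2 / 2)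
    (hw.meas.log.sub ((hv.meas.norm.pow_const 2).div_const 2)).stronglyMeasurable i1
  obtain ⟨h3, h4⟩ := wl_inner (κ := κ) hw hv hv
  have e : ∀ z, KK κ (fun ω => w ω * lik (v ω) z) =
      ∫ ω, (w ω * lik (v ω) z) • (log (w ω) - ‖v ω‖ ^ 2 / 2) ∂κ +
        ∫ ω, w ω * lik (v ω) z * ⟪v ω, z⟫_ℝ ∂κ := fun z => by
    have hw' := hw.mul (hv.wt_lik z)
    rw [← integral_add (hw'.integrable_smul i1)
      (hw'.integrable_mul (hv.integrable.inner_const z))]
    refine integral_congr_ae (ae_of_all _ fun ω => ?_)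
    simp only [smul_eq_mul]
    rw [log_mul (hw.pos ω).ne' (lik_pos _ _).ne']
    simp only [lik, log_exp]
    ring
  simp only [e]
  refine ⟨h1.add h3, ?_⟩
  rw [integral_add h1 h3, h2, h4, ← integral_add (hw.integrable_smul i1)
    (hw.integrable_mul (hv.integrable_inner hv)), KK, ← integral_add hw.integrable_log
    ((hw.integrable_mul hv.integrable_sq).div_const 2)]
  refine integral_congr_ae (ae_of_all _ fun ω => ?_)
  simp only [smul_eq_mul, real_inner_self_eq_norm_sq]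
  ring

/-- `gibbs` on `gam n` with `φ z = ⟪η, z⟫ - ‖η‖ ^ 2 / 2`. -/
lemma ch_lo (hw : Wt w) (hv : Bv v) (η : Eu n) :
    (∫ ω, w ω ∂κ) * log (∫ ω, w ω ∂κ) + ⟪∫ ω, w ω • v ω ∂κ, η⟫_ℝ -
      (∫ ω, w ω ∂κ) * ‖η‖ ^ 2 / 2 ≤ KK (gam n) (mz κ w v) := by
  have := gam_prob (n := n)
  obtain ⟨h1, h2⟩ := mz_int (κ := κ) hw hv
  obtain ⟨h3, h4⟩ := mz_inner (κ := κ) hw hv η
  have e : ∀ z, mz κ w v z * (⟪η, z⟫_ℝ - ‖η‖ ^ 2 / 2) =
      mz κ w v z * ⟪η, z⟫_ℝ - mz κ w v z * (‖η‖ ^ 2 / 2) := fun z => by ring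
  have h5 := gibbs (q := gam n) (φ := fun z => ⟪η, z⟫_ℝ - ‖η‖ ^ 2 / 2)
    (fun z => (mz_pos (κ := κ) hw hv z).le) h1 (mz_log_int hw hv)
    (by simp only [e]; exact h3.sub (h1.mul_const _)) (integrable_lik η)
  have h6 : ∫ z, exp (⟪η, z⟫_ℝ - ‖η‖ ^ 2 / 2) ∂gam n = 1 := integral_lik η
  simp only [e] at h5
  rw [h6, integral_sub h3 (h1.mul_const _), integral_mul_const, Ent, h2, h4, log_one] at h5
  linarith

end Vale.Agent.P245
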