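import Vale.Agent.P245.Gk

open MeasureTheory Real
open scoped InnerProductSpace ENNReal

namespace Vale.Agent.P245

variable {n : ℕ}

lemma hasGradientAt_integral {α : Type} [MeasurableSpace α] {μ : Measure α}
    {F : Eu n → α → ℝ} {F' : Eu n → α → Eu n} {x₀ : Eu n} {bound : α → ℝ}
    (hm : ∀ x, AEStronglyMeasurable (F x) μ) (hi : Integrable (F x₀) μ)
    (hm' : AEStronglyMeasurable (F' x₀) μ)
    (hb : ∀ a, ∀ x ∈ Metric.ball x₀ 1, ‖F' x a‖ ≤ bound a) (hbi : Integrable bound μ)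
    (hd : ∀ a, ∀ x ∈ Metric.ball x₀ 1, HasGradientAt (fun x => F x a) (F' x a) x) :
    HasGradientAt (fun x => ∫ a, F x a ∂μ) (∫ a, F' x₀ a ∂μ) x₀ := by
  have hi' : Integrable (F' x₀) μ :=
    hbi.mono' hm' (ae_of_all _ fun a => hb a x₀ (Metric.mem_ball_self one_pos))
  have key := hasFDerivAt_integral_of_dominated_of_fderiv_le (μ := μ) (F := F) (x₀ := x₀)
    (F' := fun x a => innerSL ℝ (F' x a)) (bound := bound) (Metric.ball_mem_nhds x₀ one_pos)
    (Filter.Eventually.of_forall hm) hi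
    ((innerSL ℝ (E := Eu n)).continuous.comp_aestronglyMeasurable hm')
    (ae_of_all _ fun a x hx => by rw [innerSL_apply_norm]; exact hb a x hx) hbi
    (ae_of_all _ fun a x hx => hasGradientAt_iff_hasFDerivAt.1 (hd a x hx))
  rw [hasGradientAt_iff_hasFDerivAt]
  exact key.congr_fderiv
    ((innerSL ℝ (E := Eu n) : Eu n →L[ℝ] Eu n →L[ℝ] ℝ).integral_comp_comm hi')

lemma HasGradientAt.mul' {f g : Eu n → ℝ} {f' g' x : Eu n} (hf : HasGradientAt f f' x)
    (hg : HasGradientAt g g' x) :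
    HasGradientAt (fun x => f x * g x) (f x • g' + g x • f') x := by
  rw [hasGradientAt_iff_hasFDerivAt] at hf hg ⊢
  exact (hf.mul hg).congr_fderiv (by simp)

lemma HasGradientAt.const_mul' {f : Eu n → ℝ} {f' x : Eu n} (hf : HasGradientAt f f' x) (c : ℝ) :
    HasGradientAt (fun x => c * f x) (c • f') x := by
  rw [hasGradientAt_iff_hasFDerivAt] at hf ⊢
  exact (hf.const_mul c).congr_fderiv (by simp)

lemma HasGradientAt.exp' {f : Eu n → ℝ} {f' x : Eu n} (hf : HasGradientAt f f' x) :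
    HasGradientAt (fun x => exp (f x)) (exp (f x) • f') x := by
  rw [hasGradientAt_iff_hasFDerivAt] at hf ⊢
  exact (hf.exp).congr_fderiv (by simp)

lemma HasGradientAt.inv' {f : Eu n → ℝ} {f' x : Eu n} (hf : HasGradientAt f f' x) (h0 : f x ≠ 0) :
    HasGradientAt (fun x => (f x)⁻¹) (-(f x ^ 2)⁻¹ • f') x := by
  rw [hasGradientAt_iff_hasFDerivAt] at hf ⊢
  exact ((hasDerivAt_inv h0).comp_hasFDerivAt x hf).congr_fderiv (by simp)

lemma HasGradientAt.sub' {f g : Eu n → ℝ} {f' g' x : Eu n} (hf : HasGradientAt f f' x)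
    (hg : HasGradientAt g g' x) : HasGradientAt (fun x => f x - g x) (f' - g') x := by
  rw [hasGradientAt_iff_hasFDerivAt] at hf hg ⊢
  exact (hf.sub hg).congr_fderiv (by simp)

lemma hasGradientAt_inner (v x : Eu n) : HasGradientAt (fun x => ⟪v, x⟫_ℝ) v x := by
  rw [hasGradientAt_iff_hasFDerivAt]
  exact (innerSL ℝ v).hasFDerivAt

lemma hasGradientAt_sq (c x : Eu n) :
    HasGradientAt (fun x => ‖x - c‖ ^ 2) ((2 : ℝ) • (x - c)) x := by
  rw [hasGradientAt_iff_hasFDerivAt]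
  refine ((hasFDerivAt_id (𝕜 := ℝ) x).sub_const c).norm_sq.congr_fderiv ?_
  ext v
  simp

lemma hasGradientAt_gk {h : ℝ} (hh : 0 < h) (c x : Eu n) :
    HasGradientAt (fun x => gk h (x - c)) ((gk h (x - c) * h⁻¹) • (c - x)) x := by
  have h1 := HasGradientAt.const_mul' (HasGradientAt.exp'
    (HasGradientAt.const_mul' (hasGradientAt_sq c x) (-(2 * h)⁻¹))) ((2 * π * h) ^ (-(n : ℝ) / 2))
  have e : ∀ x : Eu n, -(2 * h)⁻¹ * ‖x - c‖ ^ 2 = -‖x - c‖ ^ 2 / (2 * h) := fun x => by ring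
  simp only [e] at h1
  have e2 : (gk h (x - c) * h⁻¹) • (c - x) = (2 * π * h) ^ (-(n : ℝ) / 2) •
      exp (-‖x - c‖ ^ 2 / (2 * h)) • -(2 * h)⁻¹ • (2 : ℝ) • (x - c) := by
    unfold gk
    rw [smul_smul, smul_smul, smul_smul, ← neg_sub x c, smul_neg, ← neg_smul]
    congr 1
    field_simp
  rw [e2]
  exact h1

lemma gk_neg (h : ℝ) (x y : Eu n) : gk h (x - y) = gk h (y - x) := by
  unfold gk; rw [norm_sub_rev]

lemma gk_norm_le {h : ℝ} (hh : 0 < h) (w : Eu n) :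
    gk h w * ‖w‖ ≤ (2 * π * h) ^ (-(n : ℝ) / 2) * exp (h / 2) := by
  have := pi_pos
  unfold gk
  rw [mul_assoc]
  refine mul_le_mul_of_nonneg_left ?_ (by positivity)
  have h1 := add_one_le_exp ‖w‖
  calc exp (-‖w‖ ^ 2 / (2 * h)) * ‖w‖ ≤ exp (-‖w‖ ^ 2 / (2 * h)) * exp ‖w‖ := by
        gcongr; linarith
    _ = exp (-‖w‖ ^ 2 / (2 * h) + ‖w‖) := by rw [exp_add]
    _ ≤ exp (h / 2) := by
        refine exp_le_exp.2 ?_
        have h4 : h / 2 + ‖w‖ ^ 2 / (2 * h) - ‖w‖ = (h - ‖w‖) ^ 2 / (2 * h) := by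
          field_simp; ring
        have h5 : 0 ≤ (h - ‖w‖) ^ 2 / (2 * h) := by positivity
        rw [neg_div]
        linarith

end Vale.Agent.P245
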