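import Vale.Agent.P245.Ch
import Vale.Agent.P245.Lsi
import Vale.Agent.P245.Gr

open MeasureTheory Real
open scoped InnerProductSpace ENNReal

namespace Vale.Agent.P245

variable {n : ℕ}
variable {Ω : Type} [MeasurableSpace Ω] {κ : Measure Ω} [IsProbabilityMeasure κ]
variable {w : Ω → ℝ} {v X : Ω → Eu n}

/-- Differentiate under the integral (constant bound on the unit ball around `z`). -/
lemma mz_grad (hw : Wt w) (hv : Bv v) (z : Eu n) :
    HasGradientAt (mz κ w v) (Nz κ w v v z) z := by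
  obtain ⟨C, B, hC, hB, h1, h2⟩ := wl_le hw hv
  refine hasGradientAt_integral (F := fun z ω => w ω * lik (v ω) z)
    (F' := fun z ω => (w ω * lik (v ω) z) • v ω) (bound := fun _ => C * exp (B * (‖z‖ + 1)) * B)
    (fun z => (hw.mul (hv.wt_lik z)).meas.aestronglyMeasurable) (hw.mul (hv.wt_lik z)).integrable
    (hv.wsmul (hw.mul (hv.wt_lik z))).meas.aestronglyMeasurable (fun ω z' hz => ?_)
    (integrable_const _) fun ω z' _ => ?_
  · rw [Metric.mem_ball, dist_eq_norm] at hz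
    have h3 : ‖z'‖ ≤ ‖z‖ + 1 := by linarith [norm_sub_norm_le z' z]
    rw [norm_smul, Real.norm_eq_abs]
    refine mul_le_mul ((h2 ω z').trans ?_) (h1 ω) (norm_nonneg _) (by positivity)
    gcongr
  · have h3 := HasGradientAt.const_mul' (HasGradientAt.exp' (HasGradientAt.sub'
      (hasGradientAt_inner (v ω) z') (hasGradientAt_const z' (‖v ω‖ ^ 2 / 2)))) (w ω)
    rw [sub_zero, smul_smul] at h3
    exact h3

/-- `SLC.lsi` for `slc_gam`, with `Nz_le`. -/
theorem ch_up (hw : Wt w) (hv : Bv v) :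
    Ent (gam n) (mz κ w v) ≤ 1 / 2 * ∫ z, ‖Nz κ w v v z‖ ^ 2 / mz κ w v z ∂gam n := by
  obtain ⟨B, hB⟩ := hv.bd
  have h1 := slc_gam.lsi one_pos (mz_pos (κ := κ) hw hv) (fun z => (mz_grad hw hv z).differentiableAt)
    (L := B) fun z => by rw [(mz_grad hw hv z).gradient]; exact Nz_le hw hv hB z
  unfold Fish at h1
  simpa only [(mz_grad hw hv _).gradient] using h1

/-- For each `z`, `young` with `φ ω = b * ⟪φ z, X ω⟫ - A * b ^ 2 * ‖φ z‖ ^ 2` and `SG` (at
`θ = b • φ z`) give `b * ⟪φ z, Nz z⟫ - A * b ^ 2 * ‖φ z‖ ^ 2 * mz z ≤ KK (w * lik) - mz z + 1`.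
Integrate in `z` with `kk_lik`, `mz_int`, `Nz_int`. -/
theorem ch_dv (hw : Wt w) (hv : Bv v) (h1 : ∫ ω, w ω ∂κ = 1) (hX : Measurable X) {A : ℝ}
    (hs : SG κ X A) {φ : Eu n → Eu n} (hφ : Bv φ) (b : ℝ) :
    Integrable (fun z => ⟪φ z, Nz κ w v X z⟫_ℝ) (gam n) ∧
    b * ∫ z, ⟪φ z, Nz κ w v X z⟫_ℝ ∂gam n ≤
      KK κ w + (∫ ω, w ω * ‖v ω‖ ^ 2 / 2 ∂κ) +
        A * b ^ 2 * ∫ z, mz κ w v z * ‖φ z‖ ^ 2 ∂gam n := by
  have := gam_prob (n := n)
  have hXi := hs.integrable hX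
  obtain ⟨B, hB, hφB⟩ := hφ.bd'
  obtain ⟨m1, m2⟩ := mz_int (κ := κ) hw hv
  obtain ⟨k1, k2⟩ := kk_lik (κ := κ) hw hv
  obtain ⟨n1, -⟩ := Nz_int (κ := κ) hw hv hX hXi
  have i1 : Integrable (fun z => ⟪φ z, Nz κ w v X z⟫_ℝ) (gam n) := by
    refine (n1.norm.const_mul B).mono' (hφ.meas.inner (Nz_meas hw hv hX)).aestronglyMeasurable
      (ae_of_all _ fun z => ?_)
    exact (norm_inner_le_norm _ _).trans (mul_le_mul_of_nonneg_right (hφB z) (norm_nonneg _))
  have i2 : Integrable (fun z => mz κ w v z * ‖φ z‖ ^ 2) (gam n) := by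
    refine m1.mul_bdd (c := B ^ 2) (hφ.meas.norm.pow_const 2).aestronglyMeasurable
      (ae_of_all _ fun z => ?_)
    rw [Real.norm_eq_abs, abs_of_nonneg (sq_nonneg _)]
    exact pow_le_pow_left₀ (norm_nonneg _) (hφB z) 2
  refine ⟨i1, ?_⟩
  have key : ∀ z, b * ⟪φ z, Nz κ w v X z⟫_ℝ - A * b ^ 2 * (mz κ w v z * ‖φ z‖ ^ 2) ≤
      KK κ (fun ω => w ω * lik (v ω) z) - mz κ w v z + 1 := fun z => by
    have hw' := hw.mul (hv.wt_lik z)
    obtain ⟨s1, s2⟩ := hs (b • φ z)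
    set c := A * ‖b • φ z‖ ^ 2 with hc
    have j1 : Integrable (fun ω => w ω * lik (v ω) z * ⟪b • φ z, X ω⟫_ℝ) κ :=
      hw'.integrable_mul (hXi.const_inner _)
    have j2 : Integrable (fun ω => w ω * lik (v ω) z * c) κ := hw'.integrable.mul_const _
    have j3 : Integrable (fun ω => w ω * lik (v ω) z * log (w ω * lik (v ω) z) -
        w ω * lik (v ω) z) κ := hw'.integrable_log.sub hw'.integrable
    have h3 := integral_mono (j1.sub j2) (j3.add (s1.mul_const (exp (-c)))) fun ω => by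
      have := young (⟪b • φ z, X ω⟫_ℝ - c) (hw'.pos ω).le
      simp only [Pi.sub_apply, Pi.add_apply]
      rw [← exp_add, ← sub_eq_add_neg]
      linarith
    simp only [Pi.sub_apply, Pi.add_apply] at h3
    rw [integral_sub j1 j2, integral_add j3 (s1.mul_const _),
      integral_sub hw'.integrable_log hw'.integrable, integral_mul_const, integral_mul_const] at h3
    have e1 : ∫ ω, w ω * lik (v ω) z * ⟪b • φ z, X ω⟫_ℝ ∂κ = b * ⟪φ z, Nz κ w v X z⟫_ℝ := by
      unfold Nz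
      rw [← real_inner_smul_left, ← integral_inner (hw'.integrable_smul hXi)]
      simp only [real_inner_smul_right]
    have e2 : c = A * b ^ 2 * ‖φ z‖ ^ 2 := by
      rw [hc, norm_smul, mul_pow, Real.norm_eq_abs, sq_abs]; ring
    have h4 : (∫ ω, exp ⟪b • φ z, X ω⟫_ℝ ∂κ) * exp (-c) ≤ 1 := by
      calc _ ≤ exp c * exp (-c) := mul_le_mul_of_nonneg_right s2 (exp_pos _).le
        _ = 1 := by rw [← exp_add]; simp
    rw [e1] at h3
    unfold KK mz
    rw [e2] at h3 h4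
    linarith
  have i3 : Integrable (fun z => KK κ (fun ω => w ω * lik (v ω) z) - mz κ w v z) (gam n) :=
    k1.sub m1
  have h5 := integral_mono ((i1.const_mul b).sub (i2.const_mul (A * b ^ 2)))
    (i3.add (integrable_const 1)) key
  simp only [Pi.sub_apply, Pi.add_apply] at h5
  rw [integral_sub (i1.const_mul b) (i2.const_mul _), integral_add i3 (integrable_const _),
    integral_sub k1 m1, integral_const_mul, integral_const_mul, k2, m2, h1] at h5
  simp only [integral_const, probReal_univ, smul_eq_mul, mul_one] at h5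
  linarith

end Vale.Agent.P245
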