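import Mathlib

/-! Definitions for the polylogarithmic log-Sobolev bound (see notes/P245.md). -/

open MeasureTheory Real
open scoped InnerProductSpace ENNReal

namespace Vale.Agent.P245

noncomputable section

abbrev Eu (n : ℕ) := EuclideanSpace ℝ (Fin n)

variable {n : ℕ}

/-- Gaussian density of variance `s`. -/
def gk (s : ℝ) (w : Eu n) : ℝ := (2 * π * s) ^ (-(n : ℝ) / 2) * exp (-‖w‖ ^ 2 / (2 * s))

/-- The Gaussian law `N(x, s)`. -/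
def ker (s : ℝ) (x : Eu n) : Measure (Eu n) :=
  volume.withDensity fun y => ENNReal.ofReal (gk s (y - x))

/-- The standard Gaussian law. -/
def gam (n : ℕ) : Measure (Eu n) := ker 1 0

/-- Density of `p * N(0, s)`. -/
def Nk (p : Measure (Eu n)) (s : ℝ) (y : Eu n) : ℝ := ∫ x, gk s (y - x) ∂p

/-- Posterior law of `X ~ p` given `X + N(0, s) = y`. -/
def post (p : Measure (Eu n)) (s : ℝ) (y : Eu n) : Measure (Eu n) :=
  p.withDensity fun x => ENNReal.ofReal (gk s (y - x) / Nk p s y)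

/-- The law `p * N(0, s)`. -/
def smo (p : Measure (Eu n)) (s : ℝ) : Measure (Eu n) :=
  volume.withDensity fun y => ENNReal.ofReal (Nk p s y)

/-- Joint law of `(X, X + N(0, s))`. -/
def jt (p : Measure (Eu n)) (s : ℝ) : Measure (Eu n × Eu n) :=
  (p.prod volume).withDensity fun q => ENNReal.ofReal (gk s (q.2 - q.1))

/-- Likelihood ratio of `N(v, 1)` against `N(0, 1)` at `z`. -/
def lik (v z : Eu n) : ℝ := exp (⟪v, z⟫_ℝ - ‖v‖ ^ 2 / 2)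

def KK {Ω : Type} [MeasurableSpace Ω] (q : Measure Ω) (w : Ω → ℝ) : ℝ :=
  ∫ x, w x * log (w x) ∂q

def Ent {Ω : Type} [MeasurableSpace Ω] (q : Measure Ω) (w : Ω → ℝ) : ℝ :=
  KK q w - (∫ x, w x ∂q) * log (∫ x, w x ∂q)

def Fish (q : Measure (Eu n)) (w : Eu n → ℝ) : ℝ := ∫ x, ‖gradient w x‖ ^ 2 / w x ∂q

/-- Measurable weights bounded above and below. -/
structure Wt {Ω : Type} [MeasurableSpace Ω] (w : Ω → ℝ) : Prop where
  meas : Measurable w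
  bd : ∃ c C : ℝ, 0 < c ∧ ∀ x, c ≤ w x ∧ w x ≤ C

/-- Bounded measurable vector fields. -/
structure Bv {Ω : Type} [MeasurableSpace Ω] (v : Ω → Eu n) : Prop where
  meas : Measurable v
  bd : ∃ B : ℝ, ∀ x, ‖v x‖ ≤ B

structure Good (g : Eu n → ℝ) : Prop where
  wt : Wt g
  diff : Differentiable ℝ g
  lip : ∃ L : ℝ, ∀ x, ‖gradient g x‖ ≤ L

/-- Bounded differentiable functions with bounded gradient. -/
structure Bd1 (f : Eu n → ℝ) : Prop where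
  diff : Differentiable ℝ f
  bd : ∃ C : ℝ, ∀ x, |f x| ≤ C
  lip : ∃ L : ℝ, ∀ x, ‖gradient f x‖ ≤ L

def LCF (ρ : Eu n → ℝ) : Prop :=
  Measurable ρ ∧ (∀ x, 0 ≤ ρ x) ∧
    ∀ a b : ℝ, 0 < a → 0 < b → a + b = 1 → ∀ x y, ρ x ^ a * ρ y ^ b ≤ ρ (a • x + b • y)

/-- Log-concave probability measures with a density. -/
structure LC (p : Measure (Eu n)) : Prop where
  prob : IsProbabilityMeasure p
  dens : ∃ ρ, LCF ρ ∧ p = volume.withDensity fun x => ENNReal.ofReal (ρ x)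

/-- `1/s`-strongly log-concave probability measures. -/
structure SLC (q : Measure (Eu n)) (s : ℝ) : Prop where
  prob : IsProbabilityMeasure q
  ei : ∀ c : ℝ, Integrable (fun x => exp (c * ‖x‖)) q
  dens : ∃ r : Eu n → ℝ, Measurable r ∧ (∀ x, 0 ≤ r x) ∧
    q = volume.withDensity (fun x => ENNReal.ofReal (r x)) ∧
    ∀ a b : ℝ, 0 < a → 0 < b → a + b = 1 → ∀ x y,
      r x ^ a * r y ^ b * exp (a * b * ‖x - y‖ ^ 2 / (2 * s)) ≤ r (a • x + b • y)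

/-- Subgaussian moment generating function bound. -/
def SG {Ω : Type} [MeasurableSpace Ω] (q : Measure Ω) (X : Ω → Eu n) (A : ℝ) : Prop :=
  ∀ θ : Eu n, Integrable (fun ω => exp ⟪θ, X ω⟫_ℝ) q ∧
    ∫ ω, exp ⟪θ, X ω⟫_ℝ ∂q ≤ exp (A * ‖θ‖ ^ 2)

/-- Defective log-Sobolev inequality. -/
def DL (p : Measure (Eu n)) (lam D : ℝ) : Prop :=
  ∀ g, Good g → Ent p g ≤ lam / 2 * Fish p g + D * ∫ x, g x ∂p

/-- Forward step. -/
def gF (p : Measure (Eu n)) (h : ℝ) (g : Eu n → ℝ) (y : Eu n) : ℝ := ∫ x, g x ∂post p h y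

def xi (p : Measure (Eu n)) (h : ℝ) (g : Eu n → ℝ) (y : Eu n) : Eu n :=
  (gF p h g y)⁻¹ • gradient (gF p h g) y

/-- Backward step. -/
def gB (h : ℝ) (G : Eu n → ℝ) (x : Eu n) : ℝ := ∫ y, G y ∂ker h x

def cr (p : Measure (Eu n)) (h : ℝ) (g : Eu n → ℝ) : ℝ :=
  ∫ q, ⟪gradient g q.1, xi p h g q.2⟫_ℝ ∂jt p h

def Vf (p : Measure (Eu n)) (h : ℝ) (g : Eu n → ℝ) : ℝ :=
  Fish p g - 2 * cr p h g + Fish (smo p h) (gF p h g)

/-- The defect field `E[∇ log g | Y = y] - ∇ log (gF) y`. -/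
def ef (p : Measure (Eu n)) (h : ℝ) (g : Eu n → ℝ) (y : Eu n) : Eu n :=
  (gF p h g y)⁻¹ • (∫ x, gradient g x ∂post p h y) - xi p h g y

/-- Output density of the Gaussian channel. -/
def mz {Ω : Type} [MeasurableSpace Ω] (κ : Measure Ω) (w : Ω → ℝ) (v : Ω → Eu n) (z : Eu n) : ℝ :=
  ∫ ω, w ω * lik (v ω) z ∂κ

def Nz {Ω : Type} [MeasurableSpace Ω] (κ : Measure Ω) (w : Ω → ℝ) (v X : Ω → Eu n) (z : Eu n) :
    Eu n :=
  ∫ ω, (w ω * lik (v ω) z) • X ω ∂κ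

def Em (p : Measure (Eu n)) (h t : ℝ) (g : Eu n → ℝ) : ℝ :=
  KK (gam n) (mz (smo p h) (gF p h g) fun y => √t • xi p h g y)

def MM (p : Measure (Eu n)) (h t : ℝ) (g : Eu n → ℝ) : ℝ :=
  ∫ z, ‖Nz (smo p h) (gF p h g) (fun y => √t • xi p h g y) (xi p h g) z‖ ^ 2 /
    mz (smo p h) (gF p h g) (fun y => √t • xi p h g y) z ∂gam n

def Phi (g₁ g₂ : Eu n → ℝ) (v : Eu n → Eu n) (h lam D : ℝ) (x z : Eu n) : ℝ :=
  g₁ x * mz (ker h x) g₂ v z * log (g₁ x * mz (ker h x) g₂ v z) -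
    lam / 2 * (mz (ker h x) g₂ v z * ‖gradient g₁ x‖ ^ 2 / g₁ x +
      2 * ⟪gradient g₁ x, h⁻¹ • Nz (ker h x) g₂ v (fun y => y - x) z⟫_ℝ +
      2 / h * g₁ x * Ent (ker h x) fun y => g₂ y * lik (v y) z) -
    D * (g₁ x * mz (ker h x) g₂ v z)

def sz (g₂ : Eu n → ℝ) (v η : Eu n → Eu n) (h : ℝ) (x : Eu n) : ℝ :=
  gB h g₂ x * log (gB h g₂ x) + ⟪∫ y, g₂ y • v y ∂ker h x, η x⟫_ℝ - gB h g₂ x * ‖η x‖ ^ 2 / 2

def Psi (g₁ g₂ : Eu n → ℝ) (v η : Eu n → Eu n) (h lam D : ℝ) (x : Eu n) : ℝ :=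
  g₁ x * gB h g₂ x * log (g₁ x) + g₁ x * sz g₂ v η h x -
    lam / 2 * (gB h g₂ x * ‖gradient g₁ x‖ ^ 2 / g₁ x +
      2 * ⟪gradient g₁ x, h⁻¹ • ∫ y, g₂ y • (y - x) ∂ker h x⟫_ℝ) -
    lam / h * g₁ x * (KK (ker h x) g₂ + (∫ y, g₂ y * ‖v y‖ ^ 2 / 2 ∂ker h x) - sz g₂ v η h x) -
    D * (g₁ x * gB h g₂ x)

/-- Posterior mean. -/
def bar (μ : Measure (Eu n)) (u : ℝ) (x : Eu n) : Eu n := ∫ x', x' ∂post μ u x

/-- Structure of a measure smoothed at level `u`. -/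
structure Sm (p : Measure (Eu n)) (u A : ℝ) (β : Eu n → Eu n) : Prop where
  lip : ∀ x y, ‖β x - β y‖ ≤ ‖x - y‖
  refl : ∀ x y, ‖((2 : ℝ) • β x - x) - ((2 : ℝ) • β y - y)‖ ≤ ‖x - y‖
  sg : SG p β A
  ibp : ∀ g, Good g → ∀ h : ℝ, 0 < h → ∀ y,
    ∫ x, gradient g x ∂post p h y =
      ∫ x, g x • (u⁻¹ • (x - β x) + h⁻¹ • (x - y)) ∂post p h y

/-- The optimal defect. -/
def Dv (p : Measure (Eu n)) (lam : ℝ) : ℝ :=
  sSup {d | ∃ g, Good g ∧ ∫ x, g x ∂p = 1 ∧ d = KK p g - lam / 2 * Fish p g}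

end

end Vale.Agent.P245
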