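import Vale.Agent.P245.Fw2

open MeasureTheory Real
open scoped InnerProductSpace ENNReal

namespace Vale.Agent.P245

variable {n : ℕ}
variable {p : Measure (Eu n)} [IsProbabilityMeasure p] {h u A : ℝ} {g : Eu n → ℝ}
variable {β : Eu n → Eu n}

namespace Fw4x

lemma dg_bv (hh : 0 < h) (hg : Good g) : Bv (fun y => ∫ x, gradient g x ∂post p h y) := by
  obtain ⟨B, hB⟩ := hg.lip
  refine ⟨(meas_post hh (F := fun q => gradient g q.1)
    ((measurable_gradient g).comp measurable_fst).stronglyMeasurable).measurable, B, fun y => ?_⟩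
  have := post_prob (p := p) hh y
  have h1 := norm_integral_le_of_norm_le_const (μ := post p h y) (f := gradient g) (C := B)
    (ae_of_all _ hB)
  simpa using h1

lemma cr_post (hp : LC p) (hh : 0 < h) (hg : Good g) :
    cr p h g = ∫ y, ⟪∫ x, gradient g x ∂post p h y, xi p h g y⟫_ℝ ∂smo p h := by
  have := jt_prob (p := p) hh
  have h1 : Integrable (fun q : Eu n × Eu n => ⟪gradient g q.1, xi p h g q.2⟫_ℝ) (jt p h) :=
    (hg.bv_grad.comp measurable_fst).integrable_inner
      ((xi_bv hp hh hg.wt).comp measurable_snd)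
  unfold cr
  rw [(jt_post hh h1).2]
  refine integral_congr_ae (ae_of_all _ fun y => ?_)
  have := post_prob (p := p) hh y
  simp only
  simp_rw [real_inner_comm (xi p h g y)]
  exact integral_inner hg.bv_grad.integrable _

end Fw4x

theorem ef_bv (hp : LC p) (hh : 0 < h) (hg : Good g) : Bv (ef p h g) :=
  ((Fw4x.dg_bv hh hg).wsmul (gF_wt hh hg.wt).inv).sub (xi_bv hp hh hg.wt)

/-- `Sm.ibp` for `g` and for `1`, `xi_eq`. -/
theorem ef_id (hp : LC p) (hu : 0 < u) (hS : Sm p u A β) (hh : 0 < h) (hg : Good g) (y : Eu n) :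
    h • xi p h g y =
      ((gF p h g y)⁻¹ • (∫ x, g x • β x ∂post p h y) - ∫ x, β x ∂post p h y) +
        u • ef p h g y := by
  have := post_prob (p := p) hh y
  have hq := slc_post hp hh y
  have iβ : Integrable β (post p h y) :=
    hq.integrable_lip (L := 1) fun a b => by simpa using hS.lip a b
  have ii : Integrable (fun x => x) (post p h y) := post_integrable_id hh y
  have key : ∀ w : Eu n → ℝ, Wt w →
      ∫ x, w x • (u⁻¹ • (x - β x) + h⁻¹ • (x - y)) ∂post p h y =
        u⁻¹ • (∫ x, w x • x ∂post p h y - ∫ x, w x • β x ∂post p h y) +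
          h⁻¹ • (∫ x, w x • x ∂post p h y - (∫ x, w x ∂post p h y) • y) := by
    intro w hw
    have i1 := hw.integrable_smul ii
    have i2 := hw.integrable_smul iβ
    have i3 : Integrable (fun x => w x • y) (post p h y) := hw.integrable.smul_const y
    rw [← integral_smul_const, ← integral_sub i1 i2, ← integral_sub i1 i3, ← integral_smul,
      ← integral_smul, ← integral_add]
    · refine integral_congr_ae (ae_of_all _ fun x => ?_)
      simp only
      module
    · exact (i1.sub i2).smul u⁻¹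
    · exact (i1.sub i3).smul h⁻¹
  have e1 := hS.ibp g hg h hh y
  have e2 := hS.ibp _ Good.one h hh y
  rw [key g hg.wt] at e1
  rw [key _ Wt.one] at e2
  simp only [gradient_fun_const, integral_zero, one_smul, integral_const, probReal_univ] at e2
  have e3 := xi_eq (p := p) hh hg.wt y
  have hG := ((gF_wt (p := p) hh hg.wt).pos y).ne'
  have hu' := hu.ne'
  have hh' := hh.ne'
  unfold ef
  rw [e1]
  change _ = _ + u • ((gF p h g y)⁻¹ • (_ + h⁻¹ • (_ - gF p h g y • y)) - _)
  set G := gF p h g y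
  set ξ := xi p h g y
  set mg := ∫ x, g x • x ∂post p h y
  set m := ∫ x, x ∂post p h y
  set bg := ∫ x, g x • β x ∂post p h y
  set b := ∫ x, β x ∂post p h y
  have e4 : ξ = h⁻¹ • (G⁻¹ • mg - m) := by rw [← e3, inv_smul_smul₀ hh']
  have e5 : b = m + (u * h⁻¹) • (m - y) := by
    have : u • (0 : Eu n) = u • (u⁻¹ • (m - b) + h⁻¹ • (m - y)) := by rw [← e2]
    rw [smul_zero, smul_add, smul_inv_smul₀ hu', smul_smul] at this
    rw [← sub_eq_zero]
    rw [eq_comm, ← neg_eq_zero] at this
    rw [← this]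
    abel
  rw [e3, e5, e4]
  match_scalars <;> field_simp <;> ring

/-- `jt_post`. -/
theorem cr_eq (hp : LC p) (hh : 0 < h) (hg : Good g) :
    cr p h g = Fish (smo p h) (gF p h g) +
      ∫ y, gF p h g y * ⟪ef p h g y, xi p h g y⟫_ℝ ∂smo p h := by
  have := smo_prob (p := p) hh
  have hw := gF_wt (p := p) hh hg.wt
  have hx := xi_bv hp hh hg.wt
  rw [Fw4x.cr_post hp hh hg, fish_gF hp hh hg.wt, ← integral_add
    (hw.integrable_mul hx.integrable_sq)
    (hw.integrable_mul ((ef_bv hp hh hg).integrable_inner hx))]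
  refine integral_congr_ae (ae_of_all _ fun y => ?_)
  have hG := (hw.pos y).ne'
  simp only [ef, inner_sub_left, inner_smul_left, real_inner_self_eq_norm_sq, conj_trivial]
  field_simp
  ring

/-- Expand the square; `cs_vec` on `post p h y` and `post_smo` for the Fisher density. -/
theorem ef_sq (hp : LC p) (hh : 0 < h) (hg : Good g) :
    ∫ y, gF p h g y * ‖ef p h g y‖ ^ 2 ∂smo p h ≤ Vf p h g := by
  have := smo_prob (p := p) hh
  have hw := gF_wt (p := p) hh hg.wt
  have hx := xi_bv hp hh hg.wt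
  obtain ⟨h3, h4⟩ := post_smo (p := p) hh hg.integrable_fish
  have i2 := ((Fw4x.dg_bv (p := p) hh hg).integrable_inner (q := smo p h) hx).const_mul 2
  have i3 := hw.integrable_mul (hx.integrable_sq (q := smo p h))
  unfold Vf
  rw [Fw4x.cr_post hp hh hg, fish_gF hp hh hg.wt]
  unfold Fish
  rw [← h4, ← integral_const_mul, ← integral_sub h3 i2, ← integral_add (by exact h3.sub i2) i3]
  refine integral_mono (hw.integrable_mul (ef_bv hp hh hg).integrable_sq) ((h3.sub i2).add i3)
    fun y => ?_
  have := post_prob (p := p) hh y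
  have hG := hw.pos y
  have e : ∀ x, g x • ((g x)⁻¹ • gradient g x) = gradient g x := fun x =>
    smul_inv_smul₀ (hg.wt.pos x).ne' _
  have h5 := cs_vec (q := post p h y) (X := fun x => (g x)⁻¹ • gradient g x)
    (fun x => (hg.wt.pos x).le) hg.wt.integrable (hg.wt.integrable_smul hg.bv_log.integrable)
    (hg.wt.integrable_mul hg.bv_log.integrable_sq)
  rw [← hg.fish_eq] at h5
  simp only [e] at h5
  change _ ≤ gF p h g y * _ at h5
  unfold Fish at h5
  simp only [ef]
  set G := gF p h g y
  set D := ∫ x, gradient g x ∂post p h y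
  rw [norm_sub_sq_real, norm_smul, inner_smul_left, mul_pow, Real.norm_eq_abs, sq_abs,
    conj_trivial]
  have h6 : G * (G⁻¹ ^ 2 * ‖D‖ ^ 2) ≤ ∫ x, ‖gradient g x‖ ^ 2 / g x ∂post p h y := by
    have : G * (G⁻¹ ^ 2 * ‖D‖ ^ 2) = ‖D‖ ^ 2 / G := by field_simp
    rw [this, div_le_iff₀ hG]
    linarith
  have h7 : G * (2 * (G⁻¹ * ⟪D, xi p h g y⟫_ℝ)) = 2 * ⟪D, xi p h g y⟫_ℝ := by field_simp
  rw [mul_add, mul_sub, h7]
  linarith

/-- `SLC.t1` on `post p h y` with `ψ x = ⟪2 • β x - x, xi y⟫`, `L = ‖xi y‖` gives (via `ef_id`,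
`xi_eq`) `-2 * u * gF y * ⟪ef y, xi y⟫ ≤ Ent (post p h y) g - h / 2 * gF y * ‖xi y‖ ^ 2`.
Integrate (`fw_ent`, `cr_eq`, `fish_gF`). -/
theorem vf_le (hp : LC p) (hu : 0 < u) (hS : Sm p u A β) (hh : 0 < h) (hg : Good g) :
    Vf p h g ≤ Fish p g - Fish (smo p h) (gF p h g) +
      1 / u * (KK p g - KK (smo p h) (gF p h g) - h / 2 * Fish (smo p h) (gF p h g)) := by
  have := smo_prob (p := p) hh
  have hw := gF_wt (p := p) hh hg.wt
  have hx := xi_bv hp hh hg.wt
  obtain ⟨h1, h2⟩ := fw_ent (p := p) hh hg.wt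
  have i1 := hw.integrable_mul ((ef_bv hp hh hg).integrable_inner (q := smo p h) hx)
  have i3 := hw.integrable_mul (hx.integrable_sq (q := smo p h))
  have pt : ∀ y, -(2 * u) * (gF p h g y * ⟪ef p h g y, xi p h g y⟫_ℝ) ≤
      Ent (post p h y) g - h / 2 * (gF p h g y * ‖xi p h g y‖ ^ 2) := by
    intro y
    have := post_prob (p := p) hh y
    have hq := slc_post hp hh y
    have iβ : Integrable β (post p h y) :=
      hq.integrable_lip (L := 1) fun a b => by simpa using hS.lip a b
    have ii : Integrable (fun x => x) (post p h y) := post_integrable_id hh y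
    have iv : Integrable (fun x => (2 : ℝ) • β x - x) (post p h y) := (iβ.smul (2 : ℝ)).sub ii
    have t := hq.t1 hh hg.wt (ψ := fun x => ⟪xi p h g y, (2 : ℝ) • β x - x⟫_ℝ)
      (L := ‖xi p h g y‖) (norm_nonneg _) fun a b => by
        rw [← inner_sub_right]
        exact (abs_real_inner_le_norm _ _).trans
          (mul_le_mul_of_nonneg_left (hS.refl a b) (norm_nonneg _))
    simp_rw [← real_inner_smul_right] at t
    rw [integral_inner (hg.wt.integrable_smul iv), integral_inner iv] at t
    have a1 : ∫ x, g x • ((2 : ℝ) • β x - x) ∂post p h y =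
        (2 : ℝ) • ∫ x, g x • β x ∂post p h y - ∫ x, g x • x ∂post p h y := by
      rw [← integral_smul, ← integral_sub (by exact (hg.wt.integrable_smul iβ).smul (2 : ℝ))
        (hg.wt.integrable_smul ii)]
      refine integral_congr_ae (ae_of_all _ fun x => ?_)
      simp only
      module
    have a2 : ∫ x, ((2 : ℝ) • β x - x) ∂post p h y =
        (2 : ℝ) • ∫ x, β x ∂post p h y - ∫ x, x ∂post p h y := by
      rw [← integral_smul, ← integral_sub (by exact iβ.smul (2 : ℝ)) ii]
    rw [a1, a2] at t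
    have e3 := xi_eq (p := p) hh hg.wt y
    have e4 := ef_id hp hu hS hh hg y
    have hG := (hw.pos y).ne'
    change _ - gF p h g y * _ ≤ _ + gF p h g y * _ at t
    set G := gF p h g y
    set ξ := xi p h g y
    set mg := ∫ x, g x • x ∂post p h y
    set m := ∫ x, x ∂post p h y
    set bg := ∫ x, g x • β x ∂post p h y
    set b := ∫ x, β x ∂post p h y
    set e := ef p h g y
    have e5 : ((2 : ℝ) • bg - mg) - G • ((2 : ℝ) • b - m) = (G * h) • ξ - (2 * u * G) • e := by
      have f1 : mg = G • (h • ξ + m) := by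
        rw [e3, sub_add_cancel, smul_inv_smul₀ hG]
      have f2 : bg = G • (h • ξ - u • e + b) := by
        rw [e4, add_sub_cancel_right, sub_add_cancel, smul_inv_smul₀ hG]
      rw [f1, f2]
      module
    rw [← real_inner_smul_right, ← inner_sub_right, e5, inner_sub_right, real_inner_smul_right,
      real_inner_smul_right, real_inner_self_eq_norm_sq, real_inner_comm] at t
    linarith
  have h5 := integral_mono (i1.const_mul (-(2 * u))) (h1.sub (i3.const_mul (h / 2))) pt
  simp only [Pi.sub_apply] at h5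
  rw [integral_sub h1 (i3.const_mul _), integral_const_mul, integral_const_mul, ← h2,
    ← fish_gF hp hh hg.wt] at h5
  unfold Vf
  rw [cr_eq hp hh hg]
  set E := ∫ y, gF p h g y * ⟪ef p h g y, xi p h g y⟫_ℝ ∂smo p h
  have h6 := mul_le_mul_of_nonneg_left h5 (one_div_pos.2 hu).le
  have h7 : 1 / u * (-(2 * u) * E) = -2 * E := by field_simp
  linarith

end Vale.Agent.P245
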