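import Vale.Agent.P245.Fw1
import Vale.Agent.P245.Jt2
import Vale.Agent.P245.Lsi

open MeasureTheory Real
open scoped InnerProductSpace ENNReal

namespace Vale.Agent.P245

variable {n : ℕ}
variable {p : Measure (Eu n)} [IsProbabilityMeasure p] {h : ℝ} {g : Eu n → ℝ}

theorem gF_int (hh : 0 < h) (hg : Wt g) : ∫ y, gF p h g y ∂smo p h = ∫ x, g x ∂p := by
  exact (post_smo hh hg.integrable).2

/-- `post_smo` applied to `g * log g`. -/
theorem fw_ent (hh : 0 < h) (hg : Wt g) :
    Integrable (fun y => Ent (post p h y) g) (smo p h) ∧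
      KK p g - KK (smo p h) (gF p h g) = ∫ y, Ent (post p h y) g ∂smo p h := by
  have := smo_prob (p := p) hh
  obtain ⟨h1, h2⟩ := post_smo (p := p) hh hg.integrable_log
  have h3 := (gF_wt (p := p) hh hg).integrable_log (q := smo p h)
  refine ⟨h1.sub h3, ?_⟩
  have h4 := integral_sub h1 h3
  rw [h2] at h4
  exact h4.symm

/-- `SLC.lsi_good` for `slc_post`, `post_smo` applied to the Fisher density. -/
theorem fw_up (hp : LC p) (hh : 0 < h) (hg : Good g) :
    KK p g - KK (smo p h) (gF p h g) ≤ h / 2 * Fish p g := by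
  obtain ⟨h1, h2⟩ := fw_ent (p := p) hh hg.wt
  obtain ⟨h3, h4⟩ := post_smo (p := p) hh hg.integrable_fish
  rw [h2]
  unfold Fish
  rw [← h4, ← integral_const_mul]
  exact integral_mono h1 (h3.const_mul _) fun y => (slc_post hp hh y).lsi_good hh hg

/-- `SLC.t1v` pointwise with `gF_grad`. -/
theorem fw_lo (hp : LC p) (hh : 0 < h) (hg : Wt g) :
    h / 2 * Fish (smo p h) (gF p h g) ≤ KK p g - KK (smo p h) (gF p h g) := by
  have := smo_prob (p := p) hh
  obtain ⟨h1, h2⟩ := fw_ent (p := p) hh hg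
  rw [h2]
  unfold Fish
  rw [← integral_const_mul]
  refine integral_mono ((gF_good hp hh hg).integrable_fish.const_mul _) h1 fun y => ?_
  have h3 := (slc_post hp hh y).t1v hh hg
  have h4 := (gF_wt (p := p) hh hg).pos y
  simp only [(gF_grad hh hg y).gradient, norm_smul, mul_pow, Real.norm_eq_abs, sq_abs]
  rw [← mul_div_assoc, div_le_iff₀ h4]
  have h5 := mul_le_mul_of_nonneg_left h3 (by positivity : 0 ≤ h / 2 * h⁻¹ ^ 2)
  unfold gF
  rw [← mul_assoc]
  refine h5.trans (le_of_eq ?_)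
  field_simp

theorem transfer (hp : LC p) (hh : 0 < h) {lam D : ℝ} (hl : 0 ≤ lam)
    (H : DL (smo p h) lam D) : DL p (lam + h) D := by
  intro g hg
  have h1 := H _ (gF_good hp hh hg.wt)
  have h2 := fw_up hp hh hg
  have h3 := fw_lo hp hh hg.wt
  have h4 : Fish (smo p h) (gF p h g) ≤ Fish p g := by nlinarith
  have h5 := mul_le_mul_of_nonneg_left h4 hl
  unfold Ent at h1 ⊢
  rw [gF_int hh hg.wt] at h1
  linarith

end Vale.Agent.P245
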