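import Vale.Agent.P245.Ch4
import Vale.Agent.P245.Fw2

open MeasureTheory Real
open scoped InnerProductSpace ENNReal

namespace Vale.Agent.P245

variable {n : ℕ}
variable {p : Measure (Eu n)} [IsProbabilityMeasure p] {h t : ℝ} {g : Eu n → ℝ}

namespace Mbx

variable {Ω : Type} [MeasurableSpace Ω] {κ : Measure Ω}

lemma int_inner {φ F : Ω → Eu n} (hφ : Bv φ) (hF : Integrable F κ) :
    Integrable (fun z => ⟪φ z, F z⟫_ℝ) κ := by
  obtain ⟨B, hB⟩ := hφ.bd
  exact (hF.norm.const_mul B).mono' (hφ.meas.aestronglyMeasurable.inner hF.1)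
    (ae_of_all _ fun z => (norm_inner_le_norm _ _).trans
      (mul_le_mul_of_nonneg_right (hB z) (norm_nonneg _)))

lemma int_sq {φ : Ω → Eu n} (hφ : Bv φ) {m : Ω → ℝ} (hm : Integrable m κ) :
    Integrable (fun z => m z * ‖φ z‖ ^ 2) κ := by
  obtain ⟨B, hB⟩ := hφ.bd
  exact hm.mul_bdd (c := B ^ 2) (hφ.meas.norm.pow_const 2).aestronglyMeasurable
    (ae_of_all _ fun z => by
      rw [norm_pow, norm_norm]
      exact pow_le_pow_left₀ (norm_nonneg _) (hB z) 2)

lemma inner_le [IsProbabilityMeasure κ] {w : Ω → ℝ} {v e : Ω → Eu n} (hw : Wt w) (hv : Bv v)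
    (he : Bv e) {φ : Eu n → Eu n} (hφ : Bv φ) (u : ℝ) {r : ℝ} (hr : 0 < r) :
    u * ∫ z, ⟪φ z, Nz κ w v e z⟫_ℝ ∂gam n ≤
      r * ∫ z, mz κ w v z * ‖φ z‖ ^ 2 ∂gam n + u ^ 2 / (4 * r) * ∫ ω, w ω * ‖e ω‖ ^ 2 ∂κ := by
  obtain ⟨h1, h2⟩ := wl_int (κ := κ) hw hv (F := fun ω => ‖e ω‖ ^ 2)
    (he.meas.norm.pow_const 2).stronglyMeasurable he.integrable_sq
  simp only [smul_eq_mul] at h1 h2
  have h3 := int_sq hφ (mz_int (κ := κ) hw hv).1
  rw [← h2, ← integral_const_mul, ← integral_const_mul, ← integral_const_mul,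
    ← integral_add (h3.const_mul _) (h1.const_mul _)]
  refine integral_mono ((int_inner hφ (Nz_int hw hv he.meas he.integrable).1).const_mul _)
    ((h3.const_mul _).add (h1.const_mul _)) fun z => ?_
  have hw' := hw.mul (hv.wt_lik z)
  have i1 := (hw'.integrable (q := κ)).mul_const (‖φ z‖ ^ 2)
  have i2 := hw'.integrable_mul (q := κ) he.integrable_sq
  have i3 := hw'.integrable_smul (q := κ) he.integrable
  simp only [Nz, mz]
  rw [← integral_inner i3, ← integral_mul_const, ← integral_const_mul, ← integral_const_mul,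
    ← integral_const_mul, ← integral_add (i1.const_mul _) (i2.const_mul _)]
  refine integral_mono ((i3.const_inner _).const_mul _) ((i1.const_mul _).add (i2.const_mul _))
    fun ω => ?_
  have k1 : u * ⟪φ z, e ω⟫_ℝ ≤ r * ‖φ z‖ ^ 2 + u ^ 2 / (4 * r) * ‖e ω‖ ^ 2 := by
    have a1 := sq_nonneg ‖(2 * r) • φ z - u • e ω‖
    rw [norm_sub_sq_real, norm_smul, norm_smul, real_inner_smul_left, real_inner_smul_right,
      mul_pow, mul_pow, Real.norm_eq_abs, Real.norm_eq_abs, sq_abs, sq_abs] at a1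
    rw [← sub_nonneg]
    refine (div_nonneg a1 (by positivity : 0 ≤ 4 * r)).trans_eq ?_
    field_simp
    ring
  have k2 := mul_le_mul_of_nonneg_left k1 (hw'.pos ω).le
  simp only [real_inner_smul_right]
  linarith

lemma fin_real {h A u t M K1 K2 F E I1 I2 I3 : ℝ} (hh : 0 < h) (hA : 0 < A)
    (d1 : h / (8 * A) * I1 ≤ K1 + t / 2 * F + A * (h / (8 * A)) ^ 2 * M)
    (d2 : -(h / (8 * A)) * I2 ≤ K2 + t / 2 * F + A * (-(h / (8 * A))) ^ 2 * M)
    (d3 : u * I3 ≤ h / 4 * M + u ^ 2 / (4 * (h / 4)) * E) (e : h * M = I1 - I2 + u * I3) :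
    M ≤ 16 * A * (K1 + K2 + t * F) / h ^ 2 + 2 * (u / h) ^ 2 * E := by
  have a1 := mul_le_mul_of_nonneg_left (add_le_add d1 d2) (show 0 ≤ 16 * A / h ^ 2 by positivity)
  have a2 := mul_le_mul_of_nonneg_left d3 (show 0 ≤ 2 / h by positivity)
  have a3 : 2 * M = 2 / h * (I1 - I2 + u * I3) := by rw [← e]; field_simp
  have b1 : 16 * A / h ^ 2 * (h / (8 * A) * I1 + -(h / (8 * A)) * I2) = 2 / h * (I1 - I2) := by
    field_simp
    ring
  have b2 : 16 * A / h ^ 2 * (K1 + t / 2 * F + A * (h / (8 * A)) ^ 2 * M +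
      (K2 + t / 2 * F + A * (-(h / (8 * A))) ^ 2 * M)) =
      16 * A * (K1 + K2 + t * F) / h ^ 2 + M / 2 := by
    field_simp
    ring
  have b3 : 2 / h * (h / 4 * M + u ^ 2 / (4 * (h / 4)) * E) = M / 2 + 2 * (u / h) ^ 2 * E := by
    field_simp
    ring
  rw [b1, b2] at a1
  rw [b3] at a2
  linarith

end Mbx

open Mbx

/-- `ch_up`, `mz_int`, `gF_int`; `Nz .. (√t • xi) = √t • Nz .. xi`. -/
theorem Em_le (hp : LC p) (hh : 0 < h) (ht : 0 < t) (hg : Good g) (h1 : ∫ x, g x ∂p = 1) :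
    Em p h t g ≤ t / 2 * MM p h t g := by
  have := smo_prob (p := p) hh
  have hG := gF_wt (p := p) hh hg.wt
  have hv := (xi_bv hp hh hg.wt).smul √t
  have h2 := ch_up (κ := smo p h) hG hv
  have e : ∀ z, Nz (smo p h) (gF p h g) (fun y => √t • xi p h g y) (fun y => √t • xi p h g y) z =
      √t • Nz (smo p h) (gF p h g) (fun y => √t • xi p h g y) (xi p h g) z := fun z => by
    simp only [Nz, ← integral_smul, smul_comm √t]
  simp only [e, norm_smul, mul_pow, Real.norm_eq_abs, sq_abs, sq_sqrt ht.le, mul_div_assoc,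
    integral_const_mul] at h2
  rw [Ent, (mz_int hG hv).2, gF_int hh hg.wt, h1, log_one] at h2
  unfold Em MM
  linarith

/-- Let `v = √t • xi`, `m = mz (smo p h) gF v`, `N = Nz (smo p h) gF v xi`, `φ = m⁻¹ • N` (`Bv` by
`Nz_le`), so `MM = ∫ ⟪φ, N⟫ = ∫ m * ‖φ‖ ^ 2`. By `hid` and `jt_post`,
`h • N z = Nz jt (g ∘ fst) (v ∘ snd) (β ∘ fst) z - Nz jt (gF ∘ snd) (v ∘ snd) (β ∘ fst) z
  + u • Nz smo gF v e z`, and both `mz jt ..` equal `m` (`jt_mul`, `jt_snd`).
Apply `ch_dv` on `jt p h` twice (`b = h / (8 * A)` and `-b`, `SG.comp` with `jt_fst`); bound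
`⟪φ z, Nz smo gF v e z⟫ ≤ ∫ gF * lik * (r * ‖φ z‖ ^ 2 + ‖e‖ ^ 2 / (4 * r))` and use `mz_int`-type
identities (`Nz_int`/`integral_lik`). -/
theorem MM_le (hp : LC p) (hh : 0 < h) (ht : 0 < t) (hg : Good g) (h1 : ∫ x, g x ∂p = 1)
    {A u : ℝ} (hA : 0 < A) {β e : Eu n → Eu n} (hβ : ∀ x y, ‖β x - β y‖ ≤ ‖x - y‖)
    (hs : SG p β A) (he : Bv e)
    (hid : ∀ y, h • xi p h g y =
      ((gF p h g y)⁻¹ • (∫ x, g x • β x ∂post p h y) - ∫ x, β x ∂post p h y) + u • e y) :
    MM p h t g ≤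
      16 * A * (KK p g + KK (smo p h) (gF p h g) + t * Fish (smo p h) (gF p h g)) / h ^ 2 +
        2 * (u / h) ^ 2 * ∫ y, gF p h g y * ‖e y‖ ^ 2 ∂smo p h := by
  have := smo_prob (p := p) hh
  have := jt_prob (p := p) hh
  have hG := gF_wt (p := p) hh hg.wt
  have hx := xi_bv hp hh hg.wt
  obtain ⟨v, ev⟩ : ∃ v : Eu n → Eu n, v = fun y => √t • xi p h g y := ⟨_, rfl⟩
  have hv : Bv v := ev ▸ hx.smul √t
  have mβ : Measurable β := (LipschitzWith.of_dist_le_mul (K := 1) fun x y => by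
    simpa only [dist_eq_norm, NNReal.coe_one, one_mul] using hβ x y).continuous.measurable
  have iβ := (jt_int_fst hh (hs.integrable mβ)).1
  have hs' := hs.comp mβ (jt_fst hh)
  have e5 : ∫ y, gF p h g y * ‖v y‖ ^ 2 / 2 ∂smo p h = t / 2 * Fish (smo p h) (gF p h g) := by
    rw [fish_gF hp hh hg.wt, ← integral_const_mul]
    refine integral_congr_ae (ae_of_all _ fun y => ?_)
    simp only [ev, norm_smul, mul_pow, Real.norm_eq_abs, sq_abs, sq_sqrt ht.le]
    ring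
  unfold MM
  rw [← ev]
  obtain ⟨B, hB, hB'⟩ := hx.bd'
  have m0 := mz_pos (κ := smo p h) hG hv
  have hφ : Bv fun z => (mz (smo p h) (gF p h g) v z)⁻¹ •
      Nz (smo p h) (gF p h g) v (xi p h g) z := by
    refine ⟨(mz_meas hG hv).inv.smul (Nz_meas hG hv hx.meas), B, fun z => ?_⟩
    rw [norm_smul, Real.norm_eq_abs, abs_of_pos (inv_pos.2 (m0 z)), inv_mul_le_iff₀ (m0 z),
      mul_comm]
    exact Nz_le hG hv hB' z
  obtain ⟨φ, eφ⟩ : ∃ φ, φ = fun z => (mz (smo p h) (gF p h g) v z)⁻¹ •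
      Nz (smo p h) (gF p h g) v (xi p h g) z := ⟨_, rfl⟩
  rw [← eφ] at hφ
  have mβ' : Measurable fun q : Eu n × Eu n => β q.1 := mβ.comp measurable_fst
  have w1 := hg.wt.comp (measurable_fst (β := Eu n))
  have w2 := hG.comp (measurable_snd (α := Eu n))
  have v2 := hv.comp (measurable_snd (α := Eu n))
  obtain ⟨i1, d1⟩ := ch_dv w1 v2 ((jt_int_fst hh hg.wt.integrable).2.trans h1)
    mβ' hs' hφ (h / (8 * A))
  obtain ⟨i2, d2⟩ := ch_dv w2 v2 ((jt_int_snd hh hG.integrable).2.trans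
    ((gF_int hh hg.wt).trans h1)) mβ' hs' hφ (-(h / (8 * A)))
  have d3 := inner_le (κ := smo p h) hG hv he hφ u (r := h / 4) (by positivity)
  have i3 := int_inner hφ (Nz_int (κ := smo p h) hG hv he.meas he.integrable).1
  have e1 : mz (jt p h) (fun q => g q.1) (fun q => v q.2) = mz (smo p h) (gF p h g) v :=
    funext fun z => (jt_mul hh hg.wt (hv.wt_lik z).integrable).2
  have e2 : mz (jt p h) (fun q => gF p h g q.2) (fun q => v q.2) = mz (smo p h) (gF p h g) v :=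
    funext fun z => (jt_int_snd hh (hG.mul (hv.wt_lik z)).integrable).2
  have e3 : KK (jt p h) (fun q => g q.1) = KK p g := (jt_int_fst hh hg.wt.integrable_log).2
  have e4 : KK (jt p h) (fun q => gF p h g q.2) = KK (smo p h) (gF p h g) :=
    (jt_int_snd hh hG.integrable_log).2
  have e6 : ∫ q, g q.1 * ‖v q.2‖ ^ 2 / 2 ∂jt p h = t / 2 * Fish (smo p h) (gF p h g) := by
    rw [← e5]
    simpa only [smul_eq_mul, mul_div_assoc] using
      (jt_mul hh hg.wt (hv.integrable_sq.div_const 2)).2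
  have e7 : ∫ q, gF p h g q.2 * ‖v q.2‖ ^ 2 / 2 ∂jt p h = t / 2 * Fish (smo p h) (gF p h g) :=
    (jt_int_snd hh ((hG.integrable_mul hv.integrable_sq).div_const 2)).2.trans e5
  have e8 : ∀ z, h • Nz (smo p h) (gF p h g) v (xi p h g) z =
      Nz (jt p h) (fun q => g q.1) (fun q => v q.2) (fun q => β q.1) z -
        Nz (jt p h) (fun q => gF p h g q.2) (fun q => v q.2) (fun q => β q.1) z +
        u • Nz (smo p h) (gF p h g) v e z := fun z => by
    obtain ⟨a1, a2⟩ := jt_post hh ((w1.mul (v2.wt_lik z)).integrable_smul iβ)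
    obtain ⟨a3, a4⟩ := jt_post hh ((w2.mul (v2.wt_lik z)).integrable_smul iβ)
    have a5 := ((hG.mul (hv.wt_lik z)).integrable_smul (q := smo p h) he.integrable).smul u
    simp only [Nz]
    rw [a2, a4, ← integral_sub a1 a3, ← integral_smul, ← integral_smul]
    refine Eq.trans (integral_congr_ae (ae_of_all _ fun y => ?_)) (integral_add (a1.sub a3) a5)
    simp only [mul_comm (g _), mul_smul (lik _ _), integral_smul]
    rw [smul_comm h, hid]
    have := (hG.pos y).ne'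
    match_scalars <;> field_simp
  have e9 : ∫ z, ‖Nz (smo p h) (gF p h g) v (xi p h g) z‖ ^ 2 / mz (smo p h) (gF p h g) v z ∂gam n =
      ∫ z, mz (smo p h) (gF p h g) v z * ‖φ z‖ ^ 2 ∂gam n := by
    refine integral_congr_ae (ae_of_all _ fun z => ?_)
    have := (m0 z).ne'
    simp only [eφ, norm_smul, mul_pow, Real.norm_eq_abs, sq_abs]
    field_simp
  have e10 : h * ∫ z, mz (smo p h) (gF p h g) v z * ‖φ z‖ ^ 2 ∂gam n =
      ∫ z, ⟪φ z, Nz (jt p h) (fun q => g q.1) (fun q => v q.2) (fun q => β q.1) z⟫_ℝ ∂gam n -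
      ∫ z, ⟪φ z, Nz (jt p h) (fun q => gF p h g q.2) (fun q => v q.2) (fun q => β q.1) z⟫_ℝ ∂gam n
        + u * ∫ z, ⟪φ z, Nz (smo p h) (gF p h g) v e z⟫_ℝ ∂gam n := by
    rw [← integral_sub i1 i2, ← integral_const_mul, ← integral_const_mul]
    refine Eq.trans (integral_congr_ae (ae_of_all _ fun z => ?_))
      (integral_add (i1.sub i2) (i3.const_mul u))
    beta_reduce
    rw [← real_inner_smul_right, ← inner_sub_right, ← inner_add_right, ← e8, real_inner_smul_right]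
    have := (m0 z).ne'
    simp only [eφ, norm_smul, mul_pow, Real.norm_eq_abs, sq_abs, real_inner_smul_left,
      real_inner_self_eq_norm_sq]
    field_simp
  rw [e1, e3, e6] at d1
  rw [e2, e4, e7] at d2
  rw [e9]
  exact fin_real hh hA d1 d2 d3 e10

end Vale.Agent.P245
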