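import Vale.Agent.P245.Obs
import Vale.Agent.P245.Bw
import Vale.Agent.P245.Fw2

open MeasureTheory Real
open scoped InnerProductSpace ENNReal

namespace Vale.Agent.P245

variable {n : ℕ}
variable {p : Measure (Eu n)} [IsProbabilityMeasure p] {h t lam D : ℝ} {g : Eu n → ℝ}

/-- `obs` with `g₁ = 1`, `g₂ = G = gF p h g`, `v = √t • xi`, `η = √t • (gB h G)⁻¹ • gradient (gB h G)`.
`∫ G • xi ∂ker h x = gradient (gB h G) x` by `gB_grad'`; `ker_smo`; `gB_int`, `gF_int`. -/
theorem obs_b (hp : LC p) (hh : 0 < h) (ht : 0 < t) (hl : 0 ≤ lam) (H : DL p lam D)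
    (hg : Good g) (h1 : ∫ x, g x ∂p = 1) :
    KK p (gB h (gF p h g)) + t / 2 * Fish p (gB h (gF p h g)) - Em p h t g ≤
      lam / h * (KK (smo p h) (gF p h g) - KK p (gB h (gF p h g))) +
        lam * t / (2 * h) * (Fish (smo p h) (gF p h g) - Fish p (gB h (gF p h g))) + D := by
  have hs := smo_prob (p := p) hh
  have hG := gF_good hp hh hg.wt
  have hH := gB_good hh hG.wt
  have hv := (xi_bv hp hh hg.wt).smul √t
  have tt : √t * √t = t := Real.mul_self_sqrt ht.le
  have e : ∀ x, Psi (fun _ => 1) (gF p h g) (fun y => √t • xi p h g y)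
      (fun x => √t • (gB h (gF p h g) x)⁻¹ • gradient (gB h (gF p h g)) x) h lam D x =
      (1 + lam / h) * (gB h (gF p h g) x * log (gB h (gF p h g) x))
        + (1 + lam / h) * (t / 2) * (‖gradient (gB h (gF p h g)) x‖ ^ 2 / gB h (gF p h g) x)
        - lam / h * ∫ y, gF p h g y * log (gF p h g y) ∂ker h x
        - lam / h * (t / 2) * ∫ y, ‖gradient (gF p h g) y‖ ^ 2 / gF p h g y ∂ker h x
        - D * gB h (gF p h g) x := fun x => by
    have e1 : ∫ y, gF p h g y • √t • xi p h g y ∂ker h x =
        √t • gradient (gB h (gF p h g)) x := by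
      rw [gB_grad' hh hG x, ← integral_smul]
      refine integral_congr_ae (ae_of_all _ fun y => ?_)
      simp only [xi]
      rw [smul_comm, smul_inv_smul₀ (hG.wt.pos y).ne']
    have e2 : ∫ y, gF p h g y * ‖√t • xi p h g y‖ ^ 2 / 2 ∂ker h x =
        t / 2 * ∫ y, ‖gradient (gF p h g) y‖ ^ 2 / gF p h g y ∂ker h x := by
      rw [← integral_const_mul]
      refine integral_congr_ae (ae_of_all _ fun y => ?_)
      have := hG.wt.pos y
      simp only [xi, norm_smul, mul_pow, Real.norm_eq_abs, sq_abs, Real.sq_sqrt ht.le]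
      field_simp
    have := hH.wt.pos x
    unfold Psi sz
    rw [e1, e2, KK]
    simp only [gradient_fun_const, norm_zero, inner_zero_left, log_one, real_inner_smul_left,
      real_inner_smul_right, real_inner_self_eq_norm_sq, norm_smul, mul_pow, Real.norm_eq_abs,
      sq_abs, Real.sq_sqrt ht.le, RCLike.conj_to_real]
    rw [show ∀ a b : ℝ, √t * (a * (√t * b)) = t * (a * b) from fun a b => by
      rw [mul_left_comm a, ← mul_assoc, tt]]
    field_simp
    ring
  have i1 := hH.wt.integrable_log (q := p)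
  have i2 := hH.integrable_fish (p := p)
  obtain ⟨i3, j3⟩ := ker_smo (p := p) hh hG.wt.integrable_log
  obtain ⟨i4, j4⟩ := ker_smo (p := p) hh hG.integrable_fish
  have i5 := hH.wt.integrable (q := p)
  have k1 := (i1.const_mul (1 + lam / h)).add (i2.const_mul ((1 + lam / h) * (t / 2)))
  have k2 := k1.sub (i3.const_mul (lam / h))
  have k3 := k2.sub (i4.const_mul (lam / h * (t / 2)))
  have k4 := k3.sub (i5.const_mul D)
  have h2 := obs (η := fun x => √t • (gB h (gF p h g) x)⁻¹ • gradient (gB h (gF p h g)) x)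
    hh hl H Good.one hG.wt hv (k4.congr (ae_of_all _ fun x => (e x).symm)) hG.wt fun y => by
      have := post_prob (p := p) hh y
      simp [gF]
  simp only [e] at h2
  rw [integral_sub (by exact k3) (i5.const_mul D), integral_sub (by exact k2) (i4.const_mul _),
    integral_sub (by exact k1) (i3.const_mul _),
    integral_add (i1.const_mul _) (i2.const_mul _)] at h2
  simp only [integral_const_mul] at h2
  rw [j3, j4, gB_int hh hG.wt, gF_int hh hg.wt, h1] at h2
  have e3 : lam * t / (2 * h) = lam / h * (t / 2) := by field_simp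
  rw [e3]
  unfold Em Fish
  unfold KK at h2 ⊢
  linarith

end Vale.Agent.P245
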