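import Vale.Agent.P245.Obs
import Vale.Agent.P245.Fw2

open MeasureTheory Real
open scoped InnerProductSpace ENNReal

namespace Vale.Agent.P245

variable {n : ℕ}
variable {p : Measure (Eu n)} [IsProbabilityMeasure p] {h t lam D : ℝ} {g : Eu n → ℝ}

/-- `obs` with `g₁ = g`, `g₂ = 1`, `G = gF p h g`, `v = √t • xi`, `η = √t • g⁻¹ • gradient g`.
`gB h 1 = 1`, `ker_mean`; `cr = ∫ x, ⟪gradient g x, ∫ xi ∂ker h x⟫ ∂p` by `jt_ker`;
`ker_mul` for `‖xi‖ ^ 2` and `fish_gF`. -/
theorem obs_f (hp : LC p) (hh : 0 < h) (ht : 0 < t) (hl : 0 ≤ lam) (H : DL p lam D)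
    (hg : Good g) (h1 : ∫ x, g x ∂p = 1) :
    KK p g + t / 2 * (Fish (smo p h) (gF p h g) - Vf p h g) - Em p h t g ≤
      lam / 2 * Fish p g + lam * t / (2 * h) * Vf p h g + D := by
  have := smo_prob (p := p) hh
  have := jt_prob (p := p) hh
  have hx := xi_bv hp hh hg.wt
  obtain ⟨iA, eA⟩ := jt_ker (p := p) hh
    (F := fun q => ⟪gradient g q.1, xi p h g q.2⟫_ℝ)
    ((hg.bv_grad.comp measurable_fst).integrable_inner (hx.comp measurable_snd))
  obtain ⟨iB, eB⟩ := ker_mul (p := p) hh hg.wt (F := fun y => ‖xi p h g y‖ ^ 2) hx.integrable_sq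
  simp only [smul_eq_mul] at iB eB
  dsimp only at iA eA
  rw [← fish_gF hp hh hg.wt] at eB
  have e : Psi g (fun _ => 1) (fun y => √t • xi p h g y)
      (fun x => √t • (g x)⁻¹ • gradient g x) h lam D = fun x => g x * log (g x)
        + (1 + lam / h) * t * (∫ y, ⟪gradient g x, xi p h g y⟫_ℝ ∂ker h x)
        - ((1 + lam / h) * t / 2 + lam / 2) * (‖gradient g x‖ ^ 2 / g x)
        - lam / h * t / 2 * (g x * ∫ y, ‖xi p h g y‖ ^ 2 ∂ker h x) - D * g x := by
    funext x
    have := ker_prob hh x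
    have g0 := hg.wt.pos x
    have b1 : gB h (fun _ => 1) x = 1 := by simp [gB]
    have b2 : ∫ y, √t • xi p h g y ∂ker h x = √t • ∫ y, xi p h g y ∂ker h x := integral_smul _ _
    have b3 : ∫ y, ‖√t • xi p h g y‖ ^ 2 / 2 ∂ker h x
        = t / 2 * ∫ y, ‖xi p h g y‖ ^ 2 ∂ker h x := by
      rw [← integral_const_mul]
      refine integral_congr_ae (ae_of_all _ fun y => ?_)
      simp only [norm_smul, mul_pow, norm_eq_abs, sq_abs, sq_sqrt ht.le]
      ring
    have b4 : ‖√t • (g x)⁻¹ • gradient g x‖ ^ 2 = t * ((g x)⁻¹ ^ 2 * ‖gradient g x‖ ^ 2) := by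
      simp only [norm_smul, mul_pow, norm_eq_abs, sq_abs, sq_sqrt ht.le]
    have b5 : ⟪√t • ∫ y, xi p h g y ∂ker h x, √t • (g x)⁻¹ • gradient g x⟫_ℝ
        = t * ((g x)⁻¹ * ∫ y, ⟪gradient g x, xi p h g y⟫_ℝ ∂ker h x) := by
      rw [integral_inner hx.integrable, real_inner_smul_left, real_inner_smul_right,
        real_inner_smul_right, real_inner_comm, ← mul_assoc, mul_self_sqrt ht.le]
    simp only [Psi, sz, KK, b1, one_smul, one_mul, ker_mean hh, log_one, mul_zero, smul_zero,
      inner_zero_right, integral_zero, b2, b3, b4, b5]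
    field_simp
    ring
  have i1 := hg.wt.integrable_log (q := p)
  have i2 := iA.const_mul ((1 + lam / h) * t)
  have i3 := (hg.integrable_fish (p := p)).const_mul ((1 + lam / h) * t / 2 + lam / 2)
  have i4 := iB.const_mul (lam / h * t / 2)
  have i5 := (hg.wt.integrable (q := p)).const_mul D
  have key := obs (η := fun x => √t • (g x)⁻¹ • gradient g x) hh hl H hg Wt.one (hx.smul √t)
    (by rw [e]; exact (((i1.add i2).sub i3).sub i4).sub i5) (gF_wt (p := p) hh hg.wt)
    fun y => (mul_one _).symm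
  rw [e] at key
  dsimp only at key
  rw [integral_sub (((i1.fun_add i2).sub' i3).sub' i4) i5,
    integral_sub ((i1.fun_add i2).sub' i3) i4,
    integral_sub (i1.fun_add i2) i3, integral_add i1 i2, integral_const_mul, integral_const_mul,
    integral_const_mul, integral_const_mul, ← eA, eB, h1] at key
  change KK p g + (1 + lam / h) * t * cr p h g - _ * Fish p g - _ - _ ≤ Em p h t g at key
  unfold Vf
  have e2 : lam * t / (2 * h) = lam / h * t / 2 := by ring
  rw [e2]
  linarith

end Vale.Agent.P245
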