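import Vale.Agent.P245.Fin
import Vale.Agent.P245.ObB
import Vale.Agent.P245.ObF
import Vale.Agent.P245.Mb
import Vale.Agent.P245.Fw4
import Vale.Agent.P245.Ar

open MeasureTheory Real
open scoped InnerProductSpace ENNReal

namespace Vale.Agent.P245

variable {n : ℕ}
variable {p : Measure (Eu n)} [IsProbabilityMeasure p] {lam D : ℝ}

lemma DL.norm (H : DL p lam D) {g : Eu n → ℝ} (hg : Good g) (h1 : ∫ x, g x ∂p = 1) :
    KK p g ≤ lam / 2 * Fish p g + D := by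
  have := H g hg
  unfold Ent at this
  rw [h1] at this
  simpa using this

lemma Dv_mem : (0 : ℝ) ∈ {d | ∃ g, Good g ∧ ∫ x, g x ∂p = 1 ∧ d = KK p g - lam / 2 * Fish p g} :=
  ⟨fun _ => 1, Good.one, by simp, by simp [KK, Fish]⟩

lemma Dv_bdd (H : DL p lam D) :
    D ∈ upperBounds {d | ∃ g, Good g ∧ ∫ x, g x ∂p = 1 ∧ d = KK p g - lam / 2 * Fish p g} := by
  rintro _ ⟨g, hg, h1, rfl⟩
  linarith [H.norm hg h1]

lemma Dv_le (H : DL p lam D) : Dv p lam ≤ D := by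
  exact csSup_le ⟨0, Dv_mem⟩ (Dv_bdd H)

lemma Dv_dl (H : DL p lam D) : DL p lam (Dv p lam) := by
  refine DL_of_norm fun g hg h1 => ?_
  have : KK p g - lam / 2 * Fish p g ≤ Dv p lam := le_csSup ⟨D, Dv_bdd H⟩ ⟨g, hg, h1, rfl⟩
  linarith

lemma Dv_nonneg (H : DL p lam D) : 0 ≤ Dv p lam := by
  exact le_csSup ⟨D, Dv_bdd H⟩ Dv_mem

lemma Dv_near {ε : ℝ} (hε : 0 < ε) :
    ∃ g, Good g ∧ ∫ x, g x ∂p = 1 ∧ Dv p lam - ε ≤ KK p g - lam / 2 * Fish p g := by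
  by_cases hb : BddAbove
      {d | ∃ g, Good g ∧ ∫ x, g x ∂p = 1 ∧ d = KK p g - lam / 2 * Fish p g}
  · obtain ⟨_, ⟨g, hg, h1, rfl⟩, h2⟩ := exists_lt_of_lt_csSup ⟨0, Dv_mem (p := p) (lam := lam)⟩
      (sub_lt_self (Dv p lam) hε)
    exact ⟨g, hg, h1, h2.le⟩
  · refine ⟨fun _ => 1, Good.one, by simp, ?_⟩
    unfold Dv
    rw [Real.sSup_of_not_bddAbove hb]
    simp [KK, Fish, hε.le]

lemma DL.mono (H : DL p lam D) {lam' : ℝ} (h : lam ≤ lam') : DL p lam' D := by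
  intro g hg
  have h1 := H g hg
  have h2 := mul_le_mul_of_nonneg_right h (hg.fish_nonneg p)
  linarith

lemma Dv_mono (H : DL p lam D) {lam' : ℝ} (h : lam ≤ lam') : Dv p lam' ≤ Dv p lam :=
  Dv_le ((Dv_dl H).mono h)

lemma le_of_eps {a b c : ℝ} (h : ∀ ε, 0 < ε → a ≤ b + c * ε) : a ≤ b := by
  refine le_of_forall_pos_le_add fun δ hδ => ?_
  have h1 := h (δ / (|c| + 1)) (by positivity)
  have h2 : c * (δ / (|c| + 1)) ≤ δ := by
    rw [← mul_div_assoc, div_le_iff₀ (by positivity)]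
    nlinarith [le_abs_self c]
  linarith

theorem recA (hp : LC p) {A : ℝ} (hA : 0 < A) (hs : SG p (fun x => x) A) (hl : 512 * A ≤ lam) :
    Dv p lam ≤ Dv p (2 * lam) + 18432 * A / lam * Dv p (lam / 16) := by
  have hl0 : 0 < lam := by linarith
  have H0 := fin_dl hp hA hs (lam := lam / 16) (by linarith)
  have H1 := Dv_dl H0
  have H2 := Dv_dl (H0.mono (lam' := lam) (by linarith))
  have H3 := Dv_dl (H0.mono (lam' := 2 * lam) (by linarith))
  refine le_of_eps (c := 16384 * A / lam + 4) fun ε hε => ?_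
  obtain ⟨g, hg, h1, h2⟩ := Dv_near (p := p) (lam := lam) hε
  have hs0 : 0 < lam / 8 := by positivity
  have ht0 : 0 < lam ^ 2 / (8192 * A) := by positivity
  have := smo_prob (p := p) hs0
  have hG := gF_good hp hs0 hg.wt
  have hB := gB_good hs0 hG.wt
  have hB1 : ∫ x, gB (lam / 8) (gF p (lam / 8) g) x ∂p = 1 := by
    rw [gB_int hs0 hG.wt, gF_int hs0 hg.wt, h1]
  have hM := MM_le hp hs0 ht0 hg h1 hA (u := 0) (β := fun x => x) (e := fun _ => 0)
    (fun _ _ => le_rfl) hs ⟨measurable_const, 0, fun _ => by simp⟩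
    (fun y => by rw [xi_eq hs0 hg.wt]; simp)
  simp only [zero_div, ne_eq, OfNat.ofNat_ne_zero, not_false_eq_true, zero_pow, mul_zero,
    zero_mul, add_zero] at hM
  have key := arA hA hl0 rfl rfl (hg.fish_nonneg p) (hG.fish_nonneg _) (Dv_nonneg H2)
    (Dv_mono H0 (by linarith)) hε.le (H2.norm hg h1) h2 (fw_up hp hs0 hg) (fw_lo hp hs0 hg.wt)
    (bw_up hs0 hG) (H2.norm hB hB1) (obs_b hp hs0 ht0 (by positivity) H1 hg h1)
    ((Em_le hp hs0 ht0 hg h1).trans (mul_le_mul_of_nonneg_left hM (by positivity)))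
  have h3 := H3.norm hg h1
  linarith

theorem recB (hp : LC p) {A l0 η u : ℝ} {β : Eu n → Eu n} (hA : 0 < A) (hη : 0 < η)
    (hη' : η ≤ 1 / 20) (hl0 : 10 ^ 11 * A ≤ η ^ 7 * l0) (hu : u = η ^ 2 * l0 / 100)
    (hS : Sm p u A β) (H : DL p (l0 / 2) D) (hl : l0 ≤ lam) (hl' : lam ≤ 150 * l0) :
    2 * (Dv p lam - Dv p (lam * (1 + η))) - η / 40 * Dv p lam ≤
      Dv p (lam / (1 + η)) - Dv p lam := by
  obtain ⟨hlp, hup, hhp, -⟩ := arB0 hA hη hη' hl0 hl hl' hu rfl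
  have e1 : l0 / 2 ≤ lam / (1 + η) := by
    rw [le_div_iff₀ (by positivity)]
    nlinarith
  have e2 : lam / (1 + η) ≤ lam := div_le_self hlp.le (by linarith)
  have e3 : lam ≤ lam * (1 + η) := le_mul_of_one_le_right hlp.le (by linarith)
  have H1 := Dv_dl (H.mono e1)
  have H2 := Dv_dl (H1.mono e2)
  have H3 := Dv_dl (H2.mono e3)
  refine le_of_eps (c := 100 / η ^ 2 + 4 * lam / (η * u / 2) + 2) fun ε hε => ?_
  obtain ⟨g, hg, h1, h2⟩ := Dv_near (p := p) (lam := lam) hε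
  have ht0 : 0 < 4 * lam := by positivity
  have := smo_prob (p := p) hhp
  have hG := gF_good hp hhp hg.wt
  have hB := gB_good hhp hG.wt
  have hB1 : ∫ x, gB (η * u / 2) (gF p (η * u / 2) g) x ∂p = 1 := by
    rw [gB_int hhp hG.wt, gF_int hhp hg.wt, h1]
  have hM := MM_le hp hhp ht0 hg h1 hA hS.lip hS.sg (ef_bv hp hhp hg) (ef_id hp hup hS hhp hg)
  have hM' := hM.trans (add_le_add_right
    (mul_le_mul_of_nonneg_left (ef_sq hp hhp hg) (by positivity)) _)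
  have key := arB hA hη hη' hl0 hl hl' hu rfl rfl (hg.fish_nonneg p) (hG.fish_nonneg _)
    (Dv_nonneg H2) hε.le (H2.norm hg h1) h2 (fw_up hp hhp hg) (fw_lo hp hhp hg.wt)
    (bw_up hhp hG) (bw_fish hhp hG) (H2.norm hB hB1)
    (obs_b hp hhp ht0 (by positivity) H1 hg h1) (obs_f hp hhp ht0 (by positivity) H1 hg h1)
    (Em_le hp hhp ht0 hg h1) hM' (vf_le hp hup hS hhp hg)
  have h3 := H3.norm hg h1
  linarith

end Vale.Agent.P245
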