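import Vale.Agent.P245.Gk2
import Vale.Agent.P245.Fw2

open MeasureTheory Real
open scoped InnerProductSpace ENNReal

namespace Vale.Agent.P245

variable {n : ℕ}

namespace FinX

lemma two_pt {h : ℝ} (hh : 0 < h) {G : Eu n → ℝ} (hG : Wt G) {x : Eu n}
    (hl : Integrable (fun y => log (G y)) (ker h x)) (x' : Eu n) :
    ∫ y, log (G y) ∂ker h x ≤ ‖x - x'‖ ^ 2 / (2 * h) + ∫ y, G y ∂ker h x' - 1 := by
  have := ker_prob hh x
  have := ker_prob hh x'
  have e : ∀ y, gk h (y - x) • (G y * (gk h (y - x') / gk h (y - x))) = gk h (y - x') • G y :=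
    fun y => by
      have := gk_pos hh (y - x)
      simp only [smul_eq_mul]
      field_simp
  have i1 : Integrable (fun y => G y * (gk h (y - x') / gk h (y - x))) (ker h x) := by
    rw [integrable_ker_iff hh]
    simp only [e]
    exact (integrable_ker_iff hh x' G).1 hG.integrable
  have e1 : ∫ y, G y * (gk h (y - x') / gk h (y - x)) ∂ker h x = ∫ y, G y ∂ker h x' := by
    rw [integral_ker hh, integral_ker hh]
    simp only [e]
  have i0 : Integrable (fun y => y - x) (ker h x) :=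
    (slc_ker hh x).integrable_id.sub' (integrable_const x)
  have i2 : Integrable (fun y => ⟪x - x', y - x⟫_ℝ / h) (ker h x) :=
    (i0.const_inner _).div_const h
  have e2 : ∫ y, ⟪x - x', y - x⟫_ℝ / h ∂ker h x = 0 := by
    rw [integral_div, integral_inner i0, ker_mean hh, inner_zero_right, zero_div]
  have b : ∀ y, log (G y) ≤ ‖x - x'‖ ^ 2 / (2 * h) + ⟪x - x', y - x⟫_ℝ / h
      + G y * (gk h (y - x') / gk h (y - x)) - 1 := fun y => by
    have r : gk h (y - x') / gk h (y - x)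
        = exp (-(‖x - x'‖ ^ 2 / (2 * h) + ⟪x - x', y - x⟫_ℝ / h)) := by
      have : (0 : ℝ) < (2 * π * h) ^ (-(n : ℝ) / 2) := rpow_pos_of_pos (by positivity) _
      unfold gk
      rw [mul_div_mul_left _ _ this.ne', ← exp_sub, show y - x' = (x - x') + (y - x) by abel,
        norm_add_sq_real]
      congr 1
      field_simp
      ring
    have := log_le_sub_one_of_pos (mul_pos (hG.pos y)
      (exp_pos (-(‖x - x'‖ ^ 2 / (2 * h) + ⟪x - x', y - x⟫_ℝ / h))))
    rw [log_mul (hG.pos y).ne' (exp_pos _).ne', log_exp, ← r] at this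
    linarith
  have c1 := (integrable_const (‖x - x'‖ ^ 2 / (2 * h))).fun_add i2
  have c := integral_mono hl ((c1.fun_add i1).sub' (integrable_const 1)) b
  rw [integral_sub (c1.fun_add i1) (integrable_const 1), integral_add c1 i1, e1,
    integral_add (integrable_const _) i2, e2] at c
  simpa using c

end FinX

/-- `exp (‖X‖ ^ 2 / (8 * A)) = ∫ z, exp ⟪X, (2 * √A)⁻¹ • z⟫ ∂gam` (`ker_mgf`), Tonelli, `SG`,
`gam_exp_sq`; then `gibbs` with `log 2 ≤ 1`. -/
theorem SG.sq {Ω : Type} [MeasurableSpace Ω] {q : Measure Ω} [IsProbabilityMeasure q]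
    {X : Ω → Eu n} {A : ℝ} (hA : 0 < A) (hs : SG q X A) (hX : Measurable X) :
    Integrable (fun ω => ‖X ω‖ ^ 2) q ∧
      ∀ w, Wt w → ∫ ω, w ω ∂q = 1 → ∫ ω, w ω * ‖X ω‖ ^ 2 ∂q ≤ 8 * A * (KK q w + n / 2) := by
  have := gam_prob (n := n)
  set c : ℝ := (2 * √A)⁻¹ with hc
  have hc2 : c ^ 2 = (4 * A)⁻¹ := by
    rw [hc, inv_pow, mul_pow, sq_sqrt hA.le]
    norm_num
  have hm : Measurable fun r : Ω × Eu n => exp ⟪c • r.2, X r.1⟫_ℝ :=
    ((measurable_snd.const_smul c).inner (hX.comp measurable_fst)).exp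
  have hb : ∀ z : Eu n, ∫ ω, exp ⟪c • z, X ω⟫_ℝ ∂q ≤ exp (‖z‖ ^ 2 / 4) := fun z => by
    refine (hs (c • z)).2.trans (le_of_eq ?_)
    rw [norm_smul, mul_pow, norm_eq_abs, sq_abs, hc2]
    congr 1
    field_simp
  have hi : Integrable (fun r : Ω × Eu n => exp ⟪c • r.2, X r.1⟫_ℝ) (q.prod (gam n)) := by
    refine (integrable_prod_iff' hm.aestronglyMeasurable).2
      ⟨ae_of_all _ fun z => (hs (c • z)).1, gam_exp_sq.1.mono' ?_ (ae_of_all _ fun z => ?_)⟩
    · exact hm.norm.stronglyMeasurable.integral_prod_left'.aestronglyMeasurable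
    · simp only [norm_eq_abs, abs_exp]
      rw [abs_of_nonneg (integral_nonneg fun _ => (exp_pos _).le)]
      exact hb z
  have he : ∀ ω, ∫ z, exp ⟪c • z, X ω⟫_ℝ ∂gam n = exp (‖X ω‖ ^ 2 / (8 * A)) := fun ω => by
    have h1 : ∀ z : Eu n, ⟪c • z, X ω⟫_ℝ = ⟪c • X ω, z⟫_ℝ := fun z => by
      rw [real_inner_smul_left, real_inner_smul_left, real_inner_comm]
    simp only [h1]
    rw [gam, (ker_mgf one_pos 0 _).2, inner_zero_right, norm_smul, mul_pow, norm_eq_abs, sq_abs,
      hc2]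
    congr 1
    field_simp
    ring
  have i1 : Integrable (fun ω => exp (‖X ω‖ ^ 2 / (8 * A))) q := by
    simpa only [he] using hi.integral_prod_left
  have i2 : ∫ ω, exp (‖X ω‖ ^ 2 / (8 * A)) ∂q ≤ (2 : ℝ) ^ ((n : ℝ) / 2) := by
    simp only [← he]
    rw [integral_integral_swap hi, ← gam_exp_sq.2]
    exact integral_mono hi.integral_prod_right gam_exp_sq.1 hb
  have i3 : Integrable (fun ω => ‖X ω‖ ^ 2) q := by
    refine (i1.const_mul (8 * A)).mono' (hX.norm.pow_const 2).aestronglyMeasurable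
      (ae_of_all _ fun ω => ?_)
    rw [norm_eq_abs, abs_of_nonneg (sq_nonneg _), mul_comm, ← div_le_iff₀ (by positivity)]
    linarith [add_one_le_exp (‖X ω‖ ^ 2 / (8 * A))]
  refine ⟨i3, fun w hw h1 => ?_⟩
  have h2 := gibbs (q := q) (φ := fun ω => ‖X ω‖ ^ 2 / (8 * A)) (fun x => (hw.pos x).le)
    hw.integrable hw.integrable_log (hw.integrable_mul (i3.div_const _)) i1
  have h3 : log (∫ ω, exp (‖X ω‖ ^ 2 / (8 * A)) ∂q) ≤ n / 2 := by
    refine (log_le_log (integral_exp_pos i1) i2).trans ?_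
    rw [log_rpow two_pos]
    refine mul_le_of_le_one_right (by positivity) ?_
    linarith [log_le_sub_one_of_pos two_pos]
  simp only [Ent, h1, log_one, mul_zero, sub_zero, one_mul, ← mul_div_assoc, integral_div] at h2
  rw [mul_comm, ← div_le_iff₀ (by positivity)]
  linarith

variable {p : Measure (Eu n)} [IsProbabilityMeasure p] {h : ℝ} {g : Eu n → ℝ}

/-- With `G = gF p h g`, `ℓ y = gk h (y - x) / gk h (y - x')`: `log G - log ℓ ≤ G / ℓ - 1`;
integrate over `ker h x` (`ker_mean`): `∫ log G ∂ker h x ≤ ‖x - x'‖ ^ 2 / (2 * h) + gB h G x' - 1`.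
Integrate over `x' ~ p` (`ker_smo`, `gF_int`), then against `g x` (`ker_mul`). -/
theorem kh_le (hh : 0 < h) (hg : Wt g) (h1 : ∫ x, g x ∂p = 1)
    (h2 : Integrable (fun x : Eu n => ‖x‖ ^ 2) p) :
    KK (smo p h) (gF p h g) ≤ ((∫ x, g x * ‖x‖ ^ 2 ∂p) + ∫ x, ‖x‖ ^ 2 ∂p) / h := by
  have := smo_prob (p := p) hh
  have hG := gF_wt (p := p) hh hg
  obtain ⟨M, -, hM⟩ := hG.abs_log_le
  have hl : ∀ (μ : Measure (Eu n)) [IsFiniteMeasure μ],
      Integrable (fun y => log (gF p h g y)) μ := fun μ _ =>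
    (integrable_const M).mono' hG.meas.log.aestronglyMeasurable (ae_of_all _ hM)
  obtain ⟨j1, j2⟩ := ker_mul (p := p) hh hg (hl (smo p h))
  obtain ⟨k1, k2⟩ := ker_smo (p := p) hh (hG.integrable (q := smo p h))
  rw [gF_int hh hg, h1] at k2
  have a : ∀ x, ∫ y, log (gF p h g y) ∂ker h x ≤ (‖x‖ ^ 2 + ∫ x, ‖x‖ ^ 2 ∂p) / h := fun x => by
    have := ker_prob hh x
    have b : ∀ x', ∫ y, log (gF p h g y) ∂ker h x ≤
        (‖x‖ ^ 2 + ‖x'‖ ^ 2) / h + ∫ y, gF p h g y ∂ker h x' - 1 := fun x' => by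
      have := ker_prob hh x'
      refine (FinX.two_pt hh hG (hl _) x').trans ?_
      have : ‖x - x'‖ ^ 2 / (2 * h) ≤ (‖x‖ ^ 2 + ‖x'‖ ^ 2) / h := by
        rw [div_le_div_iff₀ (by positivity) hh]
        have h3 := pow_le_pow_left₀ (norm_nonneg _) (norm_sub_le x x') 2
        have h4 : ‖x - x'‖ ^ 2 ≤ (‖x‖ ^ 2 + ‖x'‖ ^ 2) * 2 := by
          nlinarith [sq_nonneg (‖x‖ - ‖x'‖)]
        nlinarith
      linarith
    have c1 := ((integrable_const (‖x‖ ^ 2)).fun_add h2).div_const h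
    have c := integral_mono (integrable_const _) ((c1.fun_add k1).sub' (integrable_const 1)) b
    rw [integral_sub (c1.fun_add k1) (integrable_const 1), integral_add c1 k1, k2, integral_div,
      integral_add (integrable_const _) h2] at c
    simpa using c
  have c1 := hg.integrable_mul (((h2.fun_add (integrable_const (∫ x, ‖x‖ ^ 2 ∂p)))).div_const h)
  have c := integral_mono j1 c1 fun x => mul_le_mul_of_nonneg_left (a x) (hg.pos x).le
  rw [j2] at c
  refine c.trans (le_of_eq ?_)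
  simp only [← mul_div_assoc, mul_add]
  rw [integral_div, integral_add (hg.integrable_mul h2) (hg.integrable.mul_const _),
    integral_mul_const, h1, one_mul]

/-- `DL_of_norm`, `fw_up` and `kh_le` with `h = lam / 2`, `SG.sq` (for `g` and `1`),
`Wt.ent_nonneg`. -/
theorem fin_dl (hp : LC p) {A lam : ℝ} (hA : 0 < A) (hs : SG p (fun x => x) A)
    (hl : 32 * A ≤ lam) : DL p lam (32 * A * n / lam) := by
  refine DL_of_norm fun g hg h1 => ?_
  have l0 : 0 < lam := by linarith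
  obtain ⟨i1, i2⟩ := hs.sq hA measurable_id
  have a1 := fw_up hp (half_pos l0) hg
  have a2 := kh_le (half_pos l0) hg.wt h1 i1
  have a3 := i2 g hg.wt h1
  have a4 := i2 _ Wt.one (by simp)
  have a5 := hg.wt.ent_nonneg (q := p)
  simp only [Ent, h1, log_one, mul_zero, sub_zero] at a5
  simp only [KK, log_one, mul_zero, integral_zero, one_mul, zero_add] at a4
  have a6 : ((∫ x, g x * ‖x‖ ^ 2 ∂p) + ∫ x, ‖x‖ ^ 2 ∂p) / (lam / 2)
      ≤ KK p g / 2 + 32 * A * n / lam / 2 := by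
    rw [div_le_iff₀ (half_pos l0)]
    have e : (KK p g / 2 + 32 * A * n / lam / 2) * (lam / 2) = KK p g * lam / 4 + 8 * A * n := by
      field_simp
      ring
    rw [e]
    nlinarith [mul_le_mul_of_nonneg_left hl a5]
  linarith

end Vale.Agent.P245
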