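import Vale.Agent.P245.Pl

open MeasureTheory Real
open scoped InnerProductSpace ENNReal

namespace Vale.Agent.P245

variable {n : ℕ}
variable {q : Measure (Eu n)} {s : ℝ}

lemma SLC.lap0 (hq : SLC q s) (hs : 0 < s) {ψ : Eu n → ℝ} {L : ℝ}
    (hL : ∀ x y, |ψ x - ψ y| ≤ L * ‖x - y‖) {a : ℝ} (ha : 0 < a) (ha1 : a < 1) :
    log (∫ x, exp (ψ x) ∂q) ≤ ∫ x, ψ x ∂q + s * L ^ 2 / (2 * a) := by
  have := hq.prob
  have hm := (lip_cont hL).measurable
  have hi : Integrable ψ q := hq.integrable_lip (L := L) hL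
  have hb : 0 < 1 - a := by linarith
  set b := 1 - a with hbd
  have i1 : Integrable (fun x => exp (-(b / a) * ψ x)) q := by
    refine hq.int_exp (hm.const_mul _) (C := b / a * |ψ 0|) (L := b / a * L) fun x => ?_
    have h1 := lip_abs_le hL x
    have h2 := neg_abs_le (ψ x)
    have h3 : 0 < b / a := div_pos hb ha
    nlinarith
  have i2 : Integrable (fun x => exp (ψ x)) q :=
    hq.int_exp hm (C := |ψ 0|) (L := L) fun x => (le_abs_self _).trans (lip_abs_le hL x)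
  have key := hq.pl ha hb (by ring) (φ := fun x => -(b / a) * ψ x) (ψ := ψ)
    (χ := fun _ => b * (s * L ^ 2 / (2 * a))) (hm.const_mul _) hm measurable_const i1 i2
    (integrable_const _) fun x y => by
      have h1 := hL y x
      rw [norm_sub_rev] at h1
      have h2 := le_abs_self (ψ y - ψ x)
      set d := ‖x - y‖
      have h3 : L * d ≤ a * d ^ 2 / (2 * s) + s * L ^ 2 / (2 * a) := by
        have : a * d ^ 2 / (2 * s) + s * L ^ 2 / (2 * a) - L * d =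
            (a * d - s * L) ^ 2 / (2 * s * a) := by field_simp; ring
        have h4 : 0 ≤ (a * d - s * L) ^ 2 / (2 * s * a) := by positivity
        linarith
      have e : a * (-(b / a) * ψ x) = -(b * ψ x) := by field_simp
      have e2 : a * b * d ^ 2 / (2 * s) = b * (a * d ^ 2 / (2 * s)) := by ring
      rw [e, e2]
      nlinarith
  have h5 := exp_integral_le (hi.const_mul (-(b / a))) i1
  have h6 := log_le_log (exp_pos _) h5
  rw [log_exp, integral_const_mul] at h6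
  simp only [integral_const, probReal_univ, smul_eq_mul, one_mul, log_exp] at key
  have h7 := mul_le_mul_of_nonneg_left h6 ha.le
  have e : a * (-(b / a) * ∫ x, ψ x ∂q) = -(b * ∫ x, ψ x ∂q) := by field_simp
  rw [e] at h7
  have h8 : b * log (∫ x, exp (ψ x) ∂q) ≤ b * (∫ x, ψ x ∂q + s * L ^ 2 / (2 * a)) := by
    linarith
  exact le_of_mul_le_mul_left h8 hb

/-- Prekopa-Leindler (`P230.plw_euclidean`) with `a + b = 1`, `F = r * exp (-b * ψ)`,
`G = r * exp (a * (ψ - s * L ^ 2 / 2))`, `H = r` (use `L * d - s * L ^ 2 / 2 ≤ d ^ 2 / (2 * s)`),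
Jensen (`exp_integral_le`) on the first factor gives `∫ exp (a * ψ) ≤ exp (a * ∫ ψ + a * s * L ^ 2 / 2)`.
Apply this to `ψ / a` and let `a → 1`. -/
theorem SLC.lap (hq : SLC q s) (hs : 0 < s) {ψ : Eu n → ℝ} {L : ℝ} (hL0 : 0 ≤ L)
    (hL : ∀ x y, |ψ x - ψ y| ≤ L * ‖x - y‖) :
    Integrable ψ q ∧ Integrable (fun x => exp (ψ x)) q ∧
      ∫ x, exp (ψ x) ∂q ≤ exp (∫ x, ψ x ∂q + s * L ^ 2 / 2) := by
  have := hq.prob
  have hm := (lip_cont hL).measurable
  have i2 : Integrable (fun x => exp (ψ x)) q :=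
    hq.int_exp hm (C := |ψ 0|) (L := L) fun x => (le_abs_self _).trans (lip_abs_le hL x)
  refine ⟨hq.integrable_lip (L := L) hL, i2, ?_⟩
  rw [← log_le_iff_le_exp (integral_exp_pos i2)]
  have hc : ContinuousAt (fun a : ℝ => ∫ x, ψ x ∂q + s * L ^ 2 / (2 * a)) 1 :=
    continuousAt_const.add (continuousAt_const.div (by fun_prop) (by norm_num))
  have ht := hc.tendsto.mono_left (nhdsWithin_le_nhds (s := Set.Iio 1))
  simp only [mul_one] at ht
  refine ge_of_tendsto ht ?_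
  filter_upwards [Ioo_mem_nhdsLT (zero_lt_one' ℝ)] with a ha using hq.lap0 hs hL ha.1 ha.2

/-- `gibbs` and `SLC.lap`. -/
theorem SLC.t1 (hq : SLC q s) (hs : 0 < s) {w : Eu n → ℝ} (hw : Wt w) {ψ : Eu n → ℝ} {L : ℝ}
    (hL0 : 0 ≤ L) (hL : ∀ x y, |ψ x - ψ y| ≤ L * ‖x - y‖) :
    ∫ x, w x * ψ x ∂q - (∫ x, w x ∂q) * ∫ x, ψ x ∂q ≤
      Ent q w + (∫ x, w x ∂q) * (s * L ^ 2 / 2) := by
  have := hq.prob
  obtain ⟨i1, i2, h3⟩ := hq.lap hs hL0 hL
  have h4 := gibbs (fun x => (hw.pos x).le) hw.integrable hw.integrable_log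
    (hw.integrable_mul i1) i2
  rw [← log_le_iff_le_exp (integral_exp_pos i2)] at h3
  have h5 := mul_le_mul_of_nonneg_left h3 (hw.integral_pos (q := q)).le
  linarith

/-- `SLC.t1` with `ψ = ⟪θ, ·⟫`, `θ = (s * W)⁻¹ • δ`. -/
theorem SLC.t1v (hq : SLC q s) (hs : 0 < s) {w : Eu n → ℝ} (hw : Wt w) :
    ‖∫ x, w x • x ∂q - (∫ x, w x ∂q) • ∫ x, x ∂q‖ ^ 2 ≤ 2 * s * (∫ x, w x ∂q) * Ent q w := by
  have := hq.prob
  have hW := hw.integral_pos (q := q)
  set W := ∫ x, w x ∂q with hWd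
  set δ := ∫ x, w x • x ∂q - W • ∫ x, x ∂q with hδ
  set θ := (s * W)⁻¹ • δ with hθ
  have h1 := hq.t1 hs hw (ψ := fun x => ⟪θ, x⟫_ℝ) (norm_nonneg θ) fun x y => by
    rw [← inner_sub_right]; exact abs_real_inner_le_norm _ _
  have e1 : ∫ x, w x * ⟪θ, x⟫_ℝ ∂q = ⟪θ, ∫ x, w x • x ∂q⟫_ℝ := by
    rw [← integral_inner (hw.integrable_smul hq.integrable_id)]
    simp [real_inner_smul_right]
  have e2 : ∫ x, ⟪θ, x⟫_ℝ ∂q = ⟪θ, ∫ x, x ∂q⟫_ℝ := integral_inner hq.integrable_id θ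
  rw [e1, e2, ← hWd, ← real_inner_smul_right, ← inner_sub_right, ← hδ, hθ, real_inner_smul_left,
    real_inner_self_eq_norm_sq, norm_smul, mul_pow, Real.norm_eq_abs, sq_abs] at h1
  have e3 : W * (s * ((s * W)⁻¹ ^ 2 * ‖δ‖ ^ 2) / 2) = (s * W)⁻¹ * ‖δ‖ ^ 2 / 2 := by field_simp
  rw [e3] at h1
  have h2 : (s * W)⁻¹ * ‖δ‖ ^ 2 ≤ 2 * Ent q w := by linarith
  rw [inv_mul_le_iff₀ (mul_pos hs hW)] at h2
  linarith

end Vale.Agent.P245
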