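import Vale.Agent.P245.Jt
import Vale.Agent.P245.Lap
import Vale.Agent.P245.Gr

open MeasureTheory Real
open scoped InnerProductSpace ENNReal

namespace Vale.Agent.P245

variable {n : ℕ}
variable {p : Measure (Eu n)} [IsProbabilityMeasure p] {h : ℝ} {g : Eu n → ℝ}

/-- Differentiate under the integral (`hasFDerivAt_integral_of_dominated_of_fderiv_le`) with a
constant bound: `‖w‖ * gk h w` is bounded. -/
lemma hasGradientAt_Nw (hh : 0 < h) {w : Eu n → ℝ} (hw : Measurable w) {C : ℝ}
    (hb : ∀ x, |w x| ≤ C) (y : Eu n) :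
    HasGradientAt (fun y => ∫ x, gk h (y - x) * w x ∂p)
      (h⁻¹ • ∫ x, (gk h (y - x) * w x) • (x - y) ∂p) y := by
  have hp := pi_pos
  rw [← integral_smul]
  have hg : ∀ y, Measurable fun x => gk h (y - x) * w x := fun y =>
    (continuous_gk_sub h y).measurable.mul hw
  refine hasGradientAt_integral (F := fun y x => gk h (y - x) * w x)
    (F' := fun y x => h⁻¹ • (gk h (y - x) * w x) • (x - y))
    (bound := fun _ => h⁻¹ * ((2 * π * h) ^ (-(n : ℝ) / 2) * exp (h / 2) * C))
    (fun y => (hg y).aestronglyMeasurable)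
    ((integrable_gk_sub hh y).mul_bdd hw.aestronglyMeasurable (ae_of_all _ hb))
    (((hg y).smul (measurable_id.sub_const y)).const_smul h⁻¹).aestronglyMeasurable
    (fun x y' _ => ?_) (integrable_const _) fun x y' _ => ?_
  · rw [norm_smul, norm_smul, Real.norm_eq_abs, Real.norm_eq_abs, abs_of_pos (inv_pos.2 hh),
      abs_mul, abs_of_pos (gk_pos hh _), norm_sub_rev, mul_right_comm]
    exact mul_le_mul_of_nonneg_left (mul_le_mul (gk_norm_le hh _) (hb x) (abs_nonneg _)
      (by positivity)) (inv_pos.2 hh).le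
  · have h1 := HasGradientAt.const_mul' (hasGradientAt_gk hh x y') (w x)
    simp only [mul_comm (w x), smul_smul] at h1 ⊢
    rwa [show h⁻¹ * (gk h (y' - x) * w x) = gk h (y' - x) * h⁻¹ * w x by ring]

/-- `meas_post`, `integral_mem`, `post_prob`. -/
theorem gF_wt (hh : 0 < h) (hg : Wt g) : Wt (gF p h g) := by
  have := post_prob (p := p) hh
  obtain ⟨c, C, hc, hb⟩ := hg.bd
  exact ⟨(meas_post hh (F := fun q => g q.1)
    (hg.meas.comp measurable_fst).stronglyMeasurable).measurable, c, C, hc,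
    fun y => integral_mem hg.meas hb⟩

/-- `gF y = (∫ gk * g) / (∫ gk * 1)` (`integral_post`), quotient rule. -/
theorem gF_grad (hh : 0 < h) (hg : Wt g) (y : Eu n) :
    HasGradientAt (gF p h g)
      (h⁻¹ • (∫ x, g x • x ∂post p h y - gF p h g y • ∫ x, x ∂post p h y)) y := by
  have := post_prob (p := p) hh y
  obtain ⟨C, _, hb⟩ := hg.abs_le
  have hN := Nk_pos (p := p) hh y
  have h1 := hasGradientAt_Nw (p := p) hh hg.meas hb y
  have h2 := hasGradientAt_Nw (p := p) hh (w := fun _ => 1) measurable_const (C := 1)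
    (fun _ => by simp) y
  simp only [mul_one] at h2
  have h3 := HasGradientAt.mul' (HasGradientAt.inv' (f := Nk p h) h2 hN.ne') h1
  have e : gF p h g = fun y => (Nk p h y)⁻¹ * ∫ x, gk h (y - x) * g x ∂p := by
    ext y; unfold gF; rw [integral_post hh]; rfl
  have i1 := post_integrable_id (p := p) hh y
  have e1 : ∫ x, (gk h (y - x) * g x) • (x - y) ∂p =
      Nk p h y • (∫ x, g x • x ∂post p h y - gF p h g y • y) := by
    unfold gF
    rw [← integral_smul_const, ← integral_sub (hg.integrable_smul i1)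
      (hg.integrable_smul (integrable_const y)), integral_post hh, smul_inv_smul₀ hN.ne']
    simp only [smul_smul, ← smul_sub]
  have e2 : ∫ x, gk h (y - x) • (x - y) ∂p = Nk p h y • (∫ x, x ∂post p h y - y) := by
    have : ∫ x, (x - y) ∂post p h y = ∫ x, x ∂post p h y - y := by
      rw [integral_sub i1 (integrable_const y)]; simp
    rw [← this, integral_post hh, smul_inv_smul₀ hN.ne']
  have e3 : ∫ x, gk h (y - x) * g x ∂p = Nk p h y * gF p h g y := by
    rw [e]; field_simp
  rw [e1, e2, e3, ← e] at h3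
  have e4 : (Nk p h y)⁻¹ • h⁻¹ • Nk p h y • (∫ x, g x • x ∂post p h y - gF p h g y • y) +
      (Nk p h y * gF p h g y) • -(Nk p h y ^ 2)⁻¹ • h⁻¹ • Nk p h y • (∫ x, x ∂post p h y - y) =
      h⁻¹ • (∫ x, g x • x ∂post p h y - gF p h g y • ∫ x, x ∂post p h y) := by
    have := hN.ne'
    match_scalars <;> field_simp <;> ring
  rwa [e4] at h3

/-- Gradient bound from `SLC.t1v` for `slc_post` and `ent_le`. -/
theorem gF_good (hp : LC p) (hh : 0 < h) (hg : Wt g) : Good (gF p h g) := by
  obtain ⟨c, C, hc, hb⟩ := hg.bd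
  refine ⟨gF_wt hh hg, fun y => (gF_grad hh hg y).differentiableAt,
    h⁻¹ * √(2 * h * C * (C * log (C / c))), fun y => ?_⟩
  have := post_prob (p := p) hh y
  rw [(gF_grad hh hg y).gradient, norm_smul, Real.norm_eq_abs, abs_of_pos (inv_pos.2 hh)]
  refine mul_le_mul_of_nonneg_left (le_sqrt_of_sq_le ?_) (inv_pos.2 hh).le
  have h1 := (slc_post hp hh y).t1v hh hg
  have h2 := ent_le (q := post p h y) hg.meas hc hb
  have h3 := integral_mem (q := post p h y) hg.meas hb
  refine h1.trans (mul_le_mul (mul_le_mul_of_nonneg_left h3.2 (by positivity)) h2 hg.ent_nonneg ?_)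
  have : 0 < C := hc.trans_le (h3.1.trans h3.2)
  positivity

theorem xi_bv (hp : LC p) (hh : 0 < h) (hg : Wt g) : Bv (xi p h g) :=
  (gF_good hp hh hg).bv_log

theorem xi_eq (hh : 0 < h) (hg : Wt g) (y : Eu n) :
    h • xi p h g y =
      (gF p h g y)⁻¹ • (∫ x, g x • x ∂post p h y) - ∫ x, x ∂post p h y := by
  have h0 := ((gF_wt (p := p) hh hg).pos y).ne'
  have := hh.ne'
  unfold xi
  rw [(gF_grad hh hg y).gradient]
  match_scalars <;> field_simp

theorem fish_gF (hp : LC p) (hh : 0 < h) (hg : Wt g) :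
    Fish (smo p h) (gF p h g) = ∫ y, gF p h g y * ‖xi p h g y‖ ^ 2 ∂smo p h :=
  (gF_good hp hh hg).fish_eq _

end Vale.Agent.P245
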