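import Vale.Agent.P245.Defs

open MeasureTheory Real
open scoped InnerProductSpace ENNReal

namespace Vale.Agent.P245

variable {n : ℕ}
variable {Ω : Type} [MeasurableSpace Ω] {q : Measure Ω}

lemma young {w : ℝ} (φ : ℝ) (hw : 0 ≤ w) : w * φ ≤ w * log w - w + exp φ := by
  rcases hw.eq_or_lt with h | h
  · subst h; simp [(exp_pos φ).le]
  · have h1 := add_one_le_exp (φ - log w)
    rw [exp_sub, exp_log h, le_div_iff₀ h] at h1
    nlinarith

lemma exp_integral_le [IsProbabilityMeasure q] {ψ : Ω → ℝ} (h1 : Integrable ψ q)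
    (h2 : Integrable (fun x => exp (ψ x)) q) : exp (∫ x, ψ x ∂q) ≤ ∫ x, exp (ψ x) ∂q := by
  set m := ∫ x, ψ x ∂q
  have h3 : ∀ x, exp m * (ψ x - m + 1) ≤ exp (ψ x) := fun x => by
    have := add_one_le_exp (ψ x - m)
    calc exp m * (ψ x - m + 1) ≤ exp m * exp (ψ x - m) := by gcongr
      _ = exp (ψ x) := by rw [← exp_add]; ring_nf
  have h4 : Integrable (fun x => exp m * (ψ x - m + 1)) q :=
    ((h1.sub (integrable_const _)).add (integrable_const _)).const_mul _
  have h5 := integral_mono h4 h2 h3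
  have h6 : Integrable (fun x => ψ x - m) q := h1.sub (integrable_const _)
  rw [integral_const_mul, integral_add h6 (integrable_const _),
    integral_sub h1 (integrable_const _)] at h5
  simpa [m] using h5

/-- Gibbs variational inequality. -/
lemma gibbs [IsProbabilityMeasure q] {w φ : Ω → ℝ} (hw0 : ∀ x, 0 ≤ w x) (hw : Integrable w q)
    (hwl : Integrable (fun x => w x * log (w x)) q) (hφ : Integrable (fun x => w x * φ x) q)
    (he : Integrable (fun x => exp (φ x)) q) :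
    ∫ x, w x * φ x ∂q ≤ Ent q w + (∫ x, w x ∂q) * log (∫ x, exp (φ x) ∂q) := by
  set W := ∫ x, w x ∂q with hW
  set Z := ∫ x, exp (φ x) ∂q with hZ
  have hZ0 : 0 < Z := integral_exp_pos he
  have hW0 : 0 ≤ W := integral_nonneg hw0
  rcases hW0.eq_or_lt with h | h
  · have h1 : w =ᵐ[q] 0 := (integral_eq_zero_iff_of_nonneg hw0 hw).1 h.symm
    have h2 : ∫ x, w x * φ x ∂q = 0 := by
      rw [← integral_zero Ω ℝ (μ := q)]
      exact integral_congr_ae (h1.mono fun x hx => by simp [hx])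
    have h3 : KK q w = 0 := by
      unfold KK
      rw [← integral_zero Ω ℝ (μ := q)]
      exact integral_congr_ae (h1.mono fun x hx => by simp [hx])
    unfold Ent
    rw [h2, h3, ← hW, ← h]; simp
  · have h3 : ∀ x, w x * φ x ≤ w x * log (w x) - w x + W / Z * exp (φ x) +
        w x * (log Z - log W) := fun x => by
      have := young (φ x - log Z + log W) (hw0 x)
      rw [exp_add, exp_sub, exp_log hZ0, exp_log h] at this
      have e : exp (φ x) / Z * W = W / Z * exp (φ x) := by ring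
      nlinarith
    have i1 : Integrable (fun x => w x * log (w x) - w x) q := hwl.sub hw
    have i2 : Integrable (fun x => W / Z * exp (φ x)) q := he.const_mul _
    have i3 : Integrable (fun x => w x * (log Z - log W)) q := hw.mul_const _
    have i4 : Integrable (fun x => w x * log (w x) - w x + W / Z * exp (φ x)) q := i1.add i2
    have h5 := integral_mono hφ (i4.add i3) h3
    have h6 : ∫ x, (w x * log (w x) - w x + W / Z * exp (φ x) + w x * (log Z - log W)) ∂q =
        KK q w - W + W / Z * Z + W * (log Z - log W) := by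
      rw [integral_add i4 i3, integral_add i1 i2, integral_sub hwl hw, integral_const_mul,
        integral_mul_const]
      rfl
    have h7 : W / Z * Z = W := by field_simp
    unfold Ent
    rw [← hW]
    have h8 : ∫ x, w x * φ x ∂q ≤ KK q w - W + W / Z * Z + W * (log Z - log W) := h6 ▸ h5
    linarith

lemma cs_vec {w : Ω → ℝ} {X : Ω → Eu n} (hw0 : ∀ x, 0 ≤ w x) (hw : Integrable w q)
    (hX : Integrable (fun x => w x • X x) q) (h2 : Integrable (fun x => w x * ‖X x‖ ^ 2) q) :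
    ‖∫ x, w x • X x ∂q‖ ^ 2 ≤ (∫ x, w x ∂q) * ∫ x, w x * ‖X x‖ ^ 2 ∂q := by
  set W := ∫ x, w x ∂q with hW
  set S := ∫ x, w x * ‖X x‖ ^ 2 ∂q with hS
  set a := ∫ x, w x • X x ∂q with ha
  have hW0 : 0 ≤ W := integral_nonneg hw0
  have key : ∀ r : ℝ, 2 * r * ‖a‖ ^ 2 ≤ r ^ 2 * ‖a‖ ^ 2 * W + S := fun r => by
    have i1 : Integrable (fun x => ⟪a, w x • X x⟫_ℝ) q := hX.const_inner a
    have h3 : ∀ x, 2 * r * ⟪a, w x • X x⟫_ℝ ≤ r ^ 2 * ‖a‖ ^ 2 * w x + w x * ‖X x‖ ^ 2 := fun x => by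
      have h4 : 0 ≤ ‖r • a - X x‖ ^ 2 := sq_nonneg _
      rw [norm_sub_sq_real, norm_smul, real_inner_smul_left, mul_pow, Real.norm_eq_abs,
        sq_abs] at h4
      rw [real_inner_smul_right]
      nlinarith [mul_nonneg (hw0 x) h4]
    have h5 := integral_mono (i1.const_mul (2 * r)) ((hw.const_mul _).add h2) h3
    simp only [Pi.add_apply] at h5
    rw [integral_const_mul, integral_inner hX, integral_add (hw.const_mul _) h2,
      integral_const_mul, ← ha, real_inner_self_eq_norm_sq] at h5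
    exact h5
  have hS0 : 0 ≤ S := integral_nonneg fun x => mul_nonneg (hw0 x) (sq_nonneg _)
  rcases hW0.eq_or_lt with h | h
  · rw [← h] at key ⊢
    by_contra hc
    have hc' : 0 < ‖a‖ ^ 2 := by linarith [not_le.1 hc]
    have := key ((S + 1) / (2 * ‖a‖ ^ 2))
    have e : 2 * ((S + 1) / (2 * ‖a‖ ^ 2)) * ‖a‖ ^ 2 = S + 1 := by
      generalize ‖a‖ ^ 2 = b at hc'
      field_simp
    rw [e] at this
    linarith
  · have := key W⁻¹
    have e1 : 2 * W⁻¹ * ‖a‖ ^ 2 = 2 * (‖a‖ ^ 2 / W) := by field_simp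
    have e2 : W⁻¹ ^ 2 * ‖a‖ ^ 2 * W = ‖a‖ ^ 2 / W := by field_simp
    rw [e1, e2] at this
    have h3 : ‖a‖ ^ 2 / W ≤ S := by linarith
    rw [div_le_iff₀ h] at h3
    linarith

lemma Wt.pos {w : Ω → ℝ} (hw : Wt w) (x : Ω) : 0 < w x := by
  obtain ⟨c, C, hc, h⟩ := hw.bd
  exact hc.trans_le (h x).1

lemma Wt.abs_le {w : Ω → ℝ} (hw : Wt w) : ∃ C, 0 < C ∧ ∀ x, |w x| ≤ C := by
  obtain ⟨c, C, hc, h⟩ := hw.bd
  refine ⟨|C| + 1, by positivity, fun x => ?_⟩
  rw [abs_of_pos (hw.pos x)]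
  linarith [(h x).2, le_abs_self C]

lemma Wt.abs_log_le {w : Ω → ℝ} (hw : Wt w) : ∃ M, 0 ≤ M ∧ ∀ x, |log (w x)| ≤ M := by
  obtain ⟨c, C, hc, h⟩ := hw.bd
  refine ⟨|log c| + |log C|, by positivity, fun x => ?_⟩
  have h1 := log_le_log hc (h x).1
  have h2 := log_le_log (hw.pos x) (h x).2
  rw [_root_.abs_le]
  constructor <;> linarith [le_abs_self (log C), neg_abs_le (log c), abs_nonneg (log c),
    abs_nonneg (log C)]

lemma Wt.one : Wt (fun _ : Ω => (1 : ℝ)) := by
  exact ⟨measurable_const, 1, 1, one_pos, fun _ => ⟨le_rfl, le_rfl⟩⟩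

lemma Wt.mul {w w' : Ω → ℝ} (hw : Wt w) (hw' : Wt w') : Wt (fun x => w x * w' x) := by
  obtain ⟨c, C, hc, h⟩ := hw.bd
  obtain ⟨c', C', hc', h'⟩ := hw'.bd
  refine ⟨hw.meas.mul hw'.meas, c * c', C * C', mul_pos hc hc', fun x => ⟨?_, ?_⟩⟩
  · exact mul_le_mul (h x).1 (h' x).1 hc'.le (hw.pos x).le
  · exact mul_le_mul (h x).2 (h' x).2 (hw'.pos x).le ((hw.pos x).le.trans (h x).2)

lemma Wt.inv {w : Ω → ℝ} (hw : Wt w) : Wt (fun x => (w x)⁻¹) := by
  obtain ⟨c, C, hc, h⟩ := hw.bd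
  refine ⟨hw.meas.inv, (|C| + 1)⁻¹, c⁻¹, by positivity, fun x => ⟨?_, ?_⟩⟩
  · exact inv_anti₀ (hw.pos x) (by linarith [(h x).2, le_abs_self C])
  · exact inv_anti₀ hc (h x).1

lemma Wt.comp {Ω' : Type} [MeasurableSpace Ω'] {w : Ω → ℝ} (hw : Wt w) {f : Ω' → Ω}
    (hf : Measurable f) : Wt (fun x => w (f x)) := by
  obtain ⟨c, C, hc, h⟩ := hw.bd
  exact ⟨hw.meas.comp hf, c, C, hc, fun x => h _⟩

lemma Wt.integrable [IsFiniteMeasure q] {w : Ω → ℝ} (hw : Wt w) : Integrable w q := by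
  obtain ⟨C, _, h⟩ := hw.abs_le
  exact Integrable.of_bound hw.meas.aestronglyMeasurable C (ae_of_all _ h)

lemma Wt.integrable_log [IsFiniteMeasure q] {w : Ω → ℝ} (hw : Wt w) :
    Integrable (fun x => w x * log (w x)) q := by
  obtain ⟨C, hC, h⟩ := hw.abs_le
  obtain ⟨M, _, h'⟩ := hw.abs_log_le
  refine Integrable.of_bound (hw.meas.mul hw.meas.log).aestronglyMeasurable (C * M)
    (ae_of_all _ fun x => ?_)
  rw [Real.norm_eq_abs, abs_mul]
  exact mul_le_mul (h x) (h' x) (abs_nonneg _) hC.le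

lemma Wt.integrable_smul {G : Type} [NormedAddCommGroup G] [NormedSpace ℝ G] {w : Ω → ℝ}
    (hw : Wt w) {F : Ω → G} (hF : Integrable F q) : Integrable (fun x => w x • F x) q := by
  obtain ⟨C, _, h⟩ := hw.abs_le
  exact hF.bdd_smul C hw.meas.aestronglyMeasurable (ae_of_all _ h)

lemma Wt.integrable_mul {w : Ω → ℝ} (hw : Wt w) {F : Ω → ℝ} (hF : Integrable F q) :
    Integrable (fun x => w x * F x) q := by
  exact hw.integrable_smul hF

lemma integral_mem [IsProbabilityMeasure q] {w : Ω → ℝ} (hw : Measurable w) {c C : ℝ}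
    (h : ∀ x, c ≤ w x ∧ w x ≤ C) : c ≤ ∫ x, w x ∂q ∧ ∫ x, w x ∂q ≤ C := by
  have hi : Integrable w q := by
    refine Integrable.of_bound hw.aestronglyMeasurable (|c| + |C|) (ae_of_all _ fun x => ?_)
    rw [Real.norm_eq_abs, abs_le]
    constructor <;> linarith [(h x).1, (h x).2, le_abs_self C, neg_abs_le c, abs_nonneg c,
      abs_nonneg C]
  constructor
  · have := integral_mono (integrable_const c) hi fun x => (h x).1
    simpa using this
  · have := integral_mono hi (integrable_const C) fun x => (h x).2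
    simpa using this

lemma Wt.integral_pos [IsProbabilityMeasure q] {w : Ω → ℝ} (hw : Wt w) : 0 < ∫ x, w x ∂q := by
  obtain ⟨c, C, hc, h⟩ := hw.bd
  exact hc.trans_le (integral_mem hw.meas h).1

lemma Wt.ent_nonneg [IsProbabilityMeasure q] {w : Ω → ℝ} (hw : Wt w) : 0 ≤ Ent q w := by
  have := gibbs (q := q) (φ := fun _ => 0) (fun x => (hw.pos x).le) hw.integrable
    hw.integrable_log (by simp) (by simp)
  simpa using this

lemma ent_le [IsProbabilityMeasure q] {w : Ω → ℝ} (hw : Measurable w) {c C : ℝ} (hc : 0 < c)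
    (h : ∀ x, c ≤ w x ∧ w x ≤ C) : Ent q w ≤ C * log (C / c) := by
  have hw' : Wt w := ⟨hw, c, C, hc, h⟩
  obtain ⟨h1, h2⟩ := integral_mem (q := q) hw h
  set W := ∫ x, w x ∂q with hW
  have hcC : c ≤ C := h1.trans h2
  have hl : 0 ≤ log (C / c) := log_nonneg ((one_le_div hc).2 hcC)
  have h3 : ∀ x, w x * log (w x) - w x * log W ≤ C * log (C / c) := fun x => by
    have h4 : log (w x) - log W ≤ log (C / c) := by
      rw [log_div (hc.trans_le hcC).ne' hc.ne']
      linarith [log_le_log (hw'.pos x) (h x).2, log_le_log hc h1]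
    calc w x * log (w x) - w x * log W = w x * (log (w x) - log W) := by ring
      _ ≤ w x * log (C / c) := by gcongr; exact (hw'.pos x).le
      _ ≤ C * log (C / c) := by gcongr; exact (h x).2
  have h5 := integral_mono (hw'.integrable_log.sub (hw'.integrable.mul_const (log W)))
    (integrable_const (μ := q) (C * log (C / c))) h3
  simp only [Pi.sub_apply] at h5
  rw [integral_sub hw'.integrable_log (hw'.integrable.mul_const _), integral_mul_const] at h5
  simpa [Ent, KK, ← hW] using h5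

lemma Bv.bd' {v : Ω → Eu n} (hv : Bv v) : ∃ B, 0 ≤ B ∧ ∀ x, ‖v x‖ ≤ B := by
  obtain ⟨B, h⟩ := hv.bd
  exact ⟨|B|, abs_nonneg _, fun x => (h x).trans (le_abs_self _)⟩

lemma Bv.integrable [IsFiniteMeasure q] {v : Ω → Eu n} (hv : Bv v) : Integrable v q := by
  obtain ⟨B, h⟩ := hv.bd
  exact Integrable.of_bound hv.meas.aestronglyMeasurable B (ae_of_all _ h)

lemma Bv.integrable_sq [IsFiniteMeasure q] {v : Ω → Eu n} (hv : Bv v) :
    Integrable (fun x => ‖v x‖ ^ 2) q := by
  obtain ⟨B, h⟩ := hv.bd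
  refine Integrable.of_bound (hv.meas.norm.pow_const 2).aestronglyMeasurable (B ^ 2)
    (ae_of_all _ fun x => ?_)
  rw [Real.norm_eq_abs, abs_of_nonneg (sq_nonneg _)]
  exact pow_le_pow_left₀ (norm_nonneg _) (h x) 2

lemma Bv.integrable_inner [IsFiniteMeasure q] {v v' : Ω → Eu n} (hv : Bv v) (hv' : Bv v') :
    Integrable (fun x => ⟪v x, v' x⟫_ℝ) q := by
  obtain ⟨B, hB, h⟩ := hv.bd'
  obtain ⟨B', h'⟩ := hv'.bd
  refine Integrable.of_bound (hv.meas.inner hv'.meas).aestronglyMeasurable (B * B')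
    (ae_of_all _ fun x => ?_)
  exact (norm_inner_le_norm _ _).trans (mul_le_mul (h x) (h' x) (norm_nonneg _) hB)

lemma Bv.smul {v : Ω → Eu n} (hv : Bv v) (c : ℝ) : Bv (fun x => c • v x) := by
  obtain ⟨B, h⟩ := hv.bd
  refine ⟨hv.meas.const_smul c, ‖c‖ * B, fun x => ?_⟩
  rw [norm_smul]
  exact mul_le_mul_of_nonneg_left (h x) (norm_nonneg _)

lemma Bv.wsmul {v : Ω → Eu n} (hv : Bv v) {w : Ω → ℝ} (hw : Wt w) : Bv (fun x => w x • v x) := by
  obtain ⟨B, h⟩ := hv.bd
  obtain ⟨C, hC, h'⟩ := hw.abs_le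
  refine ⟨hw.meas.smul hv.meas, C * B, fun x => ?_⟩
  rw [norm_smul]
  exact mul_le_mul (h' x) (h x) (norm_nonneg _) hC.le

lemma Bv.sub {v v' : Ω → Eu n} (hv : Bv v) (hv' : Bv v') : Bv (fun x => v x - v' x) := by
  obtain ⟨B, h⟩ := hv.bd
  obtain ⟨B', h'⟩ := hv'.bd
  exact ⟨hv.meas.sub hv'.meas, B + B', fun x => (norm_sub_le _ _).trans (add_le_add (h x) (h' x))⟩

lemma Bv.comp {Ω' : Type} [MeasurableSpace Ω'] {v : Ω → Eu n} (hv : Bv v) {f : Ω' → Ω}
    (hf : Measurable f) : Bv (fun x => v (f x)) := by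
  obtain ⟨B, h⟩ := hv.bd
  exact ⟨hv.meas.comp hf, B, fun x => h _⟩

lemma Bv.wt_lik {v : Ω → Eu n} (hv : Bv v) (z : Eu n) : Wt (fun x => lik (v x) z) := by
  obtain ⟨B, hB, h⟩ := hv.bd'
  refine ⟨?_, exp (-(B * ‖z‖) - B ^ 2 / 2), exp (B * ‖z‖), exp_pos _, fun x => ?_⟩
  · unfold lik
    exact ((hv.meas.inner measurable_const).sub ((hv.meas.norm.pow_const 2).div_const 2)).exp
  · have h1 := abs_real_inner_le_norm (v x) z
    have h2 : ‖v x‖ * ‖z‖ ≤ B * ‖z‖ := mul_le_mul_of_nonneg_right (h x) (norm_nonneg _)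
    have h3 : ‖v x‖ ^ 2 ≤ B ^ 2 := pow_le_pow_left₀ (norm_nonneg _) (h x) 2
    rw [_root_.abs_le] at h1
    unfold lik
    constructor <;> apply exp_le_exp.2 <;> nlinarith [sq_nonneg ‖v x‖]

lemma measurable_gradient (g : Eu n → ℝ) : Measurable (gradient g) := by
  unfold gradient
  exact (InnerProductSpace.toDual ℝ (Eu n)).symm.continuous.measurable.comp (measurable_fderiv ℝ g)

lemma Good.one : Good (fun _ : Eu n => (1 : ℝ)) := by
  exact ⟨Wt.one, differentiable_const _, 0, fun x => by simp⟩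

lemma gradient_mul {g g' : Eu n → ℝ} {x : Eu n} (hg : DifferentiableAt ℝ g x)
    (hg' : DifferentiableAt ℝ g' x) :
    gradient (fun x => g x * g' x) x = g x • gradient g' x + g' x • gradient g x := by
  unfold gradient
  rw [fderiv_fun_mul hg hg']
  simp

lemma Good.mul {g g' : Eu n → ℝ} (hg : Good g) (hg' : Good g') : Good (fun x => g x * g' x) := by
  obtain ⟨L, h⟩ := hg.lip
  obtain ⟨L', h'⟩ := hg'.lip
  obtain ⟨C, hC, k⟩ := hg.wt.abs_le
  obtain ⟨C', hC', k'⟩ := hg'.wt.abs_le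
  refine ⟨hg.wt.mul hg'.wt, hg.diff.mul hg'.diff, C * L' + C' * L, fun x => ?_⟩
  rw [gradient_mul (hg.diff x) (hg'.diff x)]
  refine (norm_add_le _ _).trans (add_le_add ?_ ?_) <;> rw [norm_smul]
  · exact mul_le_mul (k x) (h' x) (norm_nonneg _) hC.le
  · exact mul_le_mul (k' x) (h x) (norm_nonneg _) hC'.le

lemma Good.const_mul {g : Eu n → ℝ} (hg : Good g) {c : ℝ} (hc : 0 < c) :
    Good (fun x => c * g x) := by
  have h1 : Good (fun _ : Eu n => c) :=
    ⟨⟨measurable_const, c, c, hc, fun _ => ⟨le_rfl, le_rfl⟩⟩, differentiable_const _, 0,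
      fun x => by simp⟩
  exact h1.mul hg

lemma Good.bv_grad {g : Eu n → ℝ} (hg : Good g) : Bv (gradient g) := by
  exact ⟨measurable_gradient g, hg.lip⟩

lemma Good.bv_log {g : Eu n → ℝ} (hg : Good g) : Bv (fun x => (g x)⁻¹ • gradient g x) := by
  exact hg.bv_grad.wsmul hg.wt.inv

lemma Good.integrable_fish {g : Eu n → ℝ} (hg : Good g) {p : Measure (Eu n)} [IsFiniteMeasure p] :
    Integrable (fun x => ‖gradient g x‖ ^ 2 / g x) p := by
  have := hg.wt.inv.integrable_mul (q := p) hg.bv_grad.integrable_sq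
  exact this.congr (ae_of_all _ fun x => by simp [div_eq_inv_mul])

lemma Good.fish_nonneg {g : Eu n → ℝ} (hg : Good g) (p : Measure (Eu n)) : 0 ≤ Fish p g := by
  exact integral_nonneg fun x => div_nonneg (sq_nonneg _) (hg.wt.pos x).le

lemma Good.fish_eq {g : Eu n → ℝ} (hg : Good g) (p : Measure (Eu n)) :
    Fish p g = ∫ x, g x * ‖(g x)⁻¹ • gradient g x‖ ^ 2 ∂p := by
  refine integral_congr_ae (ae_of_all _ fun x => ?_)
  have := (hg.wt.pos x).ne'
  simp only [norm_smul, mul_pow, Real.norm_eq_abs, sq_abs]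
  field_simp

/-- Homogeneity. -/
lemma DL_of_norm {p : Measure (Eu n)} [IsProbabilityMeasure p] {lam D : ℝ}
    (h : ∀ g, Good g → ∫ x, g x ∂p = 1 → KK p g ≤ lam / 2 * Fish p g + D) : DL p lam D := by
  intro g hg
  have hW := hg.wt.integral_pos (q := p)
  set W := ∫ x, g x ∂p with hWd
  have hg' := hg.const_mul (inv_pos.2 hW)
  have h1 : ∫ x, W⁻¹ * g x ∂p = 1 := by rw [integral_const_mul, ← hWd]; field_simp
  have h2 := h _ hg' h1
  have h3 : KK p (fun x => W⁻¹ * g x) = W⁻¹ * KK p g - log W := by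
    unfold KK
    have e : ∀ x, W⁻¹ * g x * log (W⁻¹ * g x) = W⁻¹ * (g x * log (g x)) - W⁻¹ * log W * g x :=
      fun x => by rw [log_mul (inv_pos.2 hW).ne' (hg.wt.pos x).ne', log_inv]; ring
    simp_rw [e]
    rw [integral_sub (hg.wt.integrable_log.const_mul _) (hg.wt.integrable.const_mul _),
      integral_const_mul, integral_const_mul, ← hWd]
    field_simp
  have h4 : Fish p (fun x => W⁻¹ * g x) = W⁻¹ * Fish p g := by
    unfold Fish
    rw [← integral_const_mul]
    refine integral_congr_ae (ae_of_all _ fun x => ?_)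
    have e := gradient_mul (g := fun _ => W⁻¹) (x := x) (differentiableAt_const _) (hg.diff x)
    have := (hg.wt.pos x).ne'
    simp only [e, gradient_fun_const, smul_zero, add_zero, norm_smul, mul_pow, Real.norm_eq_abs,
      sq_abs]
    field_simp
  rw [h3, h4] at h2
  unfold Ent
  rw [← hWd]
  have h5 := mul_le_mul_of_nonneg_left h2 hW.le
  have e1 : W * (W⁻¹ * KK p g - log W) = KK p g - W * log W := by field_simp
  have e2 : W * (lam / 2 * (W⁻¹ * Fish p g) + D) = lam / 2 * Fish p g + D * W := by field_simp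
  linarith

lemma SG.integrable {X : Ω → Eu n} {A : ℝ} (h : SG q X A) (hX : Measurable X) :
    Integrable X q := by
  have hc : ∀ θ : Eu n, Integrable (fun ω => ⟪θ, X ω⟫_ℝ) q := fun θ => by
    refine ((h θ).1.add (h (-θ)).1).mono' (measurable_const.inner hX).aestronglyMeasurable
      (ae_of_all _ fun ω => ?_)
    simp only [Pi.add_apply, inner_neg_left, Real.norm_eq_abs]
    have h1 := add_one_le_exp ⟪θ, X ω⟫_ℝ
    have h2 := add_one_le_exp (-⟪θ, X ω⟫_ℝ)
    have h3 := exp_pos ⟪θ, X ω⟫_ℝ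
    have h4 := exp_pos (-⟪θ, X ω⟫_ℝ)
    rw [_root_.abs_le]
    constructor <;> linarith
  have h1 : Integrable (fun ω => ∑ i, ⟪EuclideanSpace.basisFun (Fin n) ℝ i, X ω⟫_ℝ •
      EuclideanSpace.basisFun (Fin n) ℝ i) q :=
    integrable_finset_sum _ fun i _ => (hc _).smul_const _
  exact h1.congr (ae_of_all _ fun ω => (EuclideanSpace.basisFun (Fin n) ℝ).sum_repr' _)

lemma SG.comp {Ω' : Type} [MeasurableSpace Ω'] {q' : Measure Ω'} {X : Ω → Eu n} {A : ℝ}
    (h : SG q X A) (hX : Measurable X) {f : Ω' → Ω} (hf : MeasurePreserving f q' q) :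
    SG q' (fun ω => X (f ω)) A := by
  intro θ
  have hm : Measurable fun ω => exp ⟪θ, X ω⟫_ℝ := (measurable_const.inner hX).exp
  refine ⟨(hf.integrable_comp hm.aestronglyMeasurable).2 (h θ).1, ?_⟩
  have := integral_map (μ := q') hf.measurable.aemeasurable
    (f := fun ω => exp ⟪θ, X ω⟫_ℝ) hm.aestronglyMeasurable
  rw [hf.map_eq] at this
  rw [← this]
  exact (h θ).2

lemma SLC.integrable_id {p : Measure (Eu n)} {s : ℝ} (h : SLC p s) :
    Integrable (fun x => x) p := by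
  refine (h.ei 1).mono' measurable_id.aestronglyMeasurable (ae_of_all _ fun x => ?_)
  have := add_one_le_exp ‖x‖
  simp only [one_mul]
  linarith

lemma SLC.integrable_sq {p : Measure (Eu n)} {s : ℝ} (h : SLC p s) :
    Integrable (fun x => ‖x‖ ^ 2) p := by
  refine (h.ei 2).mono' (measurable_norm.pow_const 2).aestronglyMeasurable
    (ae_of_all _ fun x => ?_)
  have h1 := add_one_le_exp ‖x‖
  have h2 : exp (2 * ‖x‖) = exp ‖x‖ ^ 2 := by rw [← exp_nat_mul]; norm_num
  rw [Real.norm_eq_abs, abs_of_nonneg (sq_nonneg _), h2]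
  exact pow_le_pow_left₀ (norm_nonneg _) (by linarith) 2

lemma SLC.integrable_lip {G : Type} [NormedAddCommGroup G] {p : Measure (Eu n)} {s : ℝ}
    (h : SLC p s) {β : Eu n → G} {L : ℝ} (hβ : ∀ x y, ‖β x - β y‖ ≤ L * ‖x - y‖) :
    Integrable β p := by
  haveI := h.prob
  have hc : Continuous β := by
    refine (LipschitzWith.of_dist_le_mul (K := ⟨|L|, abs_nonneg _⟩) fun x y => ?_).continuous
    rw [dist_eq_norm, dist_eq_norm]
    exact (hβ x y).trans (mul_le_mul_of_nonneg_right (le_abs_self _) (norm_nonneg _))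
  refine ((integrable_const ‖β 0‖).add (h.integrable_id.norm.const_mul L)).mono'
    hc.aestronglyMeasurable (ae_of_all _ fun x => ?_)
  have h1 := hβ x 0
  have h2 := norm_sub_norm_le (β x) (β 0)
  simp only [sub_zero] at h1
  simp only [Pi.add_apply]
  linarith

end Vale.Agent.P245
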