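import Vale.Agent.P245.Gib

open MeasureTheory Real
open scoped InnerProductSpace ENNReal

namespace Vale.Agent.P245

variable {n : ℕ}
variable {s : ℝ}

section wd

variable {α G : Type} [MeasurableSpace α] [NormedAddCommGroup G] [NormedSpace ℝ G]
  {μ : Measure α} {r : α → ℝ}

lemma integral_wd (hr : Measurable r) (h0 : ∀ x, 0 ≤ r x) (f : α → G) :
    ∫ x, f x ∂(μ.withDensity fun x => ENNReal.ofReal (r x)) = ∫ x, r x • f x ∂μ := by
  rw [integral_withDensity_eq_integral_toReal_smul hr.ennreal_ofReal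
    (ae_of_all _ fun _ => ENNReal.ofReal_lt_top)]
  simp [ENNReal.toReal_ofReal (h0 _)]

lemma integrable_wd (hr : Measurable r) (h0 : ∀ x, 0 ≤ r x) (f : α → G) :
    Integrable f (μ.withDensity fun x => ENNReal.ofReal (r x)) ↔
      Integrable (fun x => r x • f x) μ := by
  rw [integrable_withDensity_iff_integrable_smul' hr.ennreal_ofReal
    (ae_of_all _ fun _ => ENNReal.ofReal_lt_top)]
  simp [ENNReal.toReal_ofReal (h0 _)]

lemma wd_prob (h0 : ∀ x, 0 ≤ r x) (hi : Integrable r μ) (h1 : ∫ x, r x ∂μ = 1) :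
    IsProbabilityMeasure (μ.withDensity fun x => ENNReal.ofReal (r x)) := by
  constructor
  rw [withDensity_apply _ MeasurableSet.univ, Measure.restrict_univ,
    ← ofReal_integral_eq_lintegral_ofReal hi (ae_of_all _ h0), h1, ENNReal.ofReal_one]

end wd

lemma gk_pos (hs : 0 < s) (w : Eu n) : 0 < gk s w := by
  unfold gk
  have := pi_pos
  positivity

lemma gk_le (hs : 0 < s) (w : Eu n) : gk s w ≤ (2 * π * s) ^ (-(n : ℝ) / 2) := by
  unfold gk
  have := pi_pos
  refine mul_le_of_le_one_right (by positivity) (exp_le_one_iff.2 ?_)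
  exact div_nonpos_of_nonpos_of_nonneg (by simp) (by positivity)

lemma continuous_gk (s : ℝ) : Continuous (gk s : Eu n → ℝ) := by
  unfold gk
  fun_prop

/-- Use `GaussianFourier.integral_rexp_neg_mul_sq_norm`. -/
lemma integral_gk (hs : 0 < s) : ∫ w : Eu n, gk s w = 1 := by
  unfold gk
  have := pi_pos
  have h1 := GaussianFourier.integral_rexp_neg_mul_sq_norm (V := Eu n) (b := 1 / (2 * s))
    (by positivity)
  have e : ∀ w : Eu n, -‖w‖ ^ 2 / (2 * s) = -(1 / (2 * s)) * ‖w‖ ^ 2 := fun w => by ring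
  simp_rw [e]
  rw [integral_const_mul, h1, finrank_euclideanSpace_fin]
  have e2 : π / (1 / (2 * s)) = 2 * π * s := by field_simp
  rw [e2, ← rpow_add (by positivity)]
  simp [neg_div]

lemma integrable_gk (hs : 0 < s) : Integrable (gk s : Eu n → ℝ) := by
  by_contra h
  have := integral_gk (n := n) hs
  rw [integral_undef h] at this
  exact zero_ne_one this

lemma measurable_gk_sub (s : ℝ) (x : Eu n) : Measurable fun y => gk s (y - x) :=
  ((continuous_gk s).comp (continuous_id.sub continuous_const)).measurable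

lemma ker_prob (hs : 0 < s) (x : Eu n) : IsProbabilityMeasure (ker s x) := by
  refine wd_prob (fun y => (gk_pos hs _).le) ((integrable_gk hs).comp_sub_right x) ?_
  rw [integral_sub_right_eq_self (gk s) x, integral_gk hs]

lemma gam_prob : IsProbabilityMeasure (gam n) := ker_prob one_pos 0

lemma integral_ker {G : Type} [NormedAddCommGroup G] [NormedSpace ℝ G] (hs : 0 < s) (x : Eu n)
    (f : Eu n → G) : ∫ y, f y ∂ker s x = ∫ y, gk s (y - x) • f y := by
  exact integral_wd (measurable_gk_sub s x) (fun y => (gk_pos hs _).le) f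

lemma integrable_ker_iff {G : Type} [NormedAddCommGroup G] [NormedSpace ℝ G] (hs : 0 < s)
    (x : Eu n) (f : Eu n → G) :
    Integrable f (ker s x) ↔ Integrable (fun y => gk s (y - x) • f y) := by
  exact integrable_wd (measurable_gk_sub s x) (fun y => (gk_pos hs _).le) f

lemma ker_shift {G : Type} [NormedAddCommGroup G] [NormedSpace ℝ G] (hs : 0 < s) (x : Eu n)
    (f : Eu n → G) : ∫ y, f y ∂ker s x = ∫ w, f (x + w) ∂ker s 0 := by
  rw [integral_ker hs, integral_ker hs, ← integral_add_left_eq_self _ x]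
  simp

lemma gk_mix (hs : 0 < s) {a b : ℝ} (hab : a + b = 1) (w w' : Eu n) :
    gk s w ^ a * gk s w' ^ b * exp (a * b * ‖w - w'‖ ^ 2 / (2 * s)) = gk s (a • w + b • w') := by
  have hp := pi_pos
  have hc : 0 < (2 * π * s) ^ (-(n : ℝ) / 2) := by positivity
  unfold gk
  rw [mul_rpow hc.le (exp_pos _).le, mul_rpow hc.le (exp_pos _).le, ← exp_mul, ← exp_mul,
    mul_mul_mul_comm, ← rpow_add hc, hab, rpow_one, mul_assoc, ← exp_add, ← exp_add]
  congr 2
  have hb : b = 1 - a := by linarith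
  rw [norm_add_sq_real, norm_sub_sq_real, norm_smul, norm_smul, mul_pow, mul_pow,
    Real.norm_eq_abs, Real.norm_eq_abs, sq_abs, sq_abs, real_inner_smul_left,
    real_inner_smul_right, hb]
  field_simp
  ring

/-- `c * ‖y‖ ≤ |c| * ‖x‖ + ‖y - x‖ ^ 2 / (4 * s) + s * c ^ 2`, compare with `gk (2 * s)`. -/
lemma ker_ei (hs : 0 < s) (x : Eu n) (c : ℝ) :
    Integrable (fun y => exp (c * ‖y‖)) (ker s x) := by
  rw [integrable_ker_iff hs]
  have hp := pi_pos
  have h2 : 0 < 2 * s := by positivity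
  set c1 := (2 * π * s) ^ (-(n : ℝ) / 2) with hc1
  set c2 := (2 * π * (2 * s)) ^ (-(n : ℝ) / 2) with hc2
  have p1 : 0 < c1 := by positivity
  have p2 : 0 < c2 := by positivity
  refine (((integrable_gk h2).comp_sub_right x).const_mul
    (c1 / c2 * exp (|c| * ‖x‖ + s * c ^ 2))).mono' ?_ (ae_of_all _ fun y => ?_)
  · exact ((measurable_gk_sub s x).smul (measurable_norm.const_mul c).exp).aestronglyMeasurable
  · rw [Real.norm_eq_abs, smul_eq_mul, abs_of_pos (mul_pos (gk_pos hs _) (exp_pos _))]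
    unfold gk
    rw [← hc1, ← hc2]
    have e : c1 / c2 * exp (|c| * ‖x‖ + s * c ^ 2) * (c2 * exp (-‖y - x‖ ^ 2 / (2 * (2 * s)))) =
        c1 * exp (|c| * ‖x‖ + s * c ^ 2 + -‖y - x‖ ^ 2 / (2 * (2 * s))) := by
      rw [exp_add _ (-‖y - x‖ ^ 2 / (2 * (2 * s)))]; field_simp
    rw [e, mul_assoc, ← exp_add]
    refine mul_le_mul_of_nonneg_left (exp_le_exp.2 ?_) p1.le
    have h1 : ‖y‖ ≤ ‖x‖ + ‖y - x‖ := by
      simpa using norm_add_le x (y - x)
    have h3 : c * ‖y‖ ≤ |c| * (‖x‖ + ‖y - x‖) :=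
      mul_le_mul (le_abs_self c) h1 (norm_nonneg _) (abs_nonneg _)
    set d := ‖y - x‖
    have h4 : s * |c| ^ 2 + d ^ 2 / (4 * s) - |c| * d = (2 * s * |c| - d) ^ 2 / (4 * s) := by
      field_simp; ring
    have h5 : 0 ≤ (2 * s * |c| - d) ^ 2 / (4 * s) := by positivity
    have h6 : -d ^ 2 / (2 * (2 * s)) = -d ^ 2 / (2 * s) + d ^ 2 / (4 * s) := by
      field_simp; ring
    rw [sq_abs] at h4
    linarith

lemma slc_ker (hs : 0 < s) (x : Eu n) : SLC (ker s x) s := by
  refine ⟨ker_prob hs x, ker_ei hs x, fun y => gk s (y - x), measurable_gk_sub s x,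
    fun y => (gk_pos hs _).le, rfl, fun a b _ _ hab y y' => le_of_eq ?_⟩
  have h1 := gk_mix hs hab (y - x) (y' - x)
  have e : a • (y - x) + b • (y' - x) = a • y + b • y' - x := by
    have hb : b = 1 - a := by linarith
    rw [hb]; module
  rw [sub_sub_sub_cancel_right, e] at h1
  exact h1

lemma slc_gam : SLC (gam n) 1 := slc_ker one_pos 0

/-- By `ker_shift` and invariance under negation. -/
lemma ker_mean (hs : 0 < s) (x : Eu n) : ∫ y, (y - x) ∂ker s x = 0 := by
  rw [ker_shift hs]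
  simp only [add_sub_cancel_left]
  rw [integral_ker hs]
  have h1 := integral_neg_eq_self (fun y : Eu n => gk s (y - 0) • y) volume
  have e : ∀ y : Eu n, gk s (-y - 0) • -y = -(gk s (y - 0) • y) := fun y => by simp [gk]
  simp only [e, integral_neg] at h1
  have h2 : (2 : ℝ) • ∫ y : Eu n, gk s (y - 0) • y = 0 := by
    rw [two_smul]; nth_rewrite 1 [← h1]; simp
  simpa using h2

lemma ker_mean' (hs : 0 < s) (x : Eu n) : ∫ y, y ∂ker s x = x := by
  have := ker_prob hs x
  have h1 := ker_mean hs x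
  rw [integral_sub (slc_ker hs x).integrable_id (integrable_const _)] at h1
  simpa [sub_eq_zero] using h1

end Vale.Agent.P245
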