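import Vale.Agent.P245.Gk

open MeasureTheory Real
open scoped InnerProductSpace ENNReal

namespace Vale.Agent.P245

variable {n : ℕ}
variable {s : ℝ}

lemma lik_pos (v z : Eu n) : 0 < lik v z := exp_pos _

lemma gk_shift (hs : 0 < s) (w θ : Eu n) :
    gk s w * exp (⟪θ, w⟫_ℝ - s * ‖θ‖ ^ 2 / 2) = gk s (w - s • θ) := by
  unfold gk
  rw [mul_assoc, ← exp_add]
  congr 2
  rw [norm_sub_sq_real, norm_smul, mul_pow, Real.norm_eq_abs, sq_abs, real_inner_smul_right,
    real_inner_comm]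
  field_simp
  ring

lemma gk_lik (v z : Eu n) : gk 1 (z - 0) * lik v z = gk 1 (z - v) := by
  have := gk_shift one_pos z v
  simpa [lik] using this

lemma lik_le {v : Eu n} {B : ℝ} (hv : ‖v‖ ≤ B) (z : Eu n) :
    exp (-(B * ‖z‖) - B ^ 2 / 2) ≤ lik v z ∧ lik v z ≤ exp (B * ‖z‖) := by
  have h1 := abs_real_inner_le_norm v z
  have h2 : ‖v‖ * ‖z‖ ≤ B * ‖z‖ := mul_le_mul_of_nonneg_right hv (norm_nonneg _)
  have h3 : ‖v‖ ^ 2 ≤ B ^ 2 := pow_le_pow_left₀ (norm_nonneg _) hv 2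
  rw [abs_le] at h1
  unfold lik
  constructor <;> apply exp_le_exp.2 <;> nlinarith [sq_nonneg ‖v‖]

lemma continuous_lik : Continuous fun q : Eu n × Eu n => lik q.1 q.2 := by
  unfold lik
  fun_prop

lemma integral_lik_smul {G : Type} [NormedAddCommGroup G] [NormedSpace ℝ G] (v : Eu n)
    (f : Eu n → G) : ∫ z, lik v z • f z ∂gam n = ∫ z, f z ∂ker 1 v := by
  unfold gam
  rw [integral_ker one_pos, integral_ker one_pos]
  simp only [smul_smul, gk_lik]

lemma integrable_lik_smul {G : Type} [NormedAddCommGroup G] [NormedSpace ℝ G] (v : Eu n)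
    {f : Eu n → G} (hf : Integrable f (ker 1 v)) :
    Integrable (fun z => lik v z • f z) (gam n) := by
  unfold gam
  rw [integrable_ker_iff one_pos] at hf ⊢
  simpa only [smul_smul, gk_lik] using hf

lemma integrable_lik (v : Eu n) : Integrable (lik v) (gam n) := by
  have := ker_prob one_pos v
  simpa using integrable_lik_smul v (integrable_const (1 : ℝ))

lemma integral_lik (v : Eu n) : ∫ z, lik v z ∂gam n = 1 := by
  have := ker_prob one_pos v
  simpa using integral_lik_smul v fun _ => (1 : ℝ)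

lemma integrable_lik_inner (v η : Eu n) :
    Integrable (fun z => lik v z * ⟪η, z⟫_ℝ) (gam n) := by
  exact integrable_lik_smul v ((slc_ker one_pos v).integrable_id.const_inner η)

lemma integral_lik_inner (v η : Eu n) : ∫ z, lik v z * ⟪η, z⟫_ℝ ∂gam n = ⟪η, v⟫_ℝ := by
  have h1 := integral_lik_smul v fun z => ⟪η, z⟫_ℝ
  rw [integral_inner (slc_ker one_pos v).integrable_id, ker_mean' one_pos] at h1
  exact h1

/-- Complete the square: `gk s (y - x) * exp ⟪θ, y⟫ = exp (..) * gk s (y - (x + s • θ))`. -/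
lemma ker_mgf (hs : 0 < s) (x θ : Eu n) :
    Integrable (fun y => exp ⟪θ, y⟫_ℝ) (ker s x) ∧
      ∫ y, exp ⟪θ, y⟫_ℝ ∂ker s x = exp (⟪θ, x⟫_ℝ + s * ‖θ‖ ^ 2 / 2) := by
  have e : ∀ y : Eu n, gk s (y - x) • exp ⟪θ, y⟫_ℝ =
      exp (⟪θ, x⟫_ℝ + s * ‖θ‖ ^ 2 / 2) * gk s (y - (x + s • θ)) := fun y => by
    rw [← sub_sub, ← gk_shift hs, smul_eq_mul, mul_left_comm, ← exp_add, inner_sub_right]
    congr 2; ring
  rw [integrable_ker_iff hs, integral_ker hs]
  simp_rw [e]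
  refine ⟨((integrable_gk hs).comp_sub_right _).const_mul _, ?_⟩
  rw [integral_const_mul, integral_sub_right_eq_self (gk s), integral_gk hs, mul_one]

/-- `gk 1 z * exp (‖z‖ ^ 2 / 4) = 2 ^ (n / 2) * gk 2 z`. -/
lemma gam_exp_sq : Integrable (fun z : Eu n => exp (‖z‖ ^ 2 / 4)) (gam n) ∧
    ∫ z : Eu n, exp (‖z‖ ^ 2 / 4) ∂gam n = (2 : ℝ) ^ ((n : ℝ) / 2) := by
  have hp := pi_pos
  have e : ∀ z : Eu n, gk 1 (z - 0) • exp (‖z‖ ^ 2 / 4) = (2 : ℝ) ^ ((n : ℝ) / 2) * gk 2 z :=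
    fun z => by
      unfold gk
      rw [mul_rpow (x := 2 * π) (y := 2) (by positivity) (by positivity), smul_eq_mul, mul_one,
        mul_assoc, ← exp_add, sub_zero]
      have e1 : (2 : ℝ) ^ ((n : ℝ) / 2) * (2 : ℝ) ^ (-(n : ℝ) / 2) = 1 := by
        rw [← rpow_add two_pos]; simp [neg_div]
      have e2 : -‖z‖ ^ 2 / (2 * 1) + ‖z‖ ^ 2 / 4 = -‖z‖ ^ 2 / (2 * 2) := by ring
      rw [e2]
      linear_combination -((2 * π) ^ (-(n : ℝ) / 2) * exp (-‖z‖ ^ 2 / (2 * 2))) * e1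
  unfold gam
  rw [integrable_ker_iff one_pos, integral_ker one_pos]
  simp_rw [e]
  refine ⟨(integrable_gk two_pos).const_mul _, ?_⟩
  rw [integral_const_mul, integral_gk two_pos, mul_one]

/-- Exponentially bounded measurable functions are integrable for the Gaussian law. -/
lemma integrable_gam_of_le {G : Type} [NormedAddCommGroup G] {f : Eu n → G}
    (hf : AEStronglyMeasurable f (gam n)) {C c : ℝ} (h : ∀ z, ‖f z‖ ≤ C * exp (c * ‖z‖)) :
    Integrable f (gam n) := by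
  exact ((ker_ei one_pos 0 c).const_mul C).mono' hf (ae_of_all _ h)

/-- Product version. -/
lemma integrable_prod_gam {Ω G : Type} [MeasurableSpace Ω] [NormedAddCommGroup G]
    {κ : Measure Ω} [SFinite κ] {f : Ω × Eu n → G} (hf : AEStronglyMeasurable f (κ.prod (gam n)))
    {a : Ω → ℝ} (ha : Integrable a κ) {c : ℝ} (h : ∀ q, ‖f q‖ ≤ a q.1 * exp (c * ‖q.2‖)) :
    Integrable f (κ.prod (gam n)) := by
  have := gam_prob (n := n)
  exact (ha.mul_prod (ker_ei one_pos 0 c)).mono' hf (ae_of_all _ h)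

end Vale.Agent.P245
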