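import Vale.Agent.P245.Defs

open MeasureTheory Real
open scoped InnerProductSpace ENNReal

namespace Vale.Agent.P245

variable {n : ℕ}
/-- Iterate `hr` along `2 ^ k * lam` (geometric sum), and let `k → ∞` using `hf`. -/
theorem tail {D : ℝ → ℝ} {A N : ℝ} (hA : 0 < A) (hN : 0 ≤ N)
    (h0 : ∀ l, 32 * A ≤ l → 0 ≤ D l)
    (hm : ∀ l l', 32 * A ≤ l → l ≤ l' → D l' ≤ D l)
    (hf : ∀ l, 32 * A ≤ l → D l ≤ 32 * A * N / l)
    (hr : ∀ l, 512 * A ≤ l → D l ≤ D (2 * l) + 18432 * A / l * D (l / 16)) :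
    ∀ l, 512 * A ≤ l → D l ≤ 36864 * A / l * D (l / 16) := by
  intro l hl
  have l0 : 0 < l := by linarith
  have d0 := h0 (l / 16) (by linarith)
  have key : ∀ k : ℕ, D l ≤ D (2 ^ k * l) + 36864 * A / l * D (l / 16) * (1 - (1 / 2) ^ k) := by
    intro k
    induction k with
    | zero => simp
    | succ k ih =>
      have h1 : l ≤ 2 ^ k * l := le_mul_of_one_le_left l0.le (one_le_pow₀ one_le_two)
      have h2 := hr (2 ^ k * l) (by linarith)
      have h3 := mul_le_mul_of_nonneg_left (hm (l / 16) (2 ^ k * l / 16) (by linarith)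
        (by linarith)) (show 0 ≤ 18432 * A / (2 ^ k * l) by positivity)
      rw [pow_succ' 2, mul_assoc 2]
      rw [show 18432 * A / (2 ^ k * l) * D (l / 16) =
        36864 * A / l * D (l / 16) * (1 / 2) ^ (k + 1) by
          rw [one_div_pow, pow_succ]; field_simp; ring] at h3
      rw [pow_succ] at h3 ⊢
      linarith
  have lim : Filter.Tendsto (fun k : ℕ => 32 * A * N / l * (1 / 2) ^ k + 36864 * A / l * D (l / 16))
      Filter.atTop (nhds (32 * A * N / l * 0 + 36864 * A / l * D (l / 16))) :=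
    ((tendsto_pow_atTop_nhds_zero_of_lt_one (by norm_num) (by norm_num)).const_mul _).add_const _
  rw [mul_zero, zero_add] at lim
  refine ge_of_tendsto' lim fun k => (key k).trans (add_le_add ?_ ?_)
  · have h1 : l ≤ 2 ^ k * l := le_mul_of_one_le_left l0.le (one_le_pow₀ one_le_two)
    refine (hf _ (by linarith)).trans (le_of_eq ?_)
    rw [one_div_pow]; field_simp
  · exact mul_le_of_le_one_right (by positivity) (sub_le_self _ (by positivity))

/-- Let `a j = D (l0 * (1 + η) ^ j / (1 + η))` with `η = 1 / J`. For `j ≤ 5 * J - 1` the point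
`l0 * (1 + η) ^ j` lies in `[l0, 150 * l0]` (`(1 + 1 / J) ^ J ≤ e`, `e ^ 5 ≤ 150`). Summing `hr` over
the window `j, .., j + 4 * J - 1` (for `j < J`) and using `(1 + η) ^ (4 * J) ≥ 16` (Bernoulli) with
`ht` gives `a (j + 1) ≤ 2 / 3 * a j`. Finally `l0 * (1 + η) ^ (J - 1) ≤ 3 * l0`. -/
theorem iter {D : ℝ → ℝ} {l0 η : ℝ} {J : ℕ} (hl0 : 0 < l0) (hJ : 1 ≤ J) (hη : η = 1 / J)
    (h0 : ∀ l, l0 / 2 ≤ l → 0 ≤ D l)
    (hm : ∀ l l', l0 / 2 ≤ l → l ≤ l' → D l' ≤ D l)
    (ht : ∀ l, l0 ≤ l → D (16 * l) ≤ D l / 8)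
    (hr : ∀ l, l0 ≤ l → l ≤ 150 * l0 →
      2 * (D l - D (l * (1 + η))) - η / 40 * D l ≤ D (l / (1 + η)) - D l) :
    D (3 * l0) ≤ (2 / 3) ^ J * D (l0 / 2) := by
  have J1 : (1 : ℝ) ≤ J := by exact_mod_cast hJ
  have η0 : 0 < η := by rw [hη]; positivity
  have ηJ : η * J = 1 := by rw [hη]; field_simp
  have η1 : η ≤ 1 := by nlinarith
  have b1 : 1 ≤ 1 + η := by linarith
  have hup : (1 + η) ^ J ≤ 2.72 := by
    calc (1 + η) ^ J ≤ exp η ^ J := by gcongr; linarith [add_one_le_exp η]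
      _ = exp 1 := by rw [← exp_nat_mul, mul_comm, ηJ]
      _ ≤ _ := exp_one_lt_d9.le.trans (by norm_num)
  have hlo : 2 ≤ (1 + η) ^ J := by
    have := one_add_mul_le_pow (show -2 ≤ η by linarith) J
    linarith
  obtain ⟨y, hy⟩ : ∃ y : ℕ → ℝ, ∀ j, y j = l0 * (1 + η) ^ j / (1 + η) := ⟨_, fun _ => rfl⟩
  have ys : ∀ j, y (j + 1) = l0 * (1 + η) ^ j := fun j => by rw [hy, pow_succ]; field_simp
  have ym : ∀ i j, i ≤ j → y i ≤ y j := fun i j h => by rw [hy, hy]; gcongr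
  have y0 : ∀ j, l0 / 2 ≤ y j := fun j => by
    refine le_trans ?_ (ym 0 j (Nat.zero_le _))
    rw [hy, pow_zero, mul_one]; gcongr; linarith
  have y1 : ∀ j, l0 ≤ y (j + 1) := fun j => by
    rw [ys]; exact le_mul_of_one_le_right hl0.le (one_le_pow₀ b1)
  have st : ∀ i, i ≤ 5 * J → 2 * (D (y (i + 1)) - D (y (i + 1 + 1))) - η / 40 * D (y (i + 1)) ≤
      D (y i) - D (y (i + 1)) := fun i hi => by
    have h1 : (1 + η) ^ i ≤ 150 := by
      calc (1 + η) ^ i ≤ (1 + η) ^ (J * 5) := pow_le_pow_right₀ b1 (by omega)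
        _ ≤ 2.72 ^ 5 := by rw [pow_mul]; gcongr
        _ ≤ _ := by norm_num
    have := hr (y (i + 1)) (y1 i) (by rw [ys]; nlinarith)
    rwa [show y (i + 1) * (1 + η) = y (i + 1 + 1) by rw [ys, ys, pow_succ, mul_assoc],
      show y (i + 1) / (1 + η) = y i by rw [ys, hy]] at this
  have win : ∀ j, j ≤ J → ∀ m, m ≤ 4 * J →
      2 * (D (y (j + 1)) - D (y (j + m + 1))) - η / 40 * m * D (y (j + 1)) ≤
        D (y j) - D (y (j + m)) := fun j hj m => by
    induction m with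
    | zero => simp
    | succ m ih =>
      intro h
      have h1 := ih (by omega)
      have h2 := st (j + m) (by omega)
      have h3 := mul_le_mul_of_nonneg_left
        (hm _ _ (y0 (j + 1)) (ym (j + 1) (j + m + 1) (by omega))) (show 0 ≤ η / 40 by positivity)
      rw [← add_assoc]
      push_cast
      linarith
  have one : ∀ j, j ≤ J → D (y (j + 1)) ≤ 2 / 3 * D (y j) := fun j hj => by
    have h1 := win j hj (4 * J) le_rfl
    have h2 : 16 * y (j + 1) ≤ y (j + 4 * J + 1) := by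
      rw [ys, ys, pow_add, mul_comm 4, pow_mul, ← mul_assoc l0, mul_comm 16]
      gcongr
      calc (16 : ℝ) = 2 ^ 4 := by norm_num
        _ ≤ _ := by gcongr
    have h3 := (hm _ _ (by linarith [y1 j]) h2).trans (ht _ (y1 j))
    rw [show η / 40 * ((4 * J : ℕ) : ℝ) = 1 / 10 by push_cast; linarith] at h1
    linarith [h0 _ (y0 (j + 4 * J)), h0 _ (y0 (j + 1))]
  have geo : ∀ j, j ≤ J → D (y j) ≤ (2 / 3) ^ j * D (l0 / 2) := fun j => by
    induction j with
    | zero => simpa using hm _ _ le_rfl (y0 0)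
    | succ j ih =>
      intro h
      rw [pow_succ', mul_assoc]
      linarith [one j (by omega), ih (by omega)]
  refine (hm _ _ (y0 J) ((ym J (J + 1) (by omega)).trans ?_)).trans (geo J le_rfl)
  rw [ys]
  nlinarith

end Vale.Agent.P245
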