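import Vale.Agent.P245.Gk

open MeasureTheory Real
open scoped InnerProductSpace ENNReal

namespace Vale.Agent.P245

variable {n : ℕ}
variable {p : Measure (Eu n)} [IsProbabilityMeasure p] {h : ℝ}

lemma continuous_gk_sub (h : ℝ) (y : Eu n) : Continuous fun x => gk h (y - x) :=
  (continuous_gk h).comp (continuous_const.sub continuous_id)

lemma measurable_gk2 (h : ℝ) : Measurable fun q : Eu n × Eu n => gk h (q.2 - q.1) :=
  ((continuous_gk h).comp (continuous_snd.sub continuous_fst)).measurable

lemma integrable_gk_sub (hh : 0 < h) (y : Eu n) : Integrable (fun x => gk h (y - x)) p := by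
  refine Integrable.of_bound (continuous_gk_sub h y).aestronglyMeasurable
    ((2 * π * h) ^ (-(n : ℝ) / 2)) (ae_of_all _ fun x => ?_)
  rw [Real.norm_eq_abs, abs_of_pos (gk_pos hh _)]
  exact gk_le hh _

lemma Nk_pos (hh : 0 < h) (y : Eu n) : 0 < Nk p h y := by
  unfold Nk
  rw [integral_pos_iff_support_of_nonneg (fun x => (gk_pos hh _).le) (integrable_gk_sub hh y)]
  have : Function.support (fun x => gk h (y - x)) = Set.univ :=
    Set.eq_univ_of_forall fun x => (gk_pos hh _).ne'
  simp [this]

lemma continuous_Nk (hh : 0 < h) : Continuous (Nk p h) := by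
  refine continuous_of_dominated (bound := fun _ => (2 * π * h) ^ (-(n : ℝ) / 2))
    (fun y => (continuous_gk_sub h y).aestronglyMeasurable) (fun y => ae_of_all _ fun x => ?_)
    (integrable_const _) (ae_of_all _ fun x => ?_)
  · rw [Real.norm_eq_abs, abs_of_pos (gk_pos hh _)]
    exact gk_le hh _
  · exact (continuous_gk h).comp (continuous_id.sub continuous_const)

lemma integrable_gk2 (hh : 0 < h) :
    Integrable (fun q : Eu n × Eu n => gk h (q.2 - q.1)) (p.prod volume) := by
  rw [integrable_prod_iff (measurable_gk2 h).aestronglyMeasurable]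
  refine ⟨ae_of_all _ fun x => (integrable_gk hh).comp_sub_right x, ?_⟩
  have e : ∀ x : Eu n, ∫ y : Eu n, ‖gk h (y - x)‖ = 1 := fun x => by
    simp only [Real.norm_eq_abs, abs_of_pos (gk_pos hh _)]
    rw [integral_sub_right_eq_self (gk h) x, integral_gk hh]
  simp only [e]
  exact integrable_const _

lemma Nk_int (hh : 0 < h) : Integrable (Nk p h) ∧ ∫ y, Nk p h y = 1 := by
  refine ⟨(integrable_gk2 (p := p) hh).integral_prod_right, ?_⟩
  unfold Nk
  rw [← integral_integral_swap (f := fun x y => gk h (y - x)) (integrable_gk2 hh)]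
  simp [integral_sub_right_eq_self (gk h), integral_gk hh]

lemma post_prob (hh : 0 < h) (y : Eu n) : IsProbabilityMeasure (post p h y) := by
  refine wd_prob (fun x => div_nonneg (gk_pos hh _).le (Nk_pos hh y).le)
    ((integrable_gk_sub hh y).div_const _) ?_
  rw [integral_div]
  exact div_self (Nk_pos hh y).ne'

lemma smo_prob (hh : 0 < h) : IsProbabilityMeasure (smo p h) := by
  exact wd_prob (fun y => (Nk_pos hh y).le) (Nk_int hh).1 (Nk_int hh).2

lemma integral_post {G : Type} [NormedAddCommGroup G] [NormedSpace ℝ G] (hh : 0 < h) (y : Eu n)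
    (f : Eu n → G) :
    ∫ x, f x ∂post p h y = (Nk p h y)⁻¹ • ∫ x, gk h (y - x) • f x ∂p := by
  unfold post
  rw [integral_wd ((continuous_gk_sub h y).measurable.div_const _)
    (fun x => div_nonneg (gk_pos hh _).le (Nk_pos hh y).le), ← integral_smul]
  simp only [smul_smul, div_eq_inv_mul]

lemma integrable_post_iff {G : Type} [NormedAddCommGroup G] [NormedSpace ℝ G] (hh : 0 < h)
    (y : Eu n) (f : Eu n → G) :
    Integrable f (post p h y) ↔ Integrable (fun x => gk h (y - x) • f x) p := by
  unfold post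
  rw [integrable_wd ((continuous_gk_sub h y).measurable.div_const _)
    (fun x => div_nonneg (gk_pos hh _).le (Nk_pos hh y).le),
    ← integrable_smul_iff (inv_pos.2 (Nk_pos (p := p) hh y)).ne' fun x => gk h (y - x) • f x]
  refine integrable_congr (ae_of_all _ fun x => ?_)
  simp only [Pi.smul_apply, smul_smul, div_eq_inv_mul]

lemma integral_smo {G : Type} [NormedAddCommGroup G] [NormedSpace ℝ G] (hh : 0 < h)
    (f : Eu n → G) : ∫ y, f y ∂smo p h = ∫ y, Nk p h y • f y := by
  exact integral_wd (continuous_Nk hh).measurable (fun y => (Nk_pos hh y).le) f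

lemma integrable_smo_iff {G : Type} [NormedAddCommGroup G] [NormedSpace ℝ G] (hh : 0 < h)
    (f : Eu n → G) : Integrable f (smo p h) ↔ Integrable fun y => Nk p h y • f y :=
  integrable_wd (continuous_Nk hh).measurable (fun y => (Nk_pos hh y).le) f

/-- `gk h (y - x) * exp (c * ‖x‖)` is bounded in `x`. -/
lemma post_ei (hh : 0 < h) (y : Eu n) (c : ℝ) :
    Integrable (fun x => exp (c * ‖x‖)) (post p h y) := by
  rw [integrable_post_iff hh]
  have hp := pi_pos
  refine Integrable.of_bound ((continuous_gk_sub h y).measurable.smul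
    (measurable_norm.const_mul c).exp).aestronglyMeasurable
    ((2 * π * h) ^ (-(n : ℝ) / 2) * exp (|c| * ‖y‖ + h * c ^ 2 / 2)) (ae_of_all _ fun x => ?_)
  rw [Real.norm_eq_abs, smul_eq_mul, abs_of_pos (mul_pos (gk_pos hh _) (exp_pos _))]
  unfold gk
  rw [mul_assoc, ← exp_add]
  refine mul_le_mul_of_nonneg_left (exp_le_exp.2 ?_) (by positivity)
  have h1 : ‖x‖ ≤ ‖y‖ + ‖y - x‖ := by
    simpa using norm_sub_le y (y - x)
  have h3 : c * ‖x‖ ≤ |c| * (‖y‖ + ‖y - x‖) :=
    mul_le_mul (le_abs_self c) h1 (norm_nonneg _) (abs_nonneg _)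
  set d := ‖y - x‖
  have h4 : h * |c| ^ 2 / 2 + d ^ 2 / (2 * h) - |c| * d = (h * |c| - d) ^ 2 / (2 * h) := by
    field_simp; ring
  have h5 : 0 ≤ (h * |c| - d) ^ 2 / (2 * h) := by positivity
  rw [sq_abs] at h4
  rw [neg_div]
  linarith

lemma post_integrable_id (hh : 0 < h) (y : Eu n) : Integrable (fun x => x) (post p h y) := by
  refine (post_ei hh y 1).mono' measurable_id.aestronglyMeasurable (ae_of_all _ fun x => ?_)
  have := add_one_le_exp ‖x‖
  simp only [one_mul]
  linarith

/-- Density `ρ x * (gk h (y - x) / Nk p h y)`, use `gk_mix` and `withDensity_mul`. -/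
lemma slc_post (hp : LC p) (hh : 0 < h) (y : Eu n) : SLC (post p h y) h := by
  obtain ⟨ρ, ⟨hm, h0, hρ⟩, hpe⟩ := hp.dens
  have hN := Nk_pos (p := p) hh y
  have hk : ∀ x, 0 < gk h (y - x) := fun x => gk_pos hh _
  have mk : Measurable fun x => gk h (y - x) / Nk p h y :=
    (continuous_gk_sub h y).measurable.div_const _
  refine ⟨post_prob hh y, post_ei hh y, fun x => ρ x * (gk h (y - x) / Nk p h y), hm.mul mk,
    fun x => mul_nonneg (h0 x) (div_pos (hk x) hN).le, ?_, fun a b ha hb hab x x' => ?_⟩
  · unfold post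
    generalize Nk p h y = N at mk
    rw [hpe, ← withDensity_mul _ hm.ennreal_ofReal mk.ennreal_ofReal]
    congr 1
    ext x
    simp [ENNReal.ofReal_mul (h0 x)]
  · have h1 := gk_mix hh hab (y - x) (y - x')
    have e : a • (y - x) + b • (y - x') = y - (a • x + b • x') := by
      have hb : b = 1 - a := by linarith
      rw [hb]; module
    have e1 : ‖y - x - (y - x')‖ = ‖x - x'‖ := by
      rw [sub_sub_sub_cancel_left, norm_sub_rev]
    rw [e, e1] at h1
    have e2 : Nk p h y ^ a * Nk p h y ^ b = Nk p h y := by rw [← rpow_add hN, hab, rpow_one]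
    beta_reduce
    rw [mul_rpow (h0 x) (div_pos (hk x) hN).le, mul_rpow (h0 x') (div_pos (hk x') hN).le,
      div_rpow (hk x).le hN.le, div_rpow (hk x').le hN.le, ← h1]
    have e3 : ρ x ^ a * (gk h (y - x) ^ a / Nk p h y ^ a) *
        (ρ x' ^ b * (gk h (y - x') ^ b / Nk p h y ^ b)) * exp (a * b * ‖x - x'‖ ^ 2 / (2 * h)) =
        ρ x ^ a * ρ x' ^ b * (gk h (y - x) ^ a * gk h (y - x') ^ b *
          exp (a * b * ‖x - x'‖ ^ 2 / (2 * h)) / (Nk p h y ^ a * Nk p h y ^ b)) := by
      have := rpow_pos_of_pos hN a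
      have := rpow_pos_of_pos hN b
      field_simp
    rw [e3, e2]
    refine mul_le_mul_of_nonneg_right (hρ a b ha hb hab x x') ?_
    rw [h1]
    exact (div_pos (gk_pos hh _) hN).le

lemma meas_ker {α G : Type} [MeasurableSpace α] [NormedAddCommGroup G] [NormedSpace ℝ G]
    (hh : 0 < h) {c : α → Eu n} (hc : Measurable c) {F : α × Eu n → G}
    (hF : StronglyMeasurable F) :
    StronglyMeasurable fun a => ∫ y, F (a, y) ∂ker h (c a) := by
  simp only [integral_ker hh]
  have h1 : Measurable fun q : α × Eu n => gk h (q.2 - c q.1) :=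
    (continuous_gk h).measurable.comp (measurable_snd.sub (hc.comp measurable_fst))
  exact (h1.stronglyMeasurable.smul hF).integral_prod_right'

lemma meas_post {G : Type} [NormedAddCommGroup G] [NormedSpace ℝ G] (hh : 0 < h)
    {F : Eu n × Eu n → G} (hF : StronglyMeasurable F) :
    StronglyMeasurable fun y => ∫ x, F (x, y) ∂post p h y := by
  simp only [integral_post hh]
  exact (continuous_Nk hh).measurable.inv.stronglyMeasurable.smul
    ((measurable_gk2 h).stronglyMeasurable.smul hF).integral_prod_left'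

end Vale.Agent.P245
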