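import Vale.Agent.P245.Gib

open MeasureTheory Real
open scoped InnerProductSpace ENNReal

namespace Vale.Agent.P245

namespace SgX

lemma exp_le (x : ℝ) : exp x ≤ x + exp (x ^ 2) := by
  rcases le_or_gt 1 x with h | h
  · have : exp x ≤ exp (x ^ 2) := exp_le_exp.2 (by nlinarith)
    linarith
  rcases le_or_gt x (-1) with h' | h'
  · have h1 : exp x ≤ 1 := exp_le_one_iff.2 (by linarith)
    have h2 := add_one_le_exp (x ^ 2)
    nlinarith
  · have h1 := abs_exp_sub_one_sub_id_le (x := x) (abs_le.2 ⟨h'.le, h.le⟩)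
    have h2 := add_one_le_exp (x ^ 2)
    have := (abs_le.1 h1).2
    linarith

lemma exp_mul_le {c : ℝ} (h0 : 0 ≤ c) (h1 : c ≤ 1) (y : ℝ) :
    exp (c * y) ≤ 1 - c + c * exp y := by
  have := convexOn_exp.2 (Set.mem_univ 0) (Set.mem_univ y) (sub_nonneg.2 h1) h0 (by ring)
  simpa using this

lemma one_dim {Ω : Type} [MeasurableSpace Ω] {μ : Measure Ω} [IsProbabilityMeasure μ]
    {X : Ω → ℝ} (hm : Measurable X) (hi : Integrable X μ) (h0 : ∫ x, X x ∂μ = 0) {a : ℝ}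
    (ha : 0 < a) (h : ∫⁻ x, ENNReal.ofReal (exp (X x ^ 2 / a ^ 2)) ∂μ ≤ 2) (t : ℝ) :
    Integrable (fun x => exp (t * X x)) μ ∧ ∫ x, exp (t * X x) ∂μ ≤ exp (a ^ 2 * t ^ 2) := by
  have mE : Measurable fun x => exp (X x ^ 2 / a ^ 2) := ((hm.pow_const 2).div_const _).exp
  have iE : Integrable (fun x => exp (X x ^ 2 / a ^ 2)) μ := by
    refine ⟨mE.aestronglyMeasurable, ?_⟩
    rw [hasFiniteIntegral_iff_ofReal (ae_of_all _ fun x => (exp_pos _).le)]
    exact h.trans_lt (by simp)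
  have bE : ∫ x, exp (X x ^ 2 / a ^ 2) ∂μ ≤ 2 := by
    rw [integral_eq_lintegral_of_nonneg_ae (ae_of_all _ fun x => (exp_pos _).le)
      mE.aestronglyMeasurable]
    exact ENNReal.toReal_le_of_le_ofReal (by norm_num) (by simpa using h)
  have ha2 : 0 < a ^ 2 := by positivity
  have key : ∀ x, exp (t * X x) ≤ exp (a ^ 2 * t ^ 2 / 4) * exp (X x ^ 2 / a ^ 2) := fun x => by
    rw [← exp_add]
    refine exp_le_exp.2 ?_
    have e : X x ^ 2 / a ^ 2 = (X x / a) ^ 2 := by ring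
    have e2 : t * X x = (a * t) * (X x / a) := by field_simp
    rw [e, e2]
    nlinarith [sq_nonneg (X x / a - a * t / 2)]
  have it : Integrable (fun x => exp (t * X x)) μ :=
    (iE.const_mul _).mono' (hm.const_mul t).exp.aestronglyMeasurable (ae_of_all _ fun x => by
      rw [Real.norm_eq_abs, abs_of_pos (exp_pos _)]; exact key x)
  refine ⟨it, ?_⟩
  rcases le_or_gt (a ^ 2 * t ^ 2) 1 with hc | hc
  · set c := a ^ 2 * t ^ 2 with hcd
    have hc0 : 0 ≤ c := by positivity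
    have k2 : ∀ x, exp (t * X x) ≤ t * X x + (1 - c + c * exp (X x ^ 2 / a ^ 2)) := fun x => by
      have h1 := exp_le (t * X x)
      have h2 := exp_mul_le hc0 hc (X x ^ 2 / a ^ 2)
      have e : c * (X x ^ 2 / a ^ 2) = (t * X x) ^ 2 := by rw [hcd]; field_simp
      rw [e] at h2
      linarith
    have i1 : Integrable (fun x => 1 - c + c * exp (X x ^ 2 / a ^ 2)) μ :=
      (integrable_const _).add (iE.const_mul c)
    have h3 := integral_mono it ((hi.const_mul t).add i1) k2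
    simp only [Pi.add_apply] at h3
    rw [integral_add (hi.const_mul t) i1, integral_add (integrable_const _) (iE.const_mul c),
      integral_const_mul, integral_const_mul, h0] at h3
    simp only [integral_const, probReal_univ, smul_eq_mul, one_mul, mul_zero, zero_add] at h3
    have h4 := add_one_le_exp c
    nlinarith
  · have h3 := integral_mono it (iE.const_mul _) key
    rw [integral_const_mul] at h3
    have h4 : (2 : ℝ) ≤ exp (3 / 4 * (a ^ 2 * t ^ 2)) := by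
      have h5 : exp (3 / 4) ≤ exp (3 / 4 * (a ^ 2 * t ^ 2)) := exp_le_exp.2 (by linarith)
      have h6 := quadratic_le_exp_of_nonneg (x := 3 / 4) (by norm_num)
      linarith
    calc _ ≤ exp (a ^ 2 * t ^ 2 / 4) * 2 := h3.trans (by gcongr)
      _ ≤ exp (a ^ 2 * t ^ 2 / 4) * exp (3 / 4 * (a ^ 2 * t ^ 2)) := by gcongr
      _ = _ := by rw [← exp_add]; ring_nf

end SgX

variable {n : ℕ}
/-- For `a * |t| ≤ 1`: `exp x ≤ x + exp (x ^ 2)` and `exp (c * y) ≤ 1 - c + c * exp y` for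
`c = a ^ 2 * t ^ 2 ≤ 1`. Otherwise `t * X ≤ X ^ 2 / a ^ 2 + a ^ 2 * t ^ 2 / 4`, `log 2 ≤ 3 / 4`. -/
theorem sg_of {μ : Measure (Eu n)} [IsProbabilityMeasure μ] (hi : Integrable (fun x => x) μ)
    (h0 : ∫ x, x ∂μ = 0) {a : ℝ} (ha : 0 < a)
    (h : ∀ θ : Eu n, ‖θ‖ = 1 → ∫⁻ x, ENNReal.ofReal (exp (⟪x, θ⟫_ℝ ^ 2 / a ^ 2)) ∂μ ≤ 2) :
    SG μ (fun x => x) (a ^ 2) := by
  intro θ
  rcases eq_or_ne θ 0 with rfl | hθ
  · simp
  have hn : 0 < ‖θ‖ := norm_pos_iff.2 hθ
  set e : Eu n := ‖θ‖⁻¹ • θ with he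
  have he1 : ‖e‖ = 1 := by rw [he, norm_smul, norm_inv, norm_norm, inv_mul_cancel₀ hn.ne']
  have hm : Measurable fun x : Eu n => ⟪x, e⟫_ℝ := measurable_id.inner measurable_const
  have hz : ∫ x, ⟪x, e⟫_ℝ ∂μ = 0 := by
    simp only [real_inner_comm e]
    rw [integral_inner hi, h0, inner_zero_right]
  have := SgX.one_dim hm (hi.inner_const e) hz ha (h e he1) ‖θ‖
  have e2 : ∀ x : Eu n, ‖θ‖ * ⟪x, e⟫_ℝ = ⟪θ, x⟫_ℝ := fun x => by
    rw [he, real_inner_smul_right, ← mul_assoc, mul_inv_cancel₀ hn.ne', one_mul, real_inner_comm]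
  simpa only [e2] using this

theorem lcf_of {ρ : Eu n → ℝ} (hm : Measurable ρ) (h0 : ∀ x, 0 ≤ ρ x)
    (hc : ConcaveOn ℝ {x | 0 < ρ x} fun x => log (ρ x)) : LCF ρ := by
  refine ⟨hm, h0, fun a b ha hb hab x y => ?_⟩
  rcases (h0 x).eq_or_lt with hx | hx
  · rw [← hx, zero_rpow ha.ne', zero_mul]; exact h0 _
  rcases (h0 y).eq_or_lt with hy | hy
  · rw [← hy, zero_rpow hb.ne', mul_zero]; exact h0 _
  have h1 : 0 < ρ (a • x + b • y) := hc.1 hx hy ha.le hb.le hab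
  have h2 := hc.2 hx hy ha.le hb.le hab
  simp only [smul_eq_mul] at h2
  rw [← exp_log h1, rpow_def_of_pos hx, rpow_def_of_pos hy, ← exp_add]
  exact exp_le_exp.2 (by linarith)

theorem bd1_of {f : Eu n → ℝ} (hf : ContDiff ℝ 1 f) (hc : HasCompactSupport f) : Bd1 f := by
  refine ⟨hf.differentiable one_ne_zero, ?_, ?_⟩
  · obtain ⟨C, hC⟩ := hf.continuous.bounded_above_of_compact_support hc
    exact ⟨C, hC⟩
  · obtain ⟨C, hC⟩ := (hf.continuous_fderiv one_ne_zero).bounded_above_of_compact_support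
      (hc.fderiv ℝ)
    refine ⟨C, fun x => ?_⟩
    unfold gradient
    rw [LinearIsometryEquiv.norm_map]
    exact hC x

end Vale.Agent.P245
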