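import Vale.Agent.P245.Gk2
import Vale.Agent.P245.Jt2
import Vale.Agent.P230.PLw

open MeasureTheory Real
open scoped InnerProductSpace ENNReal

namespace Vale.Agent.P245

variable {n : ℕ}
variable {μ : Measure (Eu n)} [IsProbabilityMeasure μ] {u : ℝ}

/-- Prekopa-Leindler (`P230.plw_euclidean`) for `x' ↦ ρ x' * gk u (y - x')`, `gk_mix`. -/
theorem lc_smo (hμ : LC μ) (hu : 0 < u) : LC (smo μ u) := by
  refine ⟨smo_prob hu, Nk μ u, ⟨(continuous_Nk hu).measurable, fun y => (Nk_pos hu y).le,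
    fun a b ha hb hab y y' => ?_⟩, rfl⟩
  obtain ⟨ρ, ⟨hρ, h0, hs⟩, e⟩ := hμ.dens
  have hm : ∀ z : Eu n, Measurable fun x => ρ x * gk u (z - x) := fun z =>
    hρ.mul (continuous_gk_sub u z).measurable
  have hn : ∀ z x : Eu n, 0 ≤ ρ x * gk u (z - x) := fun z x => mul_nonneg (h0 x) (gk_pos hu _).le
  have hl : ∀ z : Eu n, ∫⁻ x, ENNReal.ofReal (ρ x * gk u (z - x)) = ENNReal.ofReal (Nk μ u z) := by
    intro z
    rw [Nk, ofReal_integral_eq_lintegral_ofReal (integrable_gk_sub hu z)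
      (ae_of_all _ fun x => (gk_pos hu _).le), e,
      lintegral_withDensity_eq_lintegral_mul _ hρ.ennreal_ofReal
        (continuous_gk_sub u z).measurable.ennreal_ofReal]
    refine lintegral_congr fun x => ?_
    simp [ENNReal.ofReal_mul (h0 x)]
  have key := P230.plw_euclidean n a b ha hb hab
    (fun x => ENNReal.ofReal (ρ x * gk u (y - x))) (fun x => ENNReal.ofReal (ρ x * gk u (y' - x)))
    (fun x => ENNReal.ofReal (ρ x * gk u (a • y + b • y' - x))) (hm _).ennreal_ofReal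
    (hm _).ennreal_ofReal (hm _).ennreal_ofReal fun x x' => by
      rw [ENNReal.ofReal_rpow_of_nonneg (hn _ _) ha.le, ENNReal.ofReal_rpow_of_nonneg (hn _ _) hb.le,
        ← ENNReal.ofReal_mul (rpow_nonneg (hn _ _) _)]
      refine ENNReal.ofReal_le_ofReal ?_
      rw [mul_rpow (h0 x) (gk_pos hu _).le, mul_rpow (h0 x') (gk_pos hu _).le, mul_mul_mul_comm]
      have h1 := gk_mix hu hab (y - x) (y' - x')
      have h2 : a • (y - x) + b • (y' - x') = a • y + b • y' - (a • x + b • x') := by module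
      rw [h2] at h1
      refine mul_le_mul (hs a b ha hb hab x x') ?_
        (mul_nonneg (rpow_nonneg (gk_pos hu _).le _) (rpow_nonneg (gk_pos hu _).le _)) (h0 _)
      rw [← h1]
      exact le_mul_of_one_le_right
        (mul_nonneg (rpow_nonneg (gk_pos hu _).le _) (rpow_nonneg (gk_pos hu _).le _))
        (one_le_exp (by positivity))
  rwa [hl, hl, hl, ENNReal.ofReal_rpow_of_nonneg (Nk_pos hu _).le ha.le,
    ENNReal.ofReal_rpow_of_nonneg (Nk_pos hu _).le hb.le,
    ← ENNReal.ofReal_mul (rpow_nonneg (Nk_pos hu _).le _),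
    ENNReal.ofReal_le_ofReal_iff (Nk_pos hu _).le] at key

/-- `ker_mgf`, Tonelli. -/
theorem sg_smo (hu : 0 < u) {A : ℝ} (hs : SG μ (fun x => x) A) :
    SG (smo μ u) (fun x => x) (A + u / 2) := by
  intro θ
  obtain ⟨h1, h2⟩ := hs θ
  have hm : Measurable fun y : Eu n => exp ⟪θ, y⟫_ℝ := by fun_prop
  have h3 : Integrable (fun q : Eu n × Eu n => exp ⟪θ, q.2⟫_ℝ) (jt μ u) := by
    have hm2 : Measurable fun q : Eu n × Eu n => gk u (q.2 - q.1) • exp ⟪θ, q.2⟫_ℝ :=
      (measurable_gk2 u).smul (hm.comp measurable_snd)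
    rw [integrable_jt_iff hu, integrable_prod_iff hm2.aestronglyMeasurable]
    refine ⟨ae_of_all _ fun x => (integrable_ker_iff hu x _).1 (ker_mgf hu x θ).1, ?_⟩
    refine (h1.mul_const (exp (u * ‖θ‖ ^ 2 / 2))).congr (ae_of_all _ fun x => ?_)
    have h4 := (ker_mgf hu x θ).2
    rw [integral_ker hu, exp_add] at h4
    simp only
    rw [← h4]
    refine integral_congr_ae (ae_of_all _ fun y => ?_)
    simp only [smul_eq_mul, Real.norm_eq_abs]
    exact (abs_of_pos (mul_pos (gk_pos hu _) (exp_pos _))).symm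
  have h4 : Integrable (fun y : Eu n => exp ⟪θ, y⟫_ℝ) (smo μ u) :=
    ((jt_snd hu).integrable_comp hm.aestronglyMeasurable).1 h3
  refine ⟨h4, ?_⟩
  rw [← (ker_smo hu h4).2]
  simp only [(ker_mgf hu _ θ).2, exp_add]
  rw [integral_mul_const, add_mul, exp_add]
  refine mul_le_mul h2 (le_of_eq ?_) (exp_pos _).le (exp_pos _).le
  congr 1
  ring

end Vale.Agent.P245
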