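import Vale.Agent.P245.St3
import Vale.Agent.P245.Fw1

open MeasureTheory Real
open scoped InnerProductSpace ENNReal

namespace Vale.Agent.P245

variable {n : ℕ}
variable {μ : Measure (Eu n)} [IsProbabilityMeasure μ] {u : ℝ}

/-- `hasGradientAt_Nw` with `w = 1`, `integral_post`. -/
lemma Nk_grad (hu : 0 < u) (x : Eu n) :
    HasGradientAt (Nk μ u) (Nk μ u x • u⁻¹ • (bar μ u x - x)) x := by
  have := post_prob (p := μ) hu x
  have h2 := hasGradientAt_Nw (p := μ) hu (w := fun _ => 1) measurable_const (C := 1)
    (fun _ => by simp) x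
  simp only [mul_one] at h2
  have e2 : ∫ x', gk u (x - x') • (x' - x) ∂μ = Nk μ u x • (bar μ u x - x) := by
    have : ∫ x', (x' - x) ∂post μ u x = bar μ u x - x := by
      rw [integral_sub (post_integrable_id hu x) (integrable_const x)]; simp [bar]
    rw [← this, integral_post hu, smul_inv_smul₀ (Nk_pos hu x).ne']
  rwa [e2, smul_comm] at h2

namespace St4x

lemma grad_zero {Φ : Eu n → ℝ} {Φ' : Eu n → Eu n} (hd : ∀ x, HasGradientAt Φ (Φ' x) x)
    (hi : Integrable Φ) (hi' : Integrable Φ') : ∫ x, Φ' x = 0 := by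
  refine ext_inner_left ℝ fun v => ?_
  have e : ∀ x, fderiv ℝ Φ x v = ⟪v, Φ' x⟫_ℝ := fun x => by
    rw [(hd x).hasFDerivAt.fderiv, InnerProductSpace.toDual_apply_apply, real_inner_comm]
  have h := integral_mul_fderiv_eq_neg_fderiv_mul_of_integrable (μ := volume)
    (f := fun _ : Eu n => (1 : ℝ)) (g := Φ) (v := v) (by simp)
    (by simpa only [one_mul, e] using hi'.const_inner v) (by simpa only [one_mul] using hi)
    (fun _ _ => differentiableAt_const _) fun x _ => (hd x).differentiableAt
  rw [← integral_inner hi', inner_zero_right]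
  simpa [e] using h

end St4x

/-- `Φ x = g x * Nk μ u x * gk h (y - x)` is differentiable, `Φ` and its gradient are Lebesgue
integrable (use `post_ei` for `smo μ u`, linear growth of `bar`), so the gradient integrates to
zero (`integral_mul_fderiv_eq_neg_fderiv_mul_of_integrable` with the constant function `1`, in
each direction). Convert with `integral_post`, `integral_smo`. -/
theorem smo_ibp (hμ : LC μ) (hu : 0 < u) {g : Eu n → ℝ} (hg : Good g) {h : ℝ} (hh : 0 < h)
    (y : Eu n) :
    ∫ x, gradient g x ∂post (smo μ u) h y =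
      ∫ x, g x • (u⁻¹ • (x - bar μ u x) + h⁻¹ • (x - y)) ∂post (smo μ u) h y := by
  have := smo_prob (p := μ) hu
  have := post_prob (p := smo μ u) hh y
  have i0 := post_integrable_id (p := smo μ u) hh y
  have i1 : Integrable (bar μ u) (post (smo μ u) h y) :=
    ((integrable_const ‖bar μ u 0‖).add i0.norm).mono' (measurable_bar hu).aestronglyMeasurable
      (ae_of_all _ fun x => by
        have h1 := bar_lip hμ hu x 0
        have h2 := norm_add_le (bar μ u 0) (bar μ u x - bar μ u 0)
        rw [sub_zero] at h1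
        rw [add_sub_cancel] at h2
        exact h2.trans (add_le_add le_rfl h1))
  have i2 : Integrable (fun x => g x • (u⁻¹ • (x - bar μ u x) + h⁻¹ • (x - y)))
      (post (smo μ u) h y) := hg.wt.integrable_smul
    (((i0.sub i1).smul u⁻¹).add ((i0.sub (integrable_const y)).smul h⁻¹))
  have i3 := hg.bv_grad.integrable (q := post (smo μ u) h y)
  have i4 := (integrable_smo_iff hu _).1 ((integrable_post_iff hh y _).1 (i3.sub i2))
  have i5 := (integrable_smo_iff hu _).1 ((integrable_post_iff hh y _).1
    (hg.wt.integrable (q := post (smo μ u) h y)))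
  have h1 := St4x.grad_zero (fun x => ?_) i5 i4
  · rw [← sub_eq_zero, ← integral_sub i3 i2, integral_post hh, integral_smo hu]
    exact smul_eq_zero_of_right _ h1
  · have h2 := HasGradientAt.mul' (Nk_grad (μ := μ) hu x) (HasGradientAt.mul'
      (hasGradientAt_gk hh y x) (hg.diff x).hasGradientAt)
    simp only [gk_neg h _ y] at h2
    have e : Nk μ u x • gk h (y - x) • (gradient g x -
        g x • (u⁻¹ • (x - bar μ u x) + h⁻¹ • (x - y))) = Nk μ u x • (gk h (y - x) • gradient g x +
          g x • (gk h (y - x) * h⁻¹) • (y - x)) +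
          (gk h (y - x) * g x) • Nk μ u x • u⁻¹ • (bar μ u x - x) := by module
    exact e ▸ h2

theorem sm_smo (hμ : LC μ) (hu : 0 < u) {A : ℝ} (hs : SG μ (fun x => x) A) :
    Sm (smo μ u) u A (bar μ u) :=
  ⟨bar_lip hμ hu, bar_refl hμ hu, bar_sg hu hs, fun _ hg _ hh y => smo_ibp hμ hu hg hh y⟩

end Vale.Agent.P245
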