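import Vale.Agent.P245.Ti0

open MeasureTheory Real
open scoped InnerProductSpace ENNReal

namespace Vale.Agent.P245

variable {n : ℕ}
variable {p : Measure (Eu n)} [IsProbabilityMeasure p] {lam : ℝ}

namespace Ti1x

lemma der (r : ℝ) : HasDerivAt (fun r : ℝ => max r 0 ^ 2) (2 * max r 0) r := by
  rcases lt_trichotomy r 0 with h | rfl | h
  · rw [max_eq_right h.le, mul_zero]
    refine (hasDerivAt_const r (0 : ℝ)).congr_of_eventuallyEq ?_
    filter_upwards [Iio_mem_nhds h] with y hy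
    simp [max_eq_right (Set.mem_Iio.1 hy).le]
  · rw [hasDerivAt_iff_isLittleO_nhds_zero]
    refine Asymptotics.IsBigO.trans_isLittleO (g := fun h : ℝ => h ^ 2)
      (Asymptotics.IsBigO.of_bound' (Filter.Eventually.of_forall fun y => ?_))
      (Asymptotics.isLittleO_pow_id one_lt_two)
    rcases le_total y 0 with h | h <;> simp [h, sq_nonneg]
  · rw [max_eq_left h.le]
    refine HasDerivAt.congr_of_eventuallyEq (by simpa using hasDerivAt_pow 2 r) ?_
    filter_upwards [Ioi_mem_nhds h] with y hy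
    simp [max_eq_left (Set.mem_Ioi.1 hy).le]

lemma max_le {a C : ℝ} (h : |a| ≤ C) : |max a 0| ≤ C := by
  rcases le_total a 0 with h1 | h1 <;> simp [h1, h, (abs_nonneg a).trans h]

lemma union_le {s : ℕ → Set (Eu n)} (hs : Monotone s) (h : ∀ k, p.real (s k) ≤ 1 / 2) :
    p.real (⋃ k, s k) ≤ 1 / 2 := by
  refine (ENNReal.le_ofReal_iff_toReal_le (measure_ne_top _ _) (by norm_num)).1 ?_
  rw [hs.measure_iUnion]
  exact iSup_le fun k =>
    (ENNReal.le_ofReal_iff_toReal_le (measure_ne_top _ _) (by norm_num)).2 (h k)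

lemma aff {f : Eu n → ℝ} (hf : Bd1 f) {a : ℝ} (ha : |a| = 1) (m : ℝ) :
    Bd1 (fun x => a * (f x - m)) ∧
      ∀ x, ‖gradient (fun x => a * (f x - m)) x‖ = ‖gradient f x‖ := by
  have e : ∀ x, ‖gradient (fun x => a * (f x - m)) x‖ = ‖gradient f x‖ := fun x => by
    rw [Ti0x.grad_comp (((hasDerivAt_id' (f x)).sub_const m).const_mul a) (hf.diff x), norm_smul]
    simp [ha]
  obtain ⟨C, hC⟩ := hf.bd
  obtain ⟨L, hL⟩ := hf.lip
  refine ⟨⟨(hf.diff.sub_const m).const_mul a, ⟨C + |m|, fun x => ?_⟩, L,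
    fun x => (e x).symm ▸ hL x⟩, e⟩
  rw [abs_mul, ha, one_mul]
  linarith [abs_sub (f x) m, hC x]

end Ti1x
open Ti0x Ti1x

/-- `g = (max f 0) ^ 2 + ε` is `Good` with gradient `2 * max f 0 • gradient f`
(`r ↦ (max r 0) ^ 2` is differentiable); Fisher density at most `4 * 1_{f > 0} * ‖gradient f‖ ^ 2`.
`gibbs` with `φ = log 3 * 1_{f > 0}` (`∫ exp φ ≤ 2`) gives
`log 3 * a - (a + ε) * log 2 ≤ Ent g` for `a = ∫ (max f 0) ^ 2`; `log (3 / 2) ≥ 2 / 5`; `ε → 0`. -/
theorem half_poin (hl : 0 ≤ lam) (H : DL p lam (1 / 5)) {f : Eu n → ℝ} (hf : Bd1 f)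
    (hm : p.real {x | 0 < f x} ≤ 1 / 2) :
    ∫ x, (max (f x) 0) ^ 2 ∂p ≤ 10 * lam * ∫ x in {x | 0 < f x}, ‖gradient f x‖ ^ 2 ∂p := by
  obtain ⟨C, hC⟩ := hf.bd
  obtain ⟨L, hL⟩ := hf.lip
  have hfm := hf.diff.continuous.measurable
  have hS : MeasurableSet {x | 0 < f x} := measurableSet_lt measurable_const hfm
  have e : ∀ x, ‖gradient (fun x => max (f x) 0 ^ 2) x‖ = 2 * |max (f x) 0| * ‖gradient f x‖ :=
    fun x => by rw [grad_comp (der (f x)) (hf.diff x), norm_smul]; simp
  have hb : ∀ x, |max (f x) 0 ^ 2| ≤ C ^ 2 := fun x => sq_le (max_le (hC x))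
  have hw : Measurable fun x => max (f x) 0 ^ 2 := (hfm.max measurable_const).pow_const 2
  have h1 := dl_gen (u := fun x => 4 * {x | 0 < f x}.indicator (fun x => ‖gradient f x‖ ^ 2) x)
    (L := 2 * C * L) hl H (w := fun x => max (f x) 0 ^ 2)
    (fun x => (der (f x)).differentiableAt.comp x (hf.diff x)) (fun x => sq_nonneg _) hb
    (fun x => by
      rw [e]
      have := (abs_nonneg _).trans (hC x)
      gcongr
      exacts [max_le (hC x), hL x])
    (fun x => mul_nonneg (by norm_num) (Set.indicator_nonneg (fun _ _ => sq_nonneg _) _))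
    (fun x => by
      rw [e, mul_pow, mul_pow, sq_abs]
      by_cases h : 0 < f x
      · rw [Set.indicator_of_mem (show x ∈ {x | 0 < f x} from h)]
        exact le_of_eq (by ring)
      · simp [max_eq_right (not_lt.1 h)])
    (((int_grad hf).indicator hS).const_mul 4)
  rw [integral_const_mul, integral_indicator hS] at h1
  have e1 : ∀ x, max (f x) 0 ^ 2 * {x | 0 < f x}.indicator (fun _ => log 3) x =
      max (f x) 0 ^ 2 * log 3 := fun x => by
    by_cases h : 0 < f x
    · rw [Set.indicator_of_mem (show x ∈ {x | 0 < f x} from h)]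
    · simp [max_eq_right (not_lt.1 h)]
  have e2 : ∀ x, exp ({x | 0 < f x}.indicator (fun _ => log 3) x) =
      1 + {x | 0 < f x}.indicator (fun _ => 2) x := fun x => by
    by_cases h : x ∈ {x | 0 < f x}
    · rw [Set.indicator_of_mem h, Set.indicator_of_mem h, exp_log (by norm_num)]; norm_num
    · simp [Set.indicator_of_notMem h]
  have i2 : Integrable (fun x => {x | 0 < f x}.indicator (fun _ => (2 : ℝ)) x) p :=
    (integrable_const _).indicator hS
  have h2 := gibbs (q := p) (φ := {x | 0 < f x}.indicator fun _ => log 3) (fun x => sq_nonneg _)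
    (int_bd hw hb) (int_log hw hb) (by simpa only [e1] using (int_bd hw hb).mul_const _)
    (by simp only [e2]; exact (integrable_const _).add i2)
  simp only [e1, e2] at h2
  rw [integral_mul_const, integral_add (integrable_const _) i2, integral_indicator hS] at h2
  simp only [integral_const, probReal_univ, smul_eq_mul, one_mul, measureReal_restrict_apply_univ]
    at h2
  have a0 : 0 ≤ ∫ x, max (f x) 0 ^ 2 ∂p := integral_nonneg fun x => sq_nonneg _
  have h3 : log (1 + p.real {x | 0 < f x} * 2) ≤ log 2 :=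
    log_le_log (by positivity) (by linarith)
  have h4 : log 2 + 2 / 5 ≤ log 3 := by
    have := Real.le_log_one_add_of_nonneg (show (0 : ℝ) ≤ 1 / 2 by norm_num)
    rw [show (3 : ℝ) = 2 * (1 + 1 / 2) by norm_num, log_mul (by norm_num) (by norm_num)]
    linarith
  linarith [mul_le_mul_of_nonneg_left h3 a0, mul_le_mul_of_nonneg_left h4 a0]

lemma exists_median {f : Eu n → ℝ} (hf : Measurable f) {C : ℝ} (hb : ∀ x, |f x| ≤ C) :
    ∃ m : ℝ, p.real {x | m < f x} ≤ 1 / 2 ∧ p.real {x | f x < m} ≤ 1 / 2 := by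
  obtain ⟨S, hS⟩ : ∃ S : Set ℝ, S = {t | p.real {x | t < f x} ≤ 1 / 2} := ⟨_, rfl⟩
  have h1 : C ∈ S := by
    have : {x | C < f x} = ∅ :=
      Set.eq_empty_of_forall_notMem fun x hx => not_le.2 hx (abs_le.1 (hb x)).2
    simp [hS, this]
  have h2 : BddBelow S := ⟨-C, fun t ht => not_lt.1 fun h => by
    have : {x | t < f x} = Set.univ :=
      Set.eq_univ_of_forall fun x => h.trans_le (abs_le.1 (hb x)).1
    rw [hS, Set.mem_ofPred_eq, this, probReal_univ] at ht
    norm_num at ht⟩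
  have hk : ∀ k : ℕ, (0 : ℝ) < 1 / (k + 1) := fun k => Nat.one_div_pos_of_nat
  have hm : ∀ i j : ℕ, i ≤ j → (1 : ℝ) / (j + 1) ≤ 1 / (i + 1) := fun i j h =>
    Nat.one_div_le_one_div h
  refine ⟨sInf S, ?_, ?_⟩
  · refine le_trans (measureReal_mono fun x hx => ?_)
      (union_le (s := fun k => {x | sInf S + 1 / (k + 1) < f x})
        (fun i j h x hx => lt_of_le_of_lt (add_le_add_right (hm i j h) _) hx) fun k => ?_)
    · obtain ⟨k, hk⟩ := exists_nat_one_div_lt (sub_pos.2 (show sInf S < f x from hx))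
      exact Set.mem_iUnion.2 ⟨k, lt_sub_iff_add_lt'.1 hk⟩
    · obtain ⟨t, ht, h⟩ := exists_lt_of_csInf_lt ⟨C, h1⟩ (lt_add_of_pos_right _ (hk k))
      rw [hS] at ht
      exact le_trans (measureReal_mono fun x hx => h.trans hx) ht
  · refine le_trans (measureReal_mono fun x hx => ?_)
      (union_le (s := fun k => {x | sInf S - 1 / (k + 1) < f x}ᶜ)
        (fun i j h x hx hx' => hx (lt_of_le_of_lt (sub_le_sub_left (hm i j h) _) hx')) fun k => ?_)
    · obtain ⟨k, hk⟩ := exists_nat_one_div_lt (sub_pos.2 (show f x < sInf S from hx))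
      exact Set.mem_iUnion.2 ⟨k, fun (h : sInf S - 1 / (k + 1) < f x) => by linarith⟩
    · have h : sInf S - 1 / (k + 1) ∉ S := notMem_of_lt_csInf (by linarith [hk k]) h2
      rw [probReal_compl_eq_one_sub (measurableSet_lt measurable_const hf)]
      rw [hS, Set.mem_ofPred_eq, ← hS] at h
      linarith

theorem poin (hl : 0 ≤ lam) (H : DL p lam (1 / 5)) {f : Eu n → ℝ} (hf : Bd1 f) :
    ∃ m : ℝ, ∫ x, (f x - m) ^ 2 ∂p ≤ 10 * lam * ∫ x, ‖gradient f x‖ ^ 2 ∂p := by
  obtain ⟨C, hC⟩ := hf.bd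
  have hfm := hf.diff.continuous.measurable
  obtain ⟨m, h1, h2⟩ := exists_median (p := p) hfm hC
  obtain ⟨b1, e1⟩ := aff hf abs_one m
  obtain ⟨b2, e2⟩ := aff hf (a := -1) (by simp) m
  have k1 := half_poin hl H b1 (by simpa using h1)
  have k2 := half_poin hl H b2 (by simpa using h2)
  simp only [e1, e2] at k1 k2
  have i : ∀ g : Eu n → ℝ, Bd1 g → Integrable (fun x => max (g x) 0 ^ 2) p := fun g hg => by
    obtain ⟨C, hC⟩ := hg.bd
    exact int_bd ((hg.diff.continuous.measurable.max measurable_const).pow_const 2)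
      fun x => sq_le (max_le (hC x))
  have hS : MeasurableSet {x | 0 < 1 * (f x - m)} :=
    measurableSet_lt measurable_const b1.diff.continuous.measurable
  have k3 := setIntegral_mono_set (s := {x | 0 < -1 * (f x - m)}) (t := {x | 0 < 1 * (f x - m)}ᶜ)
    (int_grad (p := p) hf).integrableOn (ae_of_all _ fun x => sq_nonneg _)
    (LE.le.eventuallyLE fun x (hx : 0 < -1 * (f x - m)) (h : 0 < 1 * (f x - m)) => by
      linarith)
  refine ⟨m, ?_⟩
  rw [← integral_add_compl hS (int_grad hf), show ∫ x, (f x - m) ^ 2 ∂p =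
    ∫ x, max (1 * (f x - m)) 0 ^ 2 + max (-1 * (f x - m)) 0 ^ 2 ∂p from
      integral_congr_ae (ae_of_all _ fun x => by
        rcases le_total (f x) m with h | h <;> simp [h]; ring), integral_add (i _ b1) (i _ b2)]
  linarith [mul_le_mul_of_nonneg_left k3 hl]

end Vale.Agent.P245
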