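import Vale.Agent.P245.Ti0
import Vale.Agent.P245.Ti1

open MeasureTheory Real
open scoped InnerProductSpace ENNReal

namespace Vale.Agent.P245

variable {n : ℕ}
variable {p : Measure (Eu n)} [IsProbabilityMeasure p] {lam : ℝ}

open Ti0x

lemma theta_le (u : ℝ) :
    (1 + u) ^ 2 * log ((1 + u) ^ 2) - (1 + u) ^ 2 + 1 ≤
      9 * u ^ 2 + 4 * (u ^ 2 * max (log (u ^ 2)) 0) := by
  have s0 : 0 ≤ (1 + u) ^ 2 := sq_nonneg _
  have m0 : 0 ≤ u ^ 2 * max (log (u ^ 2)) 0 := mul_nonneg (sq_nonneg _) (le_max_right _ _)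
  have key : ∀ c, (0 < (1 + u) ^ 2 → log ((1 + u) ^ 2) ≤ c) →
      (1 + u) ^ 2 * log ((1 + u) ^ 2) ≤ (1 + u) ^ 2 * c := fun c h => by
    rcases s0.eq_or_lt with h0 | h0
    · simp [← h0]
    · exact mul_le_mul_of_nonneg_left (h h0) s0
  rcases le_total (u ^ 2) 1 with h | h
  · have h1 := key _ log_le_sub_one_of_pos
    have h2 : (2 + u) ^ 2 ≤ 9 := by nlinarith [sq_nonneg (u - 1)]
    have h3 := mul_le_mul_of_nonneg_left h2 (sq_nonneg u)
    linarith
  · have h2 : (1 + u) ^ 2 ≤ 4 * u ^ 2 := by nlinarith [sq_nonneg (u - 1)]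
    have h4 : log 4 ≤ 2 := by
      rw [show (4 : ℝ) = 2 ^ 2 by norm_num, log_pow]
      push_cast
      linarith [log_two_lt_d9]
    have h1 := key (2 + max (log (u ^ 2)) 0) fun h0 => by
      refine (log_le_log h0 h2).trans ?_
      rw [log_mul (by norm_num) (by linarith)]
      exact add_le_add h4 (le_max_left _ _)
    have h3 := mul_le_mul_of_nonneg_right h2
      (show 0 ≤ 2 + max (log (u ^ 2)) 0 by positivity)
    linarith

/-- Take `m` from `poin`, `σ2 = ∫ (f - m) ^ 2`. If `m ^ 2 ≤ σ2` use `dl_sq` for `f` and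
`∫ f ^ 2 ≤ 4 * σ2`. Otherwise `Ent (f ^ 2) ≤ ∫ (f ^ 2 * log (f ^ 2 / m ^ 2) - f ^ 2 + m ^ 2)`,
`theta_le` with `u = (f - m) / m`, `gibbs` with `w = (f - m) ^ 2`, `φ = max (log (u ^ 2)) 0`
(`∫ exp φ ≤ 1 + ∫ u ^ 2 ≤ 2`), and `dl_sq` for `f - m`. -/
theorem tight (hl : 0 ≤ lam) (H : DL p lam (1 / 5)) {f : Eu n → ℝ} (hf : Bd1 f) :
    Ent p (fun x => f x ^ 2) ≤ 200 * lam * ∫ x, ‖gradient f x‖ ^ 2 ∂p := by
  obtain ⟨m, hm⟩ := poin hl H hf
  obtain ⟨b1, e1⟩ := Ti1x.aff hf abs_one m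
  simp only [one_mul] at b1 e1
  obtain ⟨C, hC⟩ := hf.bd
  obtain ⟨C', hC'⟩ := b1.bd
  have hfm := hf.diff.continuous.measurable
  have mf : Measurable fun x => f x ^ 2 := hfm.pow_const 2
  have mw : Measurable fun x => (f x - m) ^ 2 := (hfm.sub_const m).pow_const 2
  have bf : ∀ x, |f x ^ 2| ≤ C ^ 2 := fun x => sq_le (hC x)
  have bw : ∀ x, |(f x - m) ^ 2| ≤ C' ^ 2 := fun x => sq_le (hC' x)
  have iw : Integrable (fun x => (f x - m) ^ 2) p := int_bd mw bw
  have I0 : 0 ≤ lam * ∫ x, ‖gradient f x‖ ^ 2 ∂p :=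
    mul_nonneg hl (integral_nonneg fun x => sq_nonneg _)
  have s0 : 0 ≤ ∫ x, (f x - m) ^ 2 ∂p := integral_nonneg fun x => sq_nonneg _
  rcases le_or_gt (m ^ 2) (∫ x, (f x - m) ^ 2 ∂p) with h | h
  · have h1 := dl_sq hl H hf
    have h2 : ∫ x, f x ^ 2 ∂p ≤ ∫ x, 2 * (f x - m) ^ 2 + 2 * m ^ 2 ∂p :=
      integral_mono (int_bd mf bf) ((iw.const_mul 2).add (integrable_const _))
        fun x => by nlinarith [sq_nonneg (f x - 2 * m)]
    rw [integral_add (iw.const_mul 2) (integrable_const _), integral_const_mul] at h2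
    simp only [integral_const, probReal_univ, smul_eq_mul, one_mul] at h2
    linarith
  · have m2 : 0 < m ^ 2 := s0.trans_lt h
    have m0 : m ≠ 0 := by rintro rfl; simp at m2
    obtain ⟨φ, hφ⟩ : ∃ φ : Eu n → ℝ, ∀ x, φ x = max (log ((f x - m) ^ 2 / m ^ 2)) 0 :=
      ⟨_, fun _ => rfl⟩
    have mφ : Measurable φ := by
      rw [funext hφ]; exact (mw.div_const _).log.max measurable_const
    have φ0 : ∀ x, 0 ≤ φ x := fun x => hφ x ▸ le_max_right _ _
    have eφ : ∀ x, exp (φ x) ≤ 1 + (f x - m) ^ 2 / m ^ 2 := fun x => by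
      have h0 : 0 ≤ (f x - m) ^ 2 / m ^ 2 := by positivity
      rw [hφ]
      rcases le_total (log ((f x - m) ^ 2 / m ^ 2)) 0 with h | h
      · rw [max_eq_right h, exp_zero]; linarith
      · rw [max_eq_left h]
        rcases h0.eq_or_lt with h1 | h1
        · simp [← h1]
        · rw [exp_log h1]; linarith
    have bφ : ∀ x, exp (φ x) ≤ 1 + C' ^ 2 / m ^ 2 := fun x => (eφ x).trans
      (add_le_add_right (div_le_div_of_nonneg_right ((le_abs_self _).trans (bw x)) m2.le) 1)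
    have ie : Integrable (fun x => exp (φ x)) p :=
      int_bd mφ.exp fun x => (abs_of_pos (exp_pos (φ x))).symm ▸ bφ x
    have iφ : Integrable (fun x => (f x - m) ^ 2 * φ x) p :=
      int_bd (C := C' ^ 2 * (1 + C' ^ 2 / m ^ 2)) (mw.mul mφ) fun x => by
        rw [abs_mul, abs_of_nonneg (φ0 x)]
        exact mul_le_mul (bw x) (by linarith [add_one_le_exp (φ x), bφ x]) (φ0 x) (sq_nonneg _)
    have h1 := gibbs (fun x => sq_nonneg _) iw (int_log mw bw) iφ ie
    have h2 := dl_sq hl H b1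
    simp only [e1] at h2
    have h3 : log (∫ x, exp (φ x) ∂p) ≤ 1 := by
      have h4 := integral_mono ie ((integrable_const 1).add (iw.div_const (m ^ 2))) eφ
      rw [integral_add' (integrable_const 1) (iw.div_const _), integral_div] at h4
      simp only [integral_const, probReal_univ, smul_eq_mul, one_mul] at h4
      have h5 := (div_le_one m2).2 h.le
      linarith [log_le_sub_one_of_pos (integral_exp_pos ie)]
    have h4 : ∀ x, f x ^ 2 * log (f x ^ 2) ≤ 9 * (f x - m) ^ 2 + 4 * ((f x - m) ^ 2 * φ x) +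
        (f x ^ 2 * (log (m ^ 2) + 1) - m ^ 2) := fun x => by
      have h5 := mul_le_mul_of_nonneg_left (theta_le ((f x - m) / m)) m2.le
      rw [show 1 + (f x - m) / m = f x / m by field_simp; ring, div_pow, div_pow, ← hφ] at h5
      have h6 : f x ^ 2 * log (f x ^ 2 / m ^ 2) = f x ^ 2 * (log (f x ^ 2) - log (m ^ 2)) := by
        rcases eq_or_ne (f x) 0 with h0 | h0
        · simp [h0]
        · rw [log_div (pow_ne_zero 2 h0) m2.ne']
      rw [show ∀ a, m ^ 2 * (f x ^ 2 / m ^ 2 * a - f x ^ 2 / m ^ 2 + 1) =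
          f x ^ 2 * a - f x ^ 2 + m ^ 2 from fun a => by field_simp,
        show m ^ 2 * (9 * ((f x - m) ^ 2 / m ^ 2) + 4 * ((f x - m) ^ 2 / m ^ 2 * φ x)) =
          9 * (f x - m) ^ 2 + 4 * ((f x - m) ^ 2 * φ x) by field_simp, h6] at h5
      linarith
    have i1 : Integrable (fun x => 9 * (f x - m) ^ 2 + 4 * ((f x - m) ^ 2 * φ x)) p :=
      (iw.const_mul 9).add (iφ.const_mul 4)
    have i2 : Integrable (fun x => f x ^ 2 * (log (m ^ 2) + 1)) p := (int_bd mf bf).mul_const _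
    have i3 : Integrable (fun x => f x ^ 2 * (log (m ^ 2) + 1) - m ^ 2) p :=
      i2.sub (integrable_const _)
    have h5 := integral_mono (int_log mf bf) (i1.add i3) h4
    rw [integral_add' i1 i3, integral_add (iw.const_mul 9) (iφ.const_mul 4),
      integral_sub i2 (integrable_const _), integral_const_mul, integral_const_mul,
      integral_mul_const] at h5
    simp only [integral_const, probReal_univ, smul_eq_mul, one_mul] at h5
    have h6 := young (w := ∫ x, f x ^ 2 ∂p) (log (m ^ 2)) (integral_nonneg fun x => sq_nonneg _)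
    rw [exp_log m2] at h6
    unfold Ent KK
    linarith [mul_le_mul_of_nonneg_left h3 s0]

end Vale.Agent.P245
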