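import Vale.Agent.P245.Dv
import Vale.Agent.P245.It
import Vale.Agent.P245.St1
import Vale.Agent.P245.St4
import Vale.Agent.P245.Ti2
import Vale.Agent.P245.Sg

open MeasureTheory Real
open scoped InnerProductSpace ENNReal

namespace Vale.Agent.P245

variable {n : ℕ}
theorem main_dl {μ : Measure (Eu n)} [IsProbabilityMeasure μ] (hμ : LC μ) {A : ℝ} (hA : 0 < A)
    (hs : SG μ (fun x => x) A) {J : ℕ} (hJ : 20 ≤ J) (hn : (2 / 3 : ℝ) ^ J * n ≤ 1 / 5) :
    DL μ (4 * 10 ^ 11 * A * J ^ 7) (1 / 5) := by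
  have hJ' : (20 : ℝ) ≤ J := by exact_mod_cast hJ
  have hJ0 : (0 : ℝ) < J := by linarith
  obtain ⟨l0, hl0⟩ : ∃ l0 : ℝ, l0 = 10 ^ 11 * A * J ^ 7 := ⟨_, rfl⟩
  obtain ⟨η, hη⟩ : ∃ η : ℝ, η = 1 / J := ⟨_, rfl⟩
  have hη0 : 0 < η := by rw [hη]; positivity
  have hη1 : η ≤ 1 / 20 := by rw [hη]; exact one_div_le_one_div_of_le (by norm_num) hJ'
  have hlp : 0 < l0 := by rw [hl0]; positivity
  have h1 : 10 ^ 11 * A ≤ η ^ 7 * l0 := by rw [hη, hl0]; field_simp; rfl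
  have h2 : 10 ^ 11 * A ≤ l0 := by
    refine h1.trans (mul_le_of_le_one_left hlp.le (pow_le_one₀ hη0.le (by linarith)))
  obtain ⟨u, hu⟩ : ∃ u : ℝ, u = η ^ 2 * l0 / 100 := ⟨_, rfl⟩
  have hup : 0 < u := by rw [hu]; positivity
  have h3 : u ≤ l0 / 40000 := by
    have : η ^ 2 ≤ 1 / 400 := by nlinarith
    have := mul_le_mul_of_nonneg_right this hlp.le
    rw [hu]; linarith
  have := smo_prob (p := μ) hup
  have hp := lc_smo hμ hup
  have hs' := sg_smo hup hs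
  have hS := sm_smo hμ hup hs
  obtain ⟨B, hB⟩ : ∃ B : ℝ, B = A + u / 2 := ⟨_, rfl⟩
  rw [← hB] at hs'
  have hB0 : 0 < B := by rw [hB]; positivity
  have hB1 : 18432 * B ≤ l0 := by rw [hB]; linarith
  have hf : ∀ l, 32 * B ≤ l → DL (smo μ u) l (32 * B * n / l) := fun l hl => fin_dl hp hB0 hs' hl
  have ht := tail (D := Dv (smo μ u)) hB0 (Nat.cast_nonneg n) (fun l hl => Dv_nonneg (hf l hl))
    (fun l l' hl h => Dv_mono (hf l hl) h) (fun l hl => Dv_le (hf l hl))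
    fun l hl => recA hp hB0 hs' hl
  have hi := iter (D := Dv (smo μ u)) hlp (by omega : 1 ≤ J) hη
    (fun l hl => Dv_nonneg (hf l (by linarith)))
    (fun l l' hl h => Dv_mono (hf l (by linarith)) h)
    (fun l hl => by
      have k1 := ht (16 * l) (by linarith)
      have hl0' : 0 < l := by linarith
      rw [mul_div_cancel_left₀ l (by norm_num : (16 : ℝ) ≠ 0)] at k1
      have k2 : 36864 * B / (16 * l) ≤ 1 / 8 := by
        rw [div_le_iff₀ (by positivity)]; linarith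
      have k3 := mul_le_mul_of_nonneg_right k2 (Dv_nonneg (hf l (by linarith)))
      linarith)
    fun l hl hl' => recB hp hA hη0 hη1 h1 hu hS (hf (l0 / 2) (by linarith)) hl hl'
  have h4 : Dv (smo μ u) (l0 / 2) ≤ n := by
    refine (Dv_le (hf (l0 / 2) (by linarith))).trans ?_
    rw [div_le_iff₀ (by positivity)]
    have := mul_le_mul_of_nonneg_right (by linarith : 32 * B ≤ l0 / 2) (Nat.cast_nonneg (α := ℝ) n)
    linarith
  have h5 : Dv (smo μ u) (3 * l0) ≤ 1 / 5 :=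
    hi.trans ((mul_le_mul_of_nonneg_left h4 (by positivity)).trans hn)
  have h6 := transfer hμ hup (by positivity) (Dv_dl (hf (3 * l0) (by linarith)))
  have h7 := h6.mono (lam' := 4 * 10 ^ 11 * A * J ^ 7) (by linarith)
  intro g hg
  have k1 := h7 g hg
  have k2 := mul_le_mul_of_nonneg_right h5 (hg.wt.integral_pos (q := μ)).le
  linarith

theorem exists_J (hn : 1 ≤ n) :
    ∃ J : ℕ, 20 ≤ J ∧ (2 / 3 : ℝ) ^ J * n ≤ 1 / 5 ∧ (J : ℝ) ≤ 27 * (1 + log n) := by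
  have hn' : (1 : ℝ) ≤ n := by exact_mod_cast hn
  have hl : 0 ≤ log n := log_nonneg hn'
  refine ⟨⌈3 * log n⌉₊ + 20, by omega, ?_, ?_⟩
  · have h1 : 3 * log n ≤ ⌈3 * log n⌉₊ := Nat.le_ceil _
    have h2 : (2 / 3 : ℝ) ≤ exp (-(1 / 3)) := by
      have := add_one_le_exp (-(1 / 3) : ℝ); linarith
    have h3 : (2 / 3 : ℝ) ^ ⌈3 * log n⌉₊ ≤ exp (-log n) := by
      refine (pow_le_pow_left₀ (by norm_num) h2 _).trans ?_
      rw [← exp_nat_mul]
      exact exp_le_exp.2 (by linarith)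
    rw [exp_neg, exp_log (by linarith)] at h3
    have h4 := mul_le_mul_of_nonneg_right h3 (by linarith : (0 : ℝ) ≤ n)
    rw [inv_mul_cancel₀ (by linarith)] at h4
    rw [pow_add, mul_right_comm]
    have h5 : (2 / 3 : ℝ) ^ 20 ≤ 1 / 5 := by norm_num
    calc _ ≤ 1 * (1 / 5 : ℝ) := mul_le_mul h4 h5 (by positivity) zero_le_one
      _ = _ := one_mul _
  · have := (Nat.ceil_lt_add_one (by positivity : 0 ≤ 3 * log n)).le
    push_cast
    linarith

end Vale.Agent.P245
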