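import Vale.Agent.P245.Jt
import Vale.Agent.P245.Lap
import Vale.Agent.P245.Gr

open MeasureTheory Real
open scoped InnerProductSpace ENNReal

namespace Vale.Agent.P245

variable {n : ℕ}
variable {h : ℝ} {w : Eu n → ℝ}

/-- `meas_ker`, `integral_mem`. -/
theorem gB_wt (hh : 0 < h) (hw : Wt w) : Wt (gB h w) := by
  have := fun x : Eu n => ker_prob hh x
  obtain ⟨c, C, hc, hb⟩ := hw.bd
  exact ⟨(meas_ker hh (c := fun x => x) measurable_id (F := fun q => w q.2)
    (hw.meas.comp measurable_snd).stronglyMeasurable).measurable, c, C, hc,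
    fun y => integral_mem hw.meas hb⟩

/-- `gB h w x' = ∫ y, w y * exp (⟪y - x, x' - x⟫ / h - ‖x' - x‖ ^ 2 / (2 * h)) ∂ker h x`;
differentiate at `x' = x` under the integral on the unit ball, dominated via `ker_ei`. -/
theorem gB_grad (hh : 0 < h) (hw : Wt w) (x : Eu n) :
    HasGradientAt (gB h w) (h⁻¹ • ∫ y, w y • (y - x) ∂ker h x) x := by
  have := ker_prob hh x
  obtain ⟨C, hC, hb⟩ := hw.abs_le
  set E : Eu n → Eu n → ℝ := fun x' y =>
    exp (-(2 * h)⁻¹ * ‖x' - y‖ ^ 2 - -(2 * h)⁻¹ * ‖x - y‖ ^ 2) with hE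
  have e : gB h w = fun x' => ∫ y, w y * E x' y ∂ker h x := by
    ext x'
    unfold gB
    rw [integral_ker hh, integral_ker hh]
    refine integral_congr_ae (ae_of_all _ fun y => ?_)
    have : gk h (y - x') = gk h (y - x) * E x' y := by
      unfold gk
      simp only [hE]
      rw [mul_assoc _ (exp _), ← exp_add, norm_sub_rev x', norm_sub_rev x]
      congr 2; ring
    simp only [smul_eq_mul, this]; ring
  have mE : ∀ x', Measurable (E x') := fun x' => by
    refine Continuous.measurable ?_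
    simp only [hE]; fun_prop
  have key := hasGradientAt_integral (μ := ker h x) (x₀ := x) (F := fun x' y => w y * E x' y)
    (F' := fun x' y => (w y * E x' y * h⁻¹) • (y - x'))
    (bound := fun y => C * h⁻¹ * exp ((h⁻¹ + 1) * ‖x‖) * exp ((h⁻¹ + 1) * ‖y‖))
    (fun x' => (hw.meas.mul (mE x')).aestronglyMeasurable) (by simpa [hE] using hw.integrable)
    (((hw.meas.mul (mE x)).mul_const _).smul (measurable_id.sub_const x)).aestronglyMeasurable
    (fun y x' hx => ?_) ((ker_ei hh x _).const_mul _) fun y x' _ => ?_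
  · rw [e, ← integral_smul]
    simpa [hE, smul_smul, mul_comm] using key
  · have hi := inv_pos.2 hh
    rw [Metric.mem_ball, dist_eq_norm] at hx
    have h1 : ‖y - x'‖ ≤ exp ‖x - y‖ := by
      have h2 := add_one_le_exp ‖x - y‖
      have h3 : ‖y - x'‖ ≤ ‖y - x‖ + ‖x - x'‖ := norm_sub_le_norm_sub_add_norm_sub _ _ _
      rw [norm_sub_rev x x', norm_sub_rev y x] at h3
      linarith
    have h2 : E x' y ≤ exp (h⁻¹ * ‖x - y‖) := by
      refine exp_le_exp.2 ?_
      have h3 : ‖x' - y‖ ^ 2 = ‖x' - x‖ ^ 2 + 2 * ⟪x' - x, x - y⟫_ℝ + ‖x - y‖ ^ 2 := by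
        rw [← norm_add_sq_real, sub_add_sub_cancel]
      have h4 := abs_real_inner_le_norm (x' - x) (x - y)
      have h5 : ‖x' - x‖ * ‖x - y‖ ≤ ‖x - y‖ := mul_le_of_le_one_left (norm_nonneg _) hx.le
      have h6 : -⟪x' - x, x - y⟫_ℝ ≤ ‖x - y‖ := by linarith [neg_abs_le ⟪x' - x, x - y⟫_ℝ]
      have h7 := mul_le_mul_of_nonneg_left h6 hi.le
      have h8 : 0 ≤ h⁻¹ * ‖x' - x‖ ^ 2 := by positivity
      rw [h3, mul_inv]
      nlinarith
    have h3 : 0 < E x' y := exp_pos _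
    rw [norm_smul, Real.norm_eq_abs, abs_mul, abs_mul, abs_of_pos h3, abs_of_pos hi]
    calc |w y| * E x' y * h⁻¹ * ‖y - x'‖ ≤ C * exp (h⁻¹ * ‖x - y‖) * h⁻¹ * exp ‖x - y‖ := by
          gcongr; exact hb y
      _ = C * h⁻¹ * exp ((h⁻¹ + 1) * ‖x - y‖) := by rw [add_mul, exp_add]; ring_nf
      _ ≤ C * h⁻¹ * exp ((h⁻¹ + 1) * (‖x‖ + ‖y‖)) := by gcongr; exact norm_sub_le _ _
      _ = _ := by rw [mul_add, exp_add]; ring
  · have h1 := HasGradientAt.const_mul' (HasGradientAt.exp' (HasGradientAt.sub'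
      (HasGradientAt.const_mul' (hasGradientAt_sq y x') (-(2 * h)⁻¹))
      (hasGradientAt_const x' (-(2 * h)⁻¹ * ‖x - y‖ ^ 2)))) (w y)
    have e2 : (w y * E x' y * h⁻¹) • (y - x') = w y • E x' y •
        (-(2 * h)⁻¹ • (2 : ℝ) • (x' - y) - 0) := by
      have := hh.ne'
      match_scalars <;> field_simp
    rw [e2]
    exact h1

/-- `SLC.t1v` for `slc_ker` and `ker_mean'`. -/
theorem gB_t1 (hh : 0 < h) (hw : Wt w) (x : Eu n) :
    ‖h⁻¹ • ∫ y, w y • (y - x) ∂ker h x‖ ^ 2 / gB h w x ≤ 2 / h * Ent (ker h x) w := by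
  have := ker_prob hh x
  have h1 := (slc_ker hh x).t1v hh hw
  have hW := hw.integral_pos (q := ker h x)
  have e : ∫ y, w y • (y - x) ∂ker h x = ∫ y, w y • y ∂ker h x - (∫ y, w y ∂ker h x) • x := by
    rw [← integral_smul_const, ← integral_sub (hw.integrable_smul (slc_ker hh x).integrable_id)
      (hw.integrable_smul (integrable_const x))]
    simp only [smul_sub]
  rw [ker_mean' hh, ← e] at h1
  unfold gB
  rw [div_le_iff₀ hW, norm_smul, mul_pow, Real.norm_eq_abs, sq_abs]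
  have h2 := mul_le_mul_of_nonneg_left h1 (sq_nonneg h⁻¹)
  refine h2.trans (le_of_eq ?_)
  field_simp

theorem gB_good (hh : 0 < h) (hw : Wt w) : Good (gB h w) := by
  obtain ⟨c, C, hc, hb⟩ := hw.bd
  refine ⟨gB_wt hh hw, fun y => (gB_grad hh hw y).differentiableAt,
    √(2 / h * (C * log (C / c)) * C), fun x => ?_⟩
  have := ker_prob hh x
  rw [(gB_grad hh hw x).gradient]
  refine le_sqrt_of_sq_le ?_
  have h1 := gB_t1 hh hw x
  rw [div_le_iff₀ ((gB_wt hh hw).pos x)] at h1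
  have h2 := ent_le (q := ker h x) hw.meas hc hb
  have h3 := integral_mem (q := ker h x) hw.meas hb
  have h4 := hw.ent_nonneg (q := ker h x)
  refine h1.trans (mul_le_mul (mul_le_mul_of_nonneg_left h2 (by positivity)) h3.2
    ((gB_wt hh hw).pos x).le (mul_nonneg (by positivity) (h4.trans h2)))

end Vale.Agent.P245
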