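import Vale.Agent.P245.Ch
import Vale.Agent.P245.Sm

open MeasureTheory Real
open scoped InnerProductSpace ENNReal

namespace Vale.Agent.P245

variable {n : ℕ}
variable {p : Measure (Eu n)} [IsProbabilityMeasure p] {h lam D : ℝ}
variable {g₁ g₂ : Eu n → ℝ} {v : Eu n → Eu n}

/-- With `w y = g₂ y * lik (v y) z` (a `Wt`), `mz (ker h x) g₂ v z = gB h w x` and
`h⁻¹ • Nz .. = gradient (gB h w) x` (`gB_grad`). Apply `H` to `g₁ * gB h w` (`Good.mul`),
expand the Fisher density with `gradient_mul` and bound the last term by `gB_t1`.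
The `Ent (ker h x) w` term is bounded (`ent_le`) and measurable in `x` (`meas_ker`). -/
theorem Phi_x (hh : 0 < h) (hl : 0 ≤ lam) (H : DL p lam D) (h1 : Good g₁) (h2 : Wt g₂)
    (hv : Bv v) (z : Eu n) :
    ∫ x, Phi g₁ g₂ v h lam D x z ∂p ≤
      (∫ x, g₁ x * mz (ker h x) g₂ v z ∂p) * log (∫ x, g₁ x * mz (ker h x) g₂ v z ∂p) := by
  have hw : Wt fun y => g₂ y * lik (v y) z := h2.mul (hv.wt_lik z)
  set w : Eu n → ℝ := fun y => g₂ y * lik (v y) z with hwd
  have hr := gB_good hh hw
  have hH := h1.mul hr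
  have e1 : ∀ x, mz (ker h x) g₂ v z = gB h w x := fun x => rfl
  have e2 : ∀ x, h⁻¹ • Nz (ker h x) g₂ v (fun y => y - x) z = gradient (gB h w) x := fun x =>
    (gB_grad hh hw x).gradient.symm
  have i1 : Integrable (fun x => gB h w x * ‖gradient g₁ x‖ ^ 2 / g₁ x) p := by
    simpa only [mul_div_assoc] using hr.wt.integrable_mul h1.integrable_fish
  have i2 : Integrable (fun x => 2 * ⟪gradient g₁ x, gradient (gB h w) x⟫_ℝ) p :=
    (h1.bv_grad.integrable_inner hr.bv_grad).const_mul 2
  have i3 : Integrable (fun x => 2 / h * g₁ x * Ent (ker h x) w) p := by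
    obtain ⟨c, C, hc, hb⟩ := hw.bd
    have m1 : Measurable fun x => KK (ker h x) w :=
      (meas_ker hh (c := fun x => x) measurable_id (F := fun q => w q.2 * log (w q.2))
        ((hw.meas.mul hw.meas.log).comp measurable_snd).stronglyMeasurable).measurable
    have j : Integrable (fun x => Ent (ker h x) w) p := by
      refine Integrable.of_bound (m1.sub (hr.wt.meas.mul hr.wt.meas.log)).aestronglyMeasurable
        (C * log (C / c)) (ae_of_all _ fun x => ?_)
      have := ker_prob hh x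
      rw [Real.norm_eq_abs, abs_of_nonneg hw.ent_nonneg]
      exact ent_le hw.meas hc hb
    simpa only [mul_assoc] using (h1.wt.integrable_mul j).const_mul (2 / h)
  have i12 : Integrable (fun x => gB h w x * ‖gradient g₁ x‖ ^ 2 / g₁ x +
      2 * ⟪gradient g₁ x, gradient (gB h w) x⟫_ℝ) p := i1.add i2
  have i4 : Integrable (fun x => gB h w x * ‖gradient g₁ x‖ ^ 2 / g₁ x +
      2 * ⟪gradient g₁ x, gradient (gB h w) x⟫_ℝ + 2 / h * g₁ x * Ent (ker h x) w) p := i12.add i3
  have hF := integral_mono hH.integrable_fish i4 fun x => by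
    have t1 := gB_t1 hh hw x
    rw [← (gB_grad hh hw x).gradient] at t1
    have p1 := h1.wt.pos x
    have p2 := hr.wt.pos x
    have t2 := mul_le_mul_of_nonneg_left t1 p1.le
    simp only [gradient_mul (h1.diff x) (hr.diff x)]
    rw [norm_add_sq_real, norm_smul, norm_smul, real_inner_smul_left, real_inner_smul_right,
      mul_pow, mul_pow, Real.norm_eq_abs, Real.norm_eq_abs, sq_abs, sq_abs, real_inner_comm]
    have e3 : (g₁ x ^ 2 * ‖gradient (gB h w) x‖ ^ 2 + 2 * (g₁ x * (gB h w x *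
        ⟪gradient g₁ x, gradient (gB h w) x⟫_ℝ)) + gB h w x ^ 2 * ‖gradient g₁ x‖ ^ 2) /
        (g₁ x * gB h w x) = gB h w x * ‖gradient g₁ x‖ ^ 2 / g₁ x +
        2 * ⟪gradient g₁ x, gradient (gB h w) x⟫_ℝ +
        g₁ x * (‖gradient (gB h w) x‖ ^ 2 / gB h w x) := by field_simp; ring
    rw [e3]
    linarith
  have hD := H _ hH
  have i5 := hH.wt.integrable_log (q := p)
  have i6 : Integrable (fun x => g₁ x * gB h w x * log (g₁ x * gB h w x) -
      lam / 2 * (gB h w x * ‖gradient g₁ x‖ ^ 2 / g₁ x +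
      2 * ⟪gradient g₁ x, gradient (gB h w) x⟫_ℝ + 2 / h * g₁ x * Ent (ker h x) w)) p :=
    i5.sub (i4.const_mul _)
  unfold Phi
  simp only [e1, e2]
  rw [integral_sub i6 (hH.wt.integrable.const_mul D), integral_sub i5 (i4.const_mul _),
    integral_const_mul, integral_const_mul]
  have h7 := mul_le_mul_of_nonneg_left hF (by positivity : 0 ≤ lam / 2)
  unfold Ent KK Fish at hD
  linarith

end Vale.Agent.P245
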