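import Vale.Agent.P245.Ch

open MeasureTheory Real
open scoped InnerProductSpace ENNReal

namespace Vale.Agent.P245

variable {n : ℕ}
variable {h lam D : ℝ} {g₁ g₂ : Eu n → ℝ} {v η : Eu n → Eu n}

/-- With `κ = ker h x`: `mz_int`, `mz_log_int`, `Nz_int`, `kk_lik`, `ch_lo` (which says
`sz ≤ KK (gam n) (mz κ g₂ v)`); `log (g₁ x * r) = log (g₁ x) + log r`. -/
theorem Phi_z (hh : 0 < h) (hl : 0 ≤ lam) (h1 : Wt g₁) (h2 : Wt g₂) (hv : Bv v) (x : Eu n) :
    Psi g₁ g₂ v η h lam D x ≤ ∫ z, Phi g₁ g₂ v h lam D x z ∂gam n := by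
  have := ker_prob hh x
  have := gam_prob (n := n)
  have hc := h1.pos x
  have iX : Integrable (fun y => y - x) (ker h x) :=
    (slc_ker hh x).integrable_id.sub (integrable_const x)
  obtain ⟨m1, m2⟩ := mz_int (κ := ker h x) h2 hv
  have l1 := mz_log_int (κ := ker h x) h2 hv
  obtain ⟨n1, n2⟩ := Nz_int (κ := ker h x) (X := fun y => y - x) h2 hv
    (measurable_id.sub_const x) iX
  obtain ⟨k1, k2⟩ := kk_lik (κ := ker h x) h2 hv
  have lo := ch_lo (κ := ker h x) h2 hv (η x)
  set a := gradient g₁ x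
  set c := g₁ x
  have e : ∀ z, Phi g₁ g₂ v h lam D x z =
      (c * log c - lam / 2 * (‖a‖ ^ 2 / c) - D * c) * mz (ker h x) g₂ v z +
      (c + lam / h * c) * (mz (ker h x) g₂ v z * log (mz (ker h x) g₂ v z)) -
      lam * h⁻¹ * ⟪a, Nz (ker h x) g₂ v (fun y => y - x) z⟫_ℝ -
      lam / h * c * KK (ker h x) fun y => g₂ y * lik (v y) z := fun z => by
    unfold Phi Ent
    rw [log_mul hc.ne' (mz_pos h2 hv z).ne', real_inner_smul_right]
    unfold mz
    ring
  simp only [e]
  have i1 := m1.const_mul (c * log c - lam / 2 * (‖a‖ ^ 2 / c) - D * c)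
  have i2 := l1.const_mul (c + lam / h * c)
  have i3 := (n1.const_inner (𝕜 := ℝ) a).const_mul (lam * h⁻¹)
  have i4 := k1.const_mul (lam / h * c)
  have i12 : Integrable (fun z => (c * log c - lam / 2 * (‖a‖ ^ 2 / c) - D * c) *
      mz (ker h x) g₂ v z + (c + lam / h * c) * (mz (ker h x) g₂ v z * log (mz (ker h x) g₂ v z)))
      (gam n) := i1.add i2
  have i123 : Integrable (fun z => (c * log c - lam / 2 * (‖a‖ ^ 2 / c) - D * c) *
      mz (ker h x) g₂ v z + (c + lam / h * c) * (mz (ker h x) g₂ v z * log (mz (ker h x) g₂ v z)) -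
      lam * h⁻¹ * ⟪a, Nz (ker h x) g₂ v (fun y => y - x) z⟫_ℝ) (gam n) := i12.sub i3
  rw [integral_sub i123 i4, integral_sub i12 i3, integral_add i1 i2, integral_const_mul,
    integral_const_mul, integral_const_mul, integral_const_mul, integral_inner n1, m2, n2, k2]
  have h3 : 0 ≤ c + lam / h * c := by positivity
  have h4 := mul_le_mul_of_nonneg_left lo h3
  unfold Psi sz gB
  rw [real_inner_smul_right]
  unfold KK at h4 ⊢
  simp only [a, c] at h4 ⊢
  linear_combination h4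

end Vale.Agent.P245
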