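import Vale.Agent.P245.Obs0
import Vale.Agent.P245.Obs1
import Vale.Agent.P245.Obs2
import Vale.Agent.P245.Jt2

open MeasureTheory Real
open scoped InnerProductSpace ENNReal

namespace Vale.Agent.P245

variable {n : ℕ}
variable {p : Measure (Eu n)} [IsProbabilityMeasure p] {h lam D : ℝ}
variable {g₁ g₂ : Eu n → ℝ} {v η : Eu n → Eu n}

/-- `Phi_z`, `integral_integral_swap`, `Phi_x`, `ker_mul`, `mz_log_int`. -/
theorem obs (hh : 0 < h) (hl : 0 ≤ lam) (H : DL p lam D) (h1 : Good g₁) (h2 : Wt g₂)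
    (hv : Bv v) (hP : Integrable (Psi g₁ g₂ v η h lam D) p) {G : Eu n → ℝ} (hG : Wt G)
    (hGe : ∀ y, G y = gF p h g₁ y * g₂ y) :
    ∫ x, Psi g₁ g₂ v η h lam D x ∂p ≤ KK (gam n) (mz (smo p h) G v) := by
  have := smo_prob (p := p) hh
  have := gam_prob (n := n)
  have hI := Phi_int (p := p) (lam := lam) (D := D) hh h1 h2 hv
  have e : ∀ z, ∫ x, g₁ x * mz (ker h x) g₂ v z ∂p = mz (smo p h) G v z := fun z => by
    have := (ker_mul (p := p) hh h1.wt (h2.mul (hv.wt_lik z)).integrable).2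
    simp only [smul_eq_mul] at this
    unfold mz
    simp only [this, hGe, mul_assoc]
  calc ∫ x, Psi g₁ g₂ v η h lam D x ∂p ≤ ∫ x, ∫ z, Phi g₁ g₂ v h lam D x z ∂gam n ∂p :=
        integral_mono hP hI.integral_prod_left fun x => Phi_z hh hl h1.wt h2 hv x
    _ = ∫ z, ∫ x, Phi g₁ g₂ v h lam D x z ∂p ∂gam n := integral_integral_swap hI
    _ ≤ KK (gam n) (mz (smo p h) G v) :=
        integral_mono hI.integral_prod_right (mz_log_int hG hv) fun z => by
          have := Phi_x hh hl H h1 h2 hv z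
          rwa [e] at this

end Vale.Agent.P245
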