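import Vale.Agent.P245.Ch
import Vale.Agent.P245.Jt

open MeasureTheory Real
open scoped InnerProductSpace ENNReal

namespace Vale.Agent.P245

variable {n : ℕ}
variable {p : Measure (Eu n)} [IsProbabilityMeasure p] {h lam D : ℝ}
variable {g₁ g₂ : Eu n → ℝ} {v : Eu n → Eu n}

namespace Obs0x

/-- measurable with an exponential bound in the second variable -/
def Eb (F : Eu n × Eu n → ℝ) : Prop :=
  Measurable F ∧ ∃ C c : ℝ, 0 ≤ C ∧ 0 ≤ c ∧ ∀ q, |F q| ≤ C * exp (c * ‖q.2‖)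

variable {F F' : Eu n × Eu n → ℝ}

theorem Eb.mul (h : Eb F) (h' : Eb F') : Eb fun q => F q * F' q := by
  obtain ⟨m, C, c, hC, hc, h⟩ := h
  obtain ⟨m', C', c', hC', hc', h'⟩ := h'
  refine ⟨m.mul m', C * C', c + c', by positivity, by positivity, fun q => ?_⟩
  rw [abs_mul, add_mul, exp_add, mul_mul_mul_comm]
  exact mul_le_mul (h q) (h' q) (abs_nonneg _) (by positivity)

theorem Eb.add (h : Eb F) (h' : Eb F') : Eb fun q => F q + F' q := by
  obtain ⟨m, C, c, hC, hc, h⟩ := h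
  obtain ⟨m', C', c', hC', hc', h'⟩ := h'
  refine ⟨m.add m', C + C', c + c', by positivity, by positivity, fun q => ?_⟩
  have h0 := norm_nonneg q.2
  have h1 : exp (c * ‖q.2‖) ≤ exp ((c + c') * ‖q.2‖) := by gcongr; linarith
  have h2 : exp (c' * ‖q.2‖) ≤ exp ((c + c') * ‖q.2‖) := by gcongr; linarith
  linarith [abs_add_le (F q) (F' q), h q, h' q, mul_le_mul_of_nonneg_left h1 hC,
    mul_le_mul_of_nonneg_left h2 hC']

theorem eb_bdd (m : Measurable F) {C : ℝ} (h : ∀ q, |F q| ≤ C) : Eb F :=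
  ⟨m, C, 0, (abs_nonneg _).trans (h 0), le_rfl, fun q => by simpa using h q⟩

theorem eb_const (c : ℝ) : Eb fun _ : Eu n × Eu n => c :=
  eb_bdd measurable_const fun _ => le_rfl

theorem Eb.sub (h : Eb F) (h' : Eb F') : Eb fun q => F q - F' q := by
  simpa only [neg_one_mul, ← sub_eq_add_neg] using h.add ((eb_const (-1)).mul h')

theorem eb_wt {g : Eu n → ℝ} (hg : Wt g) : Eb fun q : Eu n × Eu n => g q.1 := by
  obtain ⟨C, _, h⟩ := hg.abs_le
  exact eb_bdd (hg.meas.comp measurable_fst) fun q => h q.1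

theorem eb_log (m : Measurable F) {c C B : ℝ} (hc : 0 < c) (hB : 0 ≤ B)
    (h1 : ∀ q, c * exp (-(B * ‖q.2‖) - B ^ 2 / 2) ≤ F q ∧ F q ≤ C * exp (B * ‖q.2‖)) :
    Eb fun q => log (F q) :=
  ⟨m.log, |log c| + |log C| + B ^ 2 / 2 + B, 1, by positivity, zero_le_one, fun q => by
    rw [one_mul]; exact abs_log_le_of hc hB (norm_nonneg _) (h1 q).1 (h1 q).2⟩

theorem meas_w (h2 : Wt g₂) (hv : Bv v) :
    Measurable fun r : (Eu n × Eu n) × Eu n => g₂ r.2 * lik (v r.2) r.1.2 :=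
  (h2.meas.comp measurable_snd).mul
    (meas_lik (hv.meas.comp measurable_snd) (measurable_snd.comp measurable_fst))

theorem meas_mz (hh : 0 < h) (h2 : Wt g₂) (hv : Bv v) :
    Measurable fun q : Eu n × Eu n => mz (ker h q.1) g₂ v q.2 :=
  (meas_ker hh measurable_fst (meas_w h2 hv).stronglyMeasurable).measurable

theorem eb_mz (hh : 0 < h) (h2 : Wt g₂) (hv : Bv v) :
    Eb fun q : Eu n × Eu n => mz (ker h q.1) g₂ v q.2 := by
  obtain ⟨c, C, hc, h1⟩ := h2.bd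
  obtain ⟨B, hB, h3⟩ := hv.bd'
  refine ⟨meas_mz hh h2 hv, C, B, hc.le.trans ((h1 0).1.trans (h1 0).2), hB, fun q => ?_⟩
  have := ker_prob hh q.1
  rw [abs_of_pos (mz_pos h2 hv _)]
  exact (mz_bd h2.meas hv.meas hc h1 h3 _).2

theorem eb_log_mz (hh : 0 < h) (h1 : Wt g₁) (h2 : Wt g₂) (hv : Bv v) :
    Eb fun q : Eu n × Eu n => log (g₁ q.1 * mz (ker h q.1) g₂ v q.2) := by
  obtain ⟨c', C', hc', h1'⟩ := h1.bd
  obtain ⟨c, C, hc, h4⟩ := h2.bd
  obtain ⟨B, hB, h3⟩ := hv.bd'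
  refine eb_log ((h1.meas.comp measurable_fst).mul (meas_mz hh h2 hv)) (C := C' * C)
    (mul_pos hc' hc) hB fun q => ?_
  have := ker_prob hh q.1
  obtain ⟨h5, h6⟩ := mz_bd (κ := ker h q.1) h2.meas hv.meas hc h4 h3 q.2
  rw [mul_assoc, mul_assoc]
  exact ⟨mul_le_mul (h1' _).1 h5 (by positivity) (h1.pos _).le,
    mul_le_mul (h1' _).2 h6 (mz_pos h2 hv _).le ((h1.pos _).le.trans (h1' q.1).2)⟩

theorem eb_KK (hh : 0 < h) (h2 : Wt g₂) (hv : Bv v) :
    Eb fun q : Eu n × Eu n => KK (ker h q.1) fun y => g₂ y * lik (v y) q.2 := by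
  obtain ⟨c, C, hc, h1⟩ := h2.bd
  obtain ⟨B, hB, h3⟩ := hv.bd'
  have hC : 0 ≤ C := hc.le.trans ((h1 0).1.trans (h1 0).2)
  refine ⟨(meas_ker hh measurable_fst
    ((meas_w h2 hv).mul (meas_w h2 hv).log).stronglyMeasurable).measurable,
    C * (|log c| + |log C| + B ^ 2 / 2 + B), B + 1, by positivity, by positivity, fun q => ?_⟩
  have := ker_prob hh q.1
  refine (norm_integral_le_of_norm_le_const (μ := ker h q.1)
    (C := C * (|log c| + |log C| + B ^ 2 / 2 + B) * exp ((B + 1) * ‖q.2‖))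
    (f := fun y => g₂ y * lik (v y) q.2 * log (g₂ y * lik (v y) q.2))
    (ae_of_all _ fun y => ?_)).trans (by rw [probReal_univ, mul_one])
  have h4 : c * exp (-(B * ‖q.2‖) - B ^ 2 / 2) ≤ g₂ y * lik (v y) q.2 :=
    mul_le_mul (h1 y).1 (lik_le (h3 y) _).1 (exp_pos _).le (h2.pos y).le
  have h5 : g₂ y * lik (v y) q.2 ≤ C * exp (B * ‖q.2‖) :=
    mul_le_mul (h1 y).2 (lik_le (h3 y) _).2 (lik_pos _ _).le hC
  have h6 := mul_pos (h2.pos y) (lik_pos (v y) q.2)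
  rw [Real.norm_eq_abs, abs_mul, abs_of_pos h6, add_mul B, one_mul, exp_add, mul_mul_mul_comm]
  exact mul_le_mul h5 (abs_log_le_of hc hB (norm_nonneg _) h4 h5) (abs_nonneg _) (by positivity)

theorem eb_Nz (hh : 0 < h) (h1 : Good g₁) (h2 : Wt g₂) (hv : Bv v) :
    Eb fun q : Eu n × Eu n =>
      ⟪gradient g₁ q.1, h⁻¹ • Nz (ker h q.1) g₂ v (fun y => y - q.1) q.2⟫_ℝ := by
  obtain ⟨C, B, hC, hB, -, h3⟩ := wl_le h2 hv
  obtain ⟨L, hL, h4⟩ := h1.bv_grad.bd'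
  have hM : 0 ≤ ∫ w : Eu n, ‖w‖ ∂ker h 0 := integral_nonneg fun _ => norm_nonneg _
  refine ⟨((measurable_gradient g₁).comp measurable_fst).inner
    ((meas_ker hh measurable_fst ((meas_w h2 hv).smul
      (measurable_snd.sub (measurable_fst.comp measurable_fst))).stronglyMeasurable).measurable.const_smul
        h⁻¹), L * (h⁻¹ * (C * ∫ w : Eu n, ‖w‖ ∂ker h 0)), B, by positivity, hB, fun q => ?_⟩
  have := ker_prob hh q.1
  have h5 : ‖Nz (ker h q.1) g₂ v (fun y => y - q.1) q.2‖ ≤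
      C * exp (B * ‖q.2‖) * ∫ w : Eu n, ‖w‖ ∂ker h 0 := by
    have e : ∫ w : Eu n, ‖w‖ ∂ker h 0 = ∫ y, ‖y - q.1‖ ∂ker h q.1 := by
      rw [ker_shift hh q.1]
      simp
    rw [e, ← integral_const_mul]
    refine norm_integral_le_of_norm_le
      (((slc_ker hh q.1).integrable_id.sub (integrable_const _)).norm.const_mul _)
      (ae_of_all _ fun y => ?_)
    rw [norm_smul, Real.norm_eq_abs]
    exact mul_le_mul_of_nonneg_right (h3 _ _) (norm_nonneg _)
  refine (abs_real_inner_le_norm _ _).trans ?_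
  rw [norm_smul, Real.norm_eq_abs, abs_of_pos (inv_pos.2 hh)]
  calc _ ≤ L * (h⁻¹ * (C * exp (B * ‖q.2‖) * ∫ w : Eu n, ‖w‖ ∂ker h 0)) := by gcongr; exact h4 _
    _ = _ := by ring

end Obs0x

open Obs0x

/-- Joint measurability by `meas_ker` (with `α = Eu n × Eu n`, `c = Prod.fst`), and a bound
`|Phi x z| ≤ C * exp (c * ‖z‖)` uniform in `x` (`mz_bd`, `lik_le`, `ent_le`, `Wt.ent_nonneg`,
`∫ ‖y - x‖ ∂ker h x = ∫ ‖w‖ ∂ker h 0` by `ker_shift`); finish with `integrable_prod_gam`. -/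
theorem Phi_int (hh : 0 < h) (h1 : Good g₁) (h2 : Wt g₂) (hv : Bv v) :
    Integrable (fun q : Eu n × Eu n => Phi g₁ g₂ v h lam D q.1 q.2) (p.prod (gam n)) := by
  have a1 := eb_wt h1.wt
  have a2 := eb_mz hh h2 hv
  have a3 : Eb fun q : Eu n × Eu n => ‖gradient g₁ q.1‖ := by
    obtain ⟨L, h4⟩ := h1.lip
    exact eb_bdd ((measurable_gradient g₁).comp measurable_fst).norm fun q => by
      rw [abs_norm]; exact h4 _
  have a4 := eb_log_mz hh Wt.one h2 hv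
  simp only [one_mul] at a4
  have a5 : Eb fun q : Eu n × Eu n => Phi g₁ g₂ v h lam D q.1 q.2 := by
    have := (((a1.mul a2).mul (eb_log_mz hh h1.wt h2 hv)).sub ((eb_const (lam / 2)).mul
      ((((a2.mul (a3.mul a3)).mul (eb_wt h1.wt.inv)).add
        ((eb_const 2).mul (eb_Nz hh h1 h2 hv))).add
        (((eb_const (2 / h)).mul a1).mul ((eb_KK hh h2 hv).sub (a2.mul a4)))))).sub
      ((eb_const D).mul (a1.mul a2))
    convert this using 2 with q
    unfold Phi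
    rw [sq, div_eq_mul_inv _ (g₁ q.1)]
    rfl
  obtain ⟨m, C, c, -, -, a6⟩ := a5
  exact integrable_prod_gam m.aestronglyMeasurable (integrable_const C) a6

end Vale.Agent.P245
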