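import Vale.Agent.P245.Gib
import Vale.Agent.P230.PLw

open MeasureTheory Real
open scoped InnerProductSpace ENNReal

namespace Vale.Agent.P245

variable {n : ℕ} {q : Measure (Eu n)} {s : ℝ}

lemma SLC.int_of_le (hq : SLC q s) {f : Eu n → ℝ} (hf : Measurable f) {C c : ℝ}
    (h : ∀ x, |f x| ≤ C * exp (c * ‖x‖)) : Integrable f q :=
  ((hq.ei c).const_mul C).mono' hf.aestronglyMeasurable (ae_of_all _ h)

lemma lip_abs_le {ψ : Eu n → ℝ} {L : ℝ} (hL : ∀ x y, |ψ x - ψ y| ≤ L * ‖x - y‖) (x : Eu n) :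
    |ψ x| ≤ |ψ 0| + L * ‖x‖ := by
  have h1 := hL x 0
  have h2 := abs_sub_abs_le_abs_sub (ψ x) (ψ 0)
  simp only [sub_zero] at h1
  linarith

lemma lip_cont {ψ : Eu n → ℝ} {L : ℝ} (hL : ∀ x y, |ψ x - ψ y| ≤ L * ‖x - y‖) :
    Continuous ψ := by
  refine (LipschitzWith.of_dist_le_mul (K := ⟨|L|, abs_nonneg _⟩) fun x y => ?_).continuous
  rw [dist_eq_norm, dist_eq_norm]
  exact (hL x y).trans (mul_le_mul_of_nonneg_right (le_abs_self _) (norm_nonneg _))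

lemma SLC.int_exp (hq : SLC q s) {ψ : Eu n → ℝ} (hψ : Measurable ψ) {C L : ℝ}
    (h : ∀ x, ψ x ≤ C + L * ‖x‖) : Integrable (fun x => exp (ψ x)) q := by
  refine hq.int_of_le hψ.exp (C := exp C) (c := L) fun x => ?_
  rw [abs_of_pos (exp_pos _), ← exp_add]
  exact exp_le_exp.2 (h x)

lemma lint_exp {r φ : Eu n → ℝ} (hr : Measurable r) (hr0 : ∀ x, 0 ≤ r x) (hφ : Measurable φ)
    (hi : Integrable (fun x => exp (φ x)) (volume.withDensity fun x => ENNReal.ofReal (r x))) :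
    ∫⁻ x, ENNReal.ofReal (r x * exp (φ x)) =
      ENNReal.ofReal (∫ x, exp (φ x) ∂(volume.withDensity fun x => ENNReal.ofReal (r x))) := by
  rw [ofReal_integral_eq_lintegral_ofReal hi (ae_of_all _ fun x => (exp_pos _).le),
    lintegral_withDensity_eq_lintegral_mul _ hr.ennreal_ofReal hφ.exp.ennreal_ofReal]
  refine lintegral_congr fun x => ?_
  simp [ENNReal.ofReal_mul (hr0 x)]

lemma SLC.pl (hq : SLC q s) {a b : ℝ} (ha : 0 < a) (hb : 0 < b) (hab : a + b = 1)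
    {φ ψ χ : Eu n → ℝ} (hφ : Measurable φ) (hψ : Measurable ψ) (hχ : Measurable χ)
    (iφ : Integrable (fun x => exp (φ x)) q) (iψ : Integrable (fun x => exp (ψ x)) q)
    (iχ : Integrable (fun x => exp (χ x)) q)
    (H : ∀ x y, a * φ x + b * ψ y - a * b * ‖x - y‖ ^ 2 / (2 * s) ≤ χ (a • x + b • y)) :
    a * log (∫ x, exp (φ x) ∂q) + b * log (∫ x, exp (ψ x) ∂q) ≤ log (∫ x, exp (χ x) ∂q) := by
  have := hq.prob
  have p1 : 0 < ∫ x, exp (φ x) ∂q := integral_exp_pos iφ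
  have p2 : 0 < ∫ x, exp (ψ x) ∂q := integral_exp_pos iψ
  have p3 : 0 < ∫ x, exp (χ x) ∂q := integral_exp_pos iχ
  obtain ⟨r, hr, hr0, rfl, hs⟩ := hq.dens
  have key := P230.plw_euclidean n a b ha hb hab
    (fun x => ENNReal.ofReal (r x * exp (φ x))) (fun x => ENNReal.ofReal (r x * exp (ψ x)))
    (fun x => ENNReal.ofReal (r x * exp (χ x))) (hr.mul hφ.exp).ennreal_ofReal
    (hr.mul hψ.exp).ennreal_ofReal (hr.mul hχ.exp).ennreal_ofReal fun x y => by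
      have n1 : 0 ≤ r x * exp (φ x) := mul_nonneg (hr0 x) (exp_pos _).le
      have n2 : 0 ≤ r y * exp (ψ y) := mul_nonneg (hr0 y) (exp_pos _).le
      rw [ENNReal.ofReal_rpow_of_nonneg n1 ha.le, ENNReal.ofReal_rpow_of_nonneg n2 hb.le,
        ← ENNReal.ofReal_mul (rpow_nonneg n1 _)]
      refine ENNReal.ofReal_le_ofReal ?_
      rw [mul_rpow (hr0 x) (exp_pos _).le, mul_rpow (hr0 y) (exp_pos _).le, ← exp_mul, ← exp_mul]
      have h1 := hs a b ha hb hab x y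
      have h2 := exp_le_exp.2 (H x y)
      have e : r x ^ a * exp (φ x * a) * (r y ^ b * exp (ψ y * b)) =
          r x ^ a * r y ^ b * exp (a * b * ‖x - y‖ ^ 2 / (2 * s)) *
            exp (a * φ x + b * ψ y - a * b * ‖x - y‖ ^ 2 / (2 * s)) := by
        rw [mul_assoc (r x ^ a * r y ^ b), ← exp_add, mul_mul_mul_comm, ← exp_add]
        congr 2; ring
      rw [e]
      exact mul_le_mul h1 h2 (exp_pos _).le (hr0 _)
  rw [lint_exp hr hr0 hφ iφ, lint_exp hr hr0 hψ iψ, lint_exp hr hr0 hχ iχ,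
    ENNReal.ofReal_rpow_of_nonneg p1.le ha.le, ENNReal.ofReal_rpow_of_nonneg p2.le hb.le,
    ← ENNReal.ofReal_mul (rpow_nonneg p1.le _), ENNReal.ofReal_le_ofReal_iff p3.le] at key
  have h3 := log_le_log (mul_pos (rpow_pos_of_pos p1 a) (rpow_pos_of_pos p2 b)) key
  rwa [log_mul (rpow_pos_of_pos p1 a).ne' (rpow_pos_of_pos p2 b).ne', log_rpow p1,
    log_rpow p2] at h3

end Vale.Agent.P245
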