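import Vale.Agent.P245.Jt2
import Vale.Agent.P245.Lap

open MeasureTheory Real
open scoped InnerProductSpace ENNReal

namespace Vale.Agent.P245

variable {n : ℕ}
variable {μ : Measure (Eu n)} [IsProbabilityMeasure μ] {u : ℝ}

namespace St3X

lemma gk_add (hu : 0 < u) (x d x' : Eu n) :
    gk u (x + d - x') * exp (‖x + d‖ ^ 2 / (2 * u)) =
      exp (‖x‖ ^ 2 / (2 * u)) * (gk u (x - x') * exp (u⁻¹ * ⟪d, x'⟫_ℝ)) := by
  unfold gk
  generalize (2 * π * u) ^ (-(n : ℝ) / 2) = c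
  rw [mul_assoc, mul_assoc, mul_left_comm _ c, ← exp_add, ← exp_add, ← exp_add]
  congr 2
  rw [norm_sub_sq_real, norm_sub_sq_real, inner_add_left]
  field_simp
  ring

lemma tilt_eq (hu : 0 < u) (x d : Eu n) :
    Nk μ u (x + d) * exp (‖x + d‖ ^ 2 / (2 * u)) =
      (Nk μ u x * exp (‖x‖ ^ 2 / (2 * u))) * ∫ x', exp (u⁻¹ * ⟪d, x'⟫_ℝ) ∂post μ u x := by
  rw [integral_post hu, smul_eq_mul, mul_comm (Nk μ u x), mul_assoc,
    mul_inv_cancel_left₀ (Nk_pos hu x).ne', ← integral_const_mul]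
  unfold Nk
  rw [← integral_mul_const]
  simp only [gk_add hu, smul_eq_mul]

lemma lip (hu : 0 < u) (d x y : Eu n) :
    |u⁻¹ * ⟪d, x⟫_ℝ - u⁻¹ * ⟪d, y⟫_ℝ| ≤ u⁻¹ * ‖d‖ * ‖x - y‖ := by
  rw [← mul_sub, ← inner_sub_right, abs_mul, abs_of_pos (inv_pos.2 hu), mul_assoc]
  exact mul_le_mul_of_nonneg_left (abs_real_inner_le_norm _ _) (inv_pos.2 hu).le

lemma mean (hu : 0 < u) (d x : Eu n) :
    ∫ x', u⁻¹ * ⟪d, x'⟫_ℝ ∂post μ u x = u⁻¹ * ⟪d, bar μ u x⟫_ℝ := by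
  rw [integral_const_mul, integral_inner (post_integrable_id hu x)]
  rfl

/-- The potential `W`. -/
noncomputable def W (μ : Measure (Eu n)) (u : ℝ) (x : Eu n) : ℝ :=
  log (Nk μ u x * exp (‖x‖ ^ 2 / (2 * u)))

lemma W_bd (hμ : LC μ) (hu : 0 < u) (x d : Eu n) :
    W μ u x + u⁻¹ * ⟪d, bar μ u x⟫_ℝ ≤ W μ u (x + d) ∧
      W μ u (x + d) ≤ W μ u x + (u⁻¹ * ⟪d, bar μ u x⟫_ℝ + u⁻¹ * ‖d‖ ^ 2 / 2) := by
  have := post_prob (p := μ) hu x
  obtain ⟨i1, i2, h3⟩ := (slc_post hμ hu x).lap hu (ψ := fun x' => u⁻¹ * ⟪d, x'⟫_ℝ)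
    (L := u⁻¹ * ‖d‖) (by positivity) (lip hu d)
  have h4 := exp_integral_le i1 i2
  rw [mean hu] at h3 h4
  have hp : 0 < Nk μ u x * exp (‖x‖ ^ 2 / (2 * u)) := mul_pos (Nk_pos hu x) (exp_pos _)
  have hI : 0 < ∫ x', exp (u⁻¹ * ⟪d, x'⟫_ℝ) ∂post μ u x := (exp_pos _).trans_le h4
  unfold W
  rw [tilt_eq hu, log_mul hp.ne' hI.ne']
  have e : u * (u⁻¹ * ‖d‖) ^ 2 / 2 = u⁻¹ * ‖d‖ ^ 2 / 2 := by field_simp
  rw [e] at h3
  constructor
  · have := (le_log_iff_exp_le hI).2 h4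
    linarith
  · have := (log_le_iff_le_exp hI).2 h3
    linarith

lemma half (hμ : LC μ) (hu : 0 < u) (x y : Eu n) :
    W μ u x - W μ u y + u⁻¹ * ⟪y - x, bar μ u x⟫_ℝ + u⁻¹ * ‖bar μ u x - bar μ u y‖ ^ 2 / 2
      ≤ 0 := by
  set d := bar μ u x - bar μ u y with hd
  have h1 := (W_bd hμ hu x (y + d - x)).1
  have h2 := (W_bd hμ hu y d).2
  rw [add_sub_cancel] at h1
  have e1 : ⟪y + d - x, bar μ u x⟫_ℝ = ⟪y - x, bar μ u x⟫_ℝ + ⟪d, bar μ u x⟫_ℝ := by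
    rw [← inner_add_left]; congr 1; abel
  have e2 : ⟪d, bar μ u x⟫_ℝ = ⟪d, bar μ u y⟫_ℝ + ‖d‖ ^ 2 := by
    rw [← real_inner_self_eq_norm_sq, ← inner_add_right]; congr 1; rw [hd]; abel
  rw [e1, e2] at h1
  linarith

end St3X

lemma measurable_bar (hu : 0 < u) : Measurable (bar μ u) :=
  (meas_post (p := μ) hu (F := fun q => q.1) measurable_fst.stronglyMeasurable).measurable

/-- Let `W x = log (Nk μ u x) + ‖x‖ ^ 2 / (2 * u)`. Then
`W (x + d) - W x = log ∫ exp (⟪d, x'⟫ / u) ∂post μ u x`, which lies between `⟪d, bar x⟫ / u`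
(`exp_integral_le`) and `⟪d, bar x⟫ / u + ‖d‖ ^ 2 / (2 * u)` (`SLC.lap`, `slc_post`).
Compare `W (y + d)` from `y` (upper) and from `x` (lower) with `d = bar x - bar y`; symmetrize. -/
theorem bar_firm (hμ : LC μ) (hu : 0 < u) (x y : Eu n) :
    ‖bar μ u x - bar μ u y‖ ^ 2 ≤ ⟪bar μ u x - bar μ u y, x - y⟫_ℝ := by
  have h1 := St3X.half hμ hu x y
  have h2 := St3X.half hμ hu y x
  rw [norm_sub_rev (bar μ u y)] at h2
  have e : ⟪bar μ u x - bar μ u y, x - y⟫_ℝ =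
      -(⟪y - x, bar μ u x⟫_ℝ + ⟪x - y, bar μ u y⟫_ℝ) := by
    rw [← neg_sub x y, inner_neg_left, real_inner_comm, inner_sub_right]; ring
  have h3 : u⁻¹ * (‖bar μ u x - bar μ u y‖ ^ 2 +
      (⟪y - x, bar μ u x⟫_ℝ + ⟪x - y, bar μ u y⟫_ℝ)) ≤ 0 := by linarith
  have h4 := nonpos_of_mul_nonpos_right h3 (inv_pos.2 hu)
  linarith

theorem bar_lip (hμ : LC μ) (hu : 0 < u) (x y : Eu n) :
    ‖bar μ u x - bar μ u y‖ ≤ ‖x - y‖ := by
  have h1 := (bar_firm hμ hu x y).trans (real_inner_le_norm _ _)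
  rcases (norm_nonneg (bar μ u x - bar μ u y)).eq_or_lt with h | h
  · rw [← h]; exact norm_nonneg _
  · rw [sq] at h1
    exact le_of_mul_le_mul_left h1 h

theorem bar_refl (hμ : LC μ) (hu : 0 < u) (x y : Eu n) :
    ‖((2 : ℝ) • bar μ u x - x) - ((2 : ℝ) • bar μ u y - y)‖ ≤ ‖x - y‖ := by
  have h1 := bar_firm hμ hu x y
  have e : ((2 : ℝ) • bar μ u x - x) - ((2 : ℝ) • bar μ u y - y) =
      (2 : ℝ) • (bar μ u x - bar μ u y) - (x - y) := by module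
  refine (sq_le_sq₀ (norm_nonneg _) (norm_nonneg _)).1 ?_
  rw [e, norm_sub_sq_real, norm_smul, real_inner_smul_left, mul_pow, Real.norm_eq_abs, sq_abs]
  linarith

/-- Jensen (`exp_integral_le`, `post_ei`) and `post_smo`. -/
theorem bar_sg (hu : 0 < u) {A : ℝ} (hs : SG μ (fun x => x) A) : SG (smo μ u) (bar μ u) A := by
  intro θ
  obtain ⟨i1, h1⟩ := hs θ
  obtain ⟨i2, h2⟩ := post_smo hu i1
  have key : ∀ y, exp ⟪θ, bar μ u y⟫_ℝ ≤ ∫ x, exp ⟪θ, x⟫_ℝ ∂post μ u y := fun y => by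
    have := post_prob (p := μ) hu y
    have i3 : Integrable (fun x => exp ⟪θ, x⟫_ℝ) (post μ u y) := by
      refine (post_ei hu y ‖θ‖).mono'
        (measurable_const.inner measurable_id).exp.aestronglyMeasurable (ae_of_all _ fun x => ?_)
      rw [Real.norm_eq_abs, abs_of_pos (exp_pos _)]
      exact exp_le_exp.2 (real_inner_le_norm _ _)
    have h4 := exp_integral_le ((post_integrable_id hu y).const_inner θ) i3
    rw [integral_inner (post_integrable_id hu y)] at h4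
    exact h4
  have i4 : Integrable (fun y => exp ⟪θ, bar μ u y⟫_ℝ) (smo μ u) := by
    refine i2.mono' (measurable_const.inner (measurable_bar hu)).exp.aestronglyMeasurable
      (ae_of_all _ fun y => ?_)
    rw [Real.norm_eq_abs, abs_of_pos (exp_pos _)]
    exact key y
  exact ⟨i4, (integral_mono i4 i2 key).trans (h2.trans_le h1)⟩

end Vale.Agent.P245
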