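import Vale.Agent.P245.Gib

open MeasureTheory Real
open scoped InnerProductSpace ENNReal

namespace Vale.Agent.P245

variable {n : ℕ}
variable {p : Measure (Eu n)} [IsProbabilityMeasure p] {lam D : ℝ}

namespace Ti0x

lemma int_bd {f : Eu n → ℝ} (hm : Measurable f) {C : ℝ} (h : ∀ x, |f x| ≤ C) : Integrable f p :=
  Integrable.of_bound hm.aestronglyMeasurable C (ae_of_all _ h)

lemma int_log {w : Eu n → ℝ} (hm : Measurable w) {C : ℝ} (h : ∀ x, |w x| ≤ C) :
    Integrable (fun x => w x * log (w x)) p := by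
  obtain ⟨M, hM⟩ := (isCompact_Icc (a := -C) (b := C)).exists_bound_of_continuousOn
    continuous_mul_log.continuousOn
  exact int_bd (hm.mul hm.log) fun x => hM _ (abs_le.1 (h x))

lemma grad_comp {F : ℝ → ℝ} {f : Eu n → ℝ} {c : ℝ} {x : Eu n} (hF : HasDerivAt F c (f x))
    (hf : DifferentiableAt ℝ f x) : gradient (fun x => F (f x)) x = c • gradient f x := by
  unfold gradient
  rw [show fderiv ℝ (fun x => F (f x)) x = _ from (hF.comp_hasFDerivAt x hf.hasFDerivAt).fderiv]
  simp

lemma sq_le {a C : ℝ} (h : |a| ≤ C) : |a ^ 2| ≤ C ^ 2 := by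
  rw [abs_pow]; gcongr

lemma int_grad {f : Eu n → ℝ} (hf : Bd1 f) : Integrable (fun x => ‖gradient f x‖ ^ 2) p :=
  (⟨measurable_gradient f, hf.lip⟩ : Bv (gradient f)).integrable_sq

lemma dl_gen (hl : 0 ≤ lam) (H : DL p lam D) {w u : Eu n → ℝ} {C L : ℝ} (hd : Differentiable ℝ w)
    (h0 : ∀ x, 0 ≤ w x) (hb : ∀ x, |w x| ≤ C) (hL : ∀ x, ‖gradient w x‖ ≤ L) (u0 : ∀ x, 0 ≤ u x)
    (hu : ∀ x, ‖gradient w x‖ ^ 2 ≤ w x * u x) (iu : Integrable u p) :
    Ent p w ≤ lam / 2 * (∫ x, u x ∂p) + D * ∫ x, w x ∂p := by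
  have hm := hd.continuous.measurable
  have iw : Integrable w p := int_bd hm hb
  have key : ∀ ε : ℝ, 0 < ε → KK p w + ε * log ε - ((∫ x, w x ∂p) + ε) * log ((∫ x, w x ∂p) + ε)
      - D * ((∫ x, w x ∂p) + ε) ≤ lam / 2 * ∫ x, u x ∂p := fun ε hε => by
    have e : ∀ x, gradient (fun x => w x + ε) x = gradient w x := fun x => by
      simpa using grad_comp ((hasDerivAt_id (w x)).add_const ε) (hd x)
    have hg : Good fun x => w x + ε :=
      ⟨⟨hm.add_const ε, ε, C + ε, hε, fun x => ⟨by linarith [h0 x], by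
        linarith [(abs_le.1 (hb x)).2]⟩⟩, hd.add_const ε, L, fun x => (e x).symm ▸ hL x⟩
    have h1 := H _ hg
    have h2 : Fish p (fun x => w x + ε) ≤ ∫ x, u x ∂p := by
      refine integral_mono hg.integrable_fish iu fun x => ?_
      simp only [e]
      rw [div_le_iff₀ (hg.wt.pos x)]
      nlinarith [hu x, mul_nonneg (u0 x) hε.le]
    have h3 : ∫ x, w x + ε ∂p = (∫ x, w x ∂p) + ε := by
      rw [integral_add iw (integrable_const _)]; simp
    have h4 : KK p w + ε * log ε ≤ KK p fun x => w x + ε := by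
      have : KK p w + ε * log ε = ∫ x, w x * log (w x) + ε * log ε ∂p := by
        rw [integral_add (int_log hm hb) (integrable_const _)]; simp [KK]
      rw [this]
      refine integral_mono ((int_log hm hb).add (integrable_const _)) hg.wt.integrable_log
        fun x => ?_
      simp only [add_mul]
      refine add_le_add ?_ (mul_le_mul_of_nonneg_left (log_le_log hε (by linarith [h0 x])) hε.le)
      rcases (h0 x).eq_or_lt with h | h
      · simp [← h]
      · exact mul_le_mul_of_nonneg_left (log_le_log h (by linarith)) h.le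
    unfold Ent at h1
    rw [h3] at h1
    linarith [mul_le_mul_of_nonneg_left h2 (show 0 ≤ lam / 2 by positivity)]
  have hc : Continuous fun ε : ℝ => KK p w + ε * log ε -
      ((∫ x, w x ∂p) + ε) * log ((∫ x, w x ∂p) + ε) - D * ((∫ x, w x ∂p) + ε) :=
    ((continuous_const.add continuous_mul_log).sub
      (continuous_mul_log.comp (continuous_const.add continuous_id))).sub (by fun_prop)
  have := le_of_tendsto ((hc.tendsto 0).mono_left (nhdsWithin_le_nhds (s := Set.Ioi 0)))
    (eventually_mem_nhdsWithin.mono key)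
  simp only [zero_mul, add_zero] at this
  unfold Ent
  linarith

end Ti0x
open Ti0x

/-- Apply `H` to `φ ^ 2 + ε` (`Good`; Fisher density at most `4 * ‖gradient φ‖ ^ 2`), let
`ε = 1 / (k + 1) → 0` by dominated convergence (`Real.continuous_mul_log`). -/
theorem dl_sq (hl : 0 ≤ lam) (H : DL p lam D) {φ : Eu n → ℝ} (hφ : Bd1 φ) :
    Ent p (fun x => φ x ^ 2) ≤
      2 * lam * (∫ x, ‖gradient φ x‖ ^ 2 ∂p) + D * ∫ x, φ x ^ 2 ∂p := by
  obtain ⟨C, hC⟩ := hφ.bd
  obtain ⟨L, hL⟩ := hφ.lip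
  have e : ∀ x, ‖gradient (fun x => φ x ^ 2) x‖ = 2 * |φ x| * ‖gradient φ x‖ := fun x => by
    rw [grad_comp (hasDerivAt_pow 2 (φ x)) (hφ.diff x), norm_smul]; simp
  have := dl_gen (u := fun x => 4 * ‖gradient φ x‖ ^ 2) (L := 2 * C * L) hl H (hφ.diff.pow 2)
    (fun x => sq_nonneg _) (fun x => sq_le (hC x)) (fun x => by
      rw [show φ ^ 2 = fun x => φ x ^ 2 from rfl, e]
      have := (abs_nonneg _).trans (hC x)
      gcongr
      exacts [hC x, hL x]) (fun x => by positivity) (fun x => by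
      rw [show φ ^ 2 = fun x => φ x ^ 2 from rfl, e, mul_pow, mul_pow, sq_abs]
      exact le_of_eq (by ring)) ((int_grad hφ).const_mul 4)
  rw [integral_const_mul] at this
  exact this.trans (le_of_eq (by simp only [Pi.pow_apply]; ring))

end Vale.Agent.P245
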